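import Vale.Agent.P074.Gain

/-!
Stability of the barycenters of Laguerre cells.
-/

open MeasureTheory Set
open scoped ENNReal NNReal

namespace Vale.Agent.P074

theorem bary_aux1 {g g' t t' A : ℝ} (hg : 0 < g) (hg' : 0 < g') (ht : 1 ≤ t) (ht' : 1 ≤ t')
    (hA : 1 ≤ A) (h : g' * t' ≤ g * t) :
    (g - g') ^ 2 ≤ 2 * (g * t - g' * t') ^ 2 + A / 2 * (g * g') * (t ^ 2 - t' ^ 2) ^ 2 := by
  have t0 : 0 < t := by linarith
  have h1 : g - g' = (g * t - g' * t') / t + g' * (t' - t) / t := by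
    field_simp
    ring
  have h2 : (g - g') ^ 2 ≤
      2 * ((g * t - g' * t') / t) ^ 2 + 2 * (g' * (t' - t) / t) ^ 2 := by
    rw [h1]
    nlinarith [sq_nonneg ((g * t - g' * t') / t - g' * (t' - t) / t)]
  have h3 : ((g * t - g' * t') / t) ^ 2 ≤ (g * t - g' * t') ^ 2 := by
    rw [div_pow]
    exact div_le_self (sq_nonneg _) (one_le_pow₀ ht)
  have h4 : 2 * (g' * (t' - t) / t) ^ 2 ≤ A / 2 * (g * g') * (t ^ 2 - t' ^ 2) ^ 2 := by
    have e1 : 2 * (g' * (t' - t) / t) ^ 2 = 2 * g' ^ 2 / t ^ 2 * (t' - t) ^ 2 := by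
      rw [div_pow, mul_pow]
      ring
    have e2 : A / 2 * (g * g') * (t ^ 2 - t' ^ 2) ^ 2 =
        (A / 2 * (g * g') * (t + t') ^ 2) * (t' - t) ^ 2 := by ring
    rw [e1, e2]
    apply mul_le_mul_of_nonneg_right _ (sq_nonneg _)
    rw [div_le_iff₀ (by positivity)]
    have h5 : g' ≤ g * t := le_trans (le_mul_of_one_le_right hg'.le ht') h
    have h6 : 2 * g' ^ 2 ≤ 2 * (g * g') * t := by nlinarith
    have h7 : (4 : ℝ) ≤ (t + t') ^ 2 := by nlinarith
    have h8 : t ≤ t ^ 2 := by nlinarith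
    have h9 : 0 < g * g' := mul_pos hg hg'
    calc 2 * g' ^ 2 ≤ 2 * (g * g') * t := h6
      _ = 1 / 2 * (g * g') * 4 * t := by ring
      _ ≤ A / 2 * (g * g') * (t + t') ^ 2 * t ^ 2 := by gcongr
  linarith

theorem bary_aux2 {g g' t t' A : ℝ} (hg : 0 < g) (hg' : 0 < g') (ht : 1 ≤ t) (ht' : 1 ≤ t')
    (hA : 1 ≤ A) :
    (g - g') ^ 2 ≤ 2 * (g * t - g' * t') ^ 2 + A / 2 * (g * g') * (t ^ 2 - t' ^ 2) ^ 2 := by
  rcases le_total (g' * t') (g * t) with h | h
  · exact bary_aux1 hg hg' ht ht' hA h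
  · have := bary_aux1 hg' hg ht' ht hA h
    calc (g - g') ^ 2 = (g' - g) ^ 2 := by ring
      _ ≤ _ := this
      _ = _ := by ring

/-- the same in terms of the masses -/
theorem bary_aux3 {G G' P P' A : ℝ} (hG : 0 < G) (hG' : 0 < G') (hP : 1 ≤ P) (hP' : 1 ≤ P')
    (hA : 1 ≤ A) :
    (Real.sqrt G - Real.sqrt G') ^ 2 ≤
      2 * (Real.sqrt (G * P) - Real.sqrt (G' * P')) ^ 2 +
        A / 2 * Real.sqrt (G * G') * (P - P') ^ 2 := by
  have h := bary_aux2 (Real.sqrt_pos.2 hG) (Real.sqrt_pos.2 hG') (Real.one_le_sqrt.2 hP)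
    (Real.one_le_sqrt.2 hP') hA
  rw [Real.sq_sqrt (by linarith), Real.sq_sqrt (by linarith)] at h
  rw [Real.sqrt_mul hG.le, Real.sqrt_mul hG'.le, Real.sqrt_mul hG.le]
  exact h

theorem sqrt_sub_sq_le {N N' : ℝ} (hN : 0 < N) (hN' : 0 < N') :
    (Real.sqrt N - Real.sqrt N') ^ 2 ≤ (N' - N) ^ 2 / N := by
  rw [le_div_iff₀ hN]
  have h1 : N' - N = (Real.sqrt N' - Real.sqrt N) * (Real.sqrt N' + Real.sqrt N) := by
    have := Real.sq_sqrt hN.le
    have := Real.sq_sqrt hN'.le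
    nlinarith
  rw [h1, mul_pow]
  have h2 : N ≤ (Real.sqrt N' + Real.sqrt N) ^ 2 := by
    have := Real.sq_sqrt hN.le
    have h3 := Real.sqrt_nonneg N
    have h4 := Real.sqrt_nonneg N'
    nlinarith
  have h3 : (Real.sqrt N - Real.sqrt N') ^ 2 = (Real.sqrt N' - Real.sqrt N) ^ 2 := by ring
  rw [h3]
  exact mul_le_mul_of_nonneg_left h2 (sq_nonneg _)

/-- the summation part of the argument -/
theorem bary_sum {ι : Type} [Fintype ι] {R A : ℝ} (hR : 0 < R) (hA : 1 ≤ A)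
    (hA3 : A ^ 3 ≤ 5 / 4) (G G' P P' Q Q' B : ι → ℝ) (hG : ∀ i, 0 < G i) (hG' : ∀ i, 0 < G' i)
    (hP : ∀ i, 1 ≤ P i) (hP' : ∀ i, 1 ≤ P' i) (hPA : ∀ i, P i ≤ A) (hPA' : ∀ i, P' i ≤ A)
    (hN : ∀ i, G i * P i ≤ 2 * (G' i * P' i)) (hB0 : ∀ i, 0 ≤ B i)
    (hB : ∀ i, B i ≤ |Q i - Q' i| + R * |P i - P' i|)
    (h0 : ∑ i, Real.sqrt (G i * G' i) * (P i - P' i) ^ 2 ≤
      A ^ 2 / 2 * ∑ i, (Real.sqrt (G i) - Real.sqrt (G' i)) ^ 2)
    (h1 : ∑ i, Real.sqrt (G i * G' i) * (Q i - Q' i) ^ 2 ≤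
      81 / 2 * R ^ 2 * A ^ 2 * ∑ i, (Real.sqrt (G i) - Real.sqrt (G' i)) ^ 2) :
    ∑ i, (G i * P i) * B i ^ 2 ≤
      656 * R ^ 2 * ∑ i, (G' i * P' i - G i * P i) ^ 2 / (G i * P i) := by
  set S := ∑ i, (Real.sqrt (G i) - Real.sqrt (G' i)) ^ 2 with hS
  set T := ∑ i, (G' i * P' i - G i * P i) ^ 2 / (G i * P i) with hT
  have hS0 : 0 ≤ S := Finset.sum_nonneg fun i _ => sq_nonneg _
  have hS1 : S ≤ 2 * T + A / 2 * ∑ i, Real.sqrt (G i * G' i) * (P i - P' i) ^ 2 := by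
    rw [hS, hT, Finset.mul_sum, Finset.mul_sum, ← Finset.sum_add_distrib]
    refine Finset.sum_le_sum fun i _ => ?_
    have e1 := bary_aux3 (hG i) (hG' i) (hP i) (hP' i) hA
    have e2 := sqrt_sub_sq_le (mul_pos (hG i) (by linarith [hP i] : (0 : ℝ) < P i))
      (mul_pos (hG' i) (by linarith [hP' i] : (0 : ℝ) < P' i))
    linarith
  have hS2 : S ≤ 4 * T := by
    have e3 : A / 2 * ∑ i, Real.sqrt (G i * G' i) * (P i - P' i) ^ 2 ≤
        A / 2 * (A ^ 2 / 2 * S) := mul_le_mul_of_nonneg_left h0 (by linarith)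
    have e4 : A / 2 * (A ^ 2 / 2 * S) = A ^ 3 / 4 * S := by ring
    have e5 : A ^ 3 / 4 * S ≤ 1 / 2 * S := mul_le_mul_of_nonneg_right (by linarith) hS0
    linarith
  have hmain : ∑ i, (G i * P i) * B i ^ 2 ≤ ∑ i, 2 * A * (Real.sqrt (G i * G' i) *
      (2 * (Q i - Q' i) ^ 2 + 2 * R ^ 2 * (P i - P' i) ^ 2)) := by
    refine Finset.sum_le_sum fun i _ => ?_
    have f1 : B i ^ 2 ≤ 2 * (Q i - Q' i) ^ 2 + 2 * R ^ 2 * (P i - P' i) ^ 2 := by
      have g1 : B i ^ 2 ≤ (|Q i - Q' i| + R * |P i - P' i|) ^ 2 :=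
        pow_le_pow_left₀ (hB0 i) (hB i) 2
      have g2 := sq_abs (Q i - Q' i)
      have g3 := sq_abs (P i - P' i)
      have g4 := sq_nonneg (|Q i - Q' i| - R * |P i - P' i|)
      nlinarith
    have hPi : 0 < P i := by linarith [hP i]
    have hPi' : 0 < P' i := by linarith [hP' i]
    have hGi := hG i
    have hGi' := hG' i
    have f2 : G i * P i ≤ 2 * A * Real.sqrt (G i * G' i) := by
      have g1 : (G i * P i) ^ 2 ≤ (2 * A * Real.sqrt (G i * G' i)) ^ 2 := by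
        rw [mul_pow (2 * A), Real.sq_sqrt (by positivity)]
        have g2 : (G i * P i) ^ 2 ≤ (G i * P i) * (2 * (G' i * P' i)) := by
          rw [sq]
          exact mul_le_mul_of_nonneg_left (hN i) (by positivity)
        have g3 : P i * P' i ≤ A * A :=
          mul_le_mul (hPA i) (hPA' i) hPi'.le (by linarith)
        have g4 : G i * P i * (2 * (G' i * P' i)) = 2 * (G i * G' i) * (P i * P' i) := by ring
        rw [g4] at g2
        have g5 : 2 * (G i * G' i) * (P i * P' i) ≤ 2 * (G i * G' i) * (A * A) :=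
          mul_le_mul_of_nonneg_left g3 (by positivity)
        have g6 : 0 ≤ (G i * G' i) * (A * A) := by positivity
        nlinarith
      exact abs_le_of_sq_le_sq' g1 (by positivity) |>.2
    calc (G i * P i) * B i ^ 2
        ≤ (2 * A * Real.sqrt (G i * G' i)) *
          (2 * (Q i - Q' i) ^ 2 + 2 * R ^ 2 * (P i - P' i) ^ 2) :=
          mul_le_mul f2 f1 (sq_nonneg _) (by positivity)
      _ = _ := by ring
  refine hmain.trans ?_
  have e6 : ∑ i, 2 * A * (Real.sqrt (G i * G' i) *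
      (2 * (Q i - Q' i) ^ 2 + 2 * R ^ 2 * (P i - P' i) ^ 2)) =
      4 * A * (∑ i, Real.sqrt (G i * G' i) * (Q i - Q' i) ^ 2) +
      4 * A * R ^ 2 * ∑ i, Real.sqrt (G i * G' i) * (P i - P' i) ^ 2 := by
    rw [Finset.mul_sum, Finset.mul_sum, ← Finset.sum_add_distrib]
    refine Finset.sum_congr rfl fun i _ => ?_
    ring
  rw [e6]
  have e7 : 4 * A * (∑ i, Real.sqrt (G i * G' i) * (Q i - Q' i) ^ 2) ≤
      4 * A * (81 / 2 * R ^ 2 * A ^ 2 * S) := mul_le_mul_of_nonneg_left h1 (by positivity)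
  have e8 : 4 * A * R ^ 2 * (∑ i, Real.sqrt (G i * G' i) * (P i - P' i) ^ 2) ≤
      4 * A * R ^ 2 * (A ^ 2 / 2 * S) := mul_le_mul_of_nonneg_left h0 (by positivity)
  have e9 : 4 * A * (81 / 2 * R ^ 2 * A ^ 2 * S) + 4 * A * R ^ 2 * (A ^ 2 / 2 * S) =
      164 * R ^ 2 * S * A ^ 3 := by ring
  have e10 : 164 * R ^ 2 * S * A ^ 3 ≤ 164 * R ^ 2 * S * (5 / 4) :=
    mul_le_mul_of_nonneg_left hA3 (by positivity)
  have e11 : 164 * R ^ 2 * S * (5 / 4) ≤ 164 * R ^ 2 * (4 * T) * (5 / 4) := by gcongr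
  nlinarith [e7, e8, e9, e10, e11]


/-- the inverse of the Gaussian weight -/
noncomputable def giw {d : ℕ} (δ : ℝ) (x : E d) : ℝ := Real.exp (δ * ‖x‖ ^ 2 / 2)

theorem giw_mul_gw {d : ℕ} (δ : ℝ) (x : E d) : giw δ x * gw δ x = 1 := by
  rw [giw, gw, ← Real.exp_add, add_neg_cancel, Real.exp_zero]

theorem continuous_giw {d : ℕ} (δ : ℝ) : Continuous (giw δ : E d → ℝ) := by
  unfold giw; fun_prop

theorem giw_pos {d : ℕ} (δ : ℝ) (x : E d) : 0 < giw δ x := Real.exp_pos _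

theorem exp_sub_abs_le {a b M : ℝ} (ha : a ≤ M) (hb : b ≤ M) :
    |Real.exp a - Real.exp b| ≤ Real.exp M * |a - b| := by
  wlog h : b ≤ a generalizing a b
  · rw [abs_sub_comm, abs_sub_comm a b]
    exact this hb ha (le_of_not_ge h)
  rw [abs_of_nonneg (sub_nonneg.2 (Real.exp_le_exp.2 h)), abs_of_nonneg (sub_nonneg.2 h)]
  have h1 := Real.add_one_le_exp (b - a)
  have h2 : Real.exp b = Real.exp a * Real.exp (b - a) := by
    rw [← Real.exp_add]; congr 1; ring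
  have h3 : Real.exp a - Real.exp b ≤ Real.exp a * (a - b) := by
    rw [h2]
    nlinarith [Real.exp_pos a]
  exact h3.trans (mul_le_mul_of_nonneg_right (Real.exp_le_exp.2 ha) (sub_nonneg.2 h))

section lip

variable {d : ℕ} {R : ℝ} {K : Set (E d)}

theorem giw_bound (hR : 0 < R) {x : E d} (hx : ‖x‖ ≤ R) :
    (1 / (8 * R ^ 2)) * ‖x‖ ^ 2 / 2 ≤ 1 / 16 := by
  have h1 : ‖x‖ ^ 2 ≤ R ^ 2 := pow_le_pow_left₀ (norm_nonneg _) hx 2
  rw [div_mul_eq_mul_div, one_mul, div_div, div_le_div_iff₀ (by positivity) (by norm_num)]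
  nlinarith

theorem giw_lip (hR : 0 < R) {x x' : E d} (hx : ‖x‖ ≤ R) (hx' : ‖x'‖ ≤ R) :
    |giw (1 / (8 * R ^ 2)) x - giw (1 / (8 * R ^ 2)) x'| ≤
      Real.exp (1 / 16) / (8 * R) * ‖x - x'‖ := by
  refine (exp_sub_abs_le (giw_bound hR hx) (giw_bound hR hx')).trans ?_
  rw [show Real.exp (1 / 16) / (8 * R) * ‖x - x'‖ = Real.exp (1 / 16) * (‖x - x'‖ / (8 * R)) by
    ring]
  apply mul_le_mul_of_nonneg_left _ (Real.exp_pos _).le
  have h1 : 1 / (8 * R ^ 2) * ‖x‖ ^ 2 / 2 - 1 / (8 * R ^ 2) * ‖x'‖ ^ 2 / 2 =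
      ((‖x‖ - ‖x'‖) * (‖x‖ + ‖x'‖)) / (16 * R ^ 2) := by
    field_simp
    ring
  rw [h1, abs_div, abs_of_pos (show (0 : ℝ) < 16 * R ^ 2 by positivity), abs_mul,
    div_le_div_iff₀ (by positivity) (by positivity)]
  have h2 : |‖x‖ - ‖x'‖| ≤ ‖x - x'‖ := abs_norm_sub_norm_le x x'
  have h3 : |‖x‖ + ‖x'‖| ≤ 2 * R := by
    rw [abs_of_nonneg (by positivity)]
    linarith
  have h4 : |‖x‖ - ‖x'‖| * |‖x‖ + ‖x'‖| ≤ ‖x - x'‖ * (2 * R) :=
    mul_le_mul h2 h3 (abs_nonneg _) (norm_nonneg _)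
  calc |‖x‖ - ‖x'‖| * |‖x‖ + ‖x'‖| * (8 * R) ≤ ‖x - x'‖ * (2 * R) * (8 * R) :=
        mul_le_mul_of_nonneg_right h4 (by positivity)
    _ = ‖x - x'‖ * (16 * R ^ 2) := by ring

theorem giw_le (hR : 0 < R) {x : E d} (hx : ‖x‖ ≤ R) :
    giw (1 / (8 * R ^ 2)) x ≤ Real.exp (1 / 16) := Real.exp_le_exp.2 (giw_bound hR hx)

theorem one_le_giw (hR : 0 < R) (x : E d) : 1 ≤ giw (1 / (8 * R ^ 2)) x := by
  rw [giw]
  apply Real.one_le_exp
  positivity

theorem inner_giw_lip (hR : 0 < R) {e : E d} (he : ‖e‖ ≤ 1) {x x' : E d} (hx : ‖x‖ ≤ R)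
    (hx' : ‖x'‖ ≤ R) :
    |inner ℝ x e * giw (1 / (8 * R ^ 2)) x - inner ℝ x' e * giw (1 / (8 * R ^ 2)) x'| ≤
      9 / 8 * Real.exp (1 / 16) * ‖x - x'‖ := by
  set p := giw (1 / (8 * R ^ 2)) x
  set p' := giw (1 / (8 * R ^ 2)) x'
  have h1 : inner ℝ x e * p - inner ℝ x' e * p' =
      inner ℝ (x - x') e * p + inner ℝ x' e * (p - p') := by
    rw [inner_sub_left]; ring
  have h2 : |(inner ℝ (x - x') e : ℝ)| ≤ ‖x - x'‖ :=
    (abs_real_inner_le_norm _ _).trans (mul_le_of_le_one_right (norm_nonneg _) he)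
  have h3 : |(inner ℝ x' e : ℝ)| ≤ R :=
    ((abs_real_inner_le_norm _ _).trans (mul_le_of_le_one_right (norm_nonneg _) he)).trans hx'
  have h4 := giw_lip hR hx hx'
  have h5 : |p| ≤ Real.exp (1 / 16) := by
    rw [abs_of_pos (giw_pos _ _)]
    exact giw_le hR hx
  rw [h1]
  calc |inner ℝ (x - x') e * p + inner ℝ x' e * (p - p')|
      ≤ |inner ℝ (x - x') e * p| + |inner ℝ x' e * (p - p')| := abs_add_le _ _
    _ = |(inner ℝ (x - x') e : ℝ)| * |p| + |(inner ℝ x' e : ℝ)| * |p - p'| := by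
        rw [abs_mul, abs_mul]
    _ ≤ ‖x - x'‖ * Real.exp (1 / 16) + R * (Real.exp (1 / 16) / (8 * R) * ‖x - x'‖) := by
        gcongr
    _ = 9 / 8 * Real.exp (1 / 16) * ‖x - x'‖ := by
        field_simp
        ring

end lip

theorem exp_sixteenth_pow : Real.exp (1 / 16) ^ 3 ≤ 5 / 4 := by
  rw [← Real.exp_nat_mul]
  have h := Real.exp_bound' (x := ((3 : ℕ) : ℝ) * (1 / 16)) (by norm_num) (by norm_num)
    (n := 3) (by norm_num)
  refine h.trans ?_
  norm_num [Finset.sum_range_succ, Nat.factorial]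

section transfer

variable {d : ℕ} {ι : Type} [Fintype ι] {K : Set (E d)}

theorem unif_restrict_cell (hK : IsCompact K) (y : ι → E d) (ψ : ι → ℝ) (i : ι) :
    (unif K).restrict (cell K y ψ i) = (volume K)⁻¹ • volume.restrict (cell K y ψ i) := by
  rw [unif, Measure.restrict_smul, Measure.restrict_restrict (measurableSet_cell hK y ψ i),
    inter_eq_self_of_subset_left (cell_subset y ψ i)]

theorem mass_eq (hK : IsCompact K) (y : ι → E d) (ψ : ι → ℝ) (i : ι) :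
    mass K y ψ i = (volume.real K)⁻¹ * volume.real (cell K y ψ i) := by
  have h1 : (unif K).real (cell K y ψ i) =
      ((unif K).restrict (cell K y ψ i)).real (cell K y ψ i) := by
    simp [measureReal_def]
  rw [mass, h1, unif_restrict_cell hK, measureReal_ennreal_smul_apply, ENNReal.toReal_inv]
  simp [measureReal_def]

theorem mom_eq (hK : IsCompact K) (y : ι → E d) (ψ : ι → ℝ) (i : ι) :
    mom K y ψ i = (volume.real K)⁻¹ • ∫ x in cell K y ψ i, x := by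
  rw [mom, unif_restrict_cell hK, integral_smul_measure, ENNReal.toReal_inv]
  rfl

theorem bary_eq (hK : IsCompact K) (hV : 0 < volume.real K) (y : ι → E d) (ψ : ι → ℝ) (i : ι) :
    bary K y ψ i = (volume.real (cell K y ψ i))⁻¹ • ∫ x in cell K y ψ i, x := by
  rw [bary, mass_eq hK, mom_eq hK, smul_smul]
  congr 1
  field_simp

end transfer

section main

variable {d : ℕ} {ι : Type} {K : Set (E d)}

theorem gm_mul_ga_giw {δ : ℝ} (y : ι → E d) (ψ : ι → ℝ) (i : ι)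
    (hG : 0 < gm δ K y ψ i) :
    gm δ K y ψ i * ga δ K y ψ (giw δ) i = volume.real (cell K y ψ i) := by
  rw [ga, mul_div_cancel₀ _ hG.ne']
  simp only [giw_mul_gw]
  simp

variable [Fintype ι]

theorem integrableOn_id_cell (hK : IsCompact K) (y : ι → E d)
    (ψ : ι → ℝ) (i : ι) : IntegrableOn (fun x : E d => x) (cell K y ψ i) volume :=
  (continuousOn_id.integrableOn_compact hK).mono_set (cell_subset y ψ i)

theorem ga_inner (hK : IsCompact K) {δ : ℝ} (y : ι → E d) (ψ : ι → ℝ) (i : ι)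
    (hG : 0 < gm δ K y ψ i) (hN : 0 < volume.real (cell K y ψ i)) (e : E d) :
    ga δ K y ψ (fun x => inner ℝ x e * giw δ x) i =
      ga δ K y ψ (giw δ) i *
        inner ℝ ((volume.real (cell K y ψ i))⁻¹ • ∫ x in cell K y ψ i, x) e := by
  have h1 : ∫ x in cell K y ψ i, (inner ℝ x e * giw δ x) * gw δ x =
      inner ℝ (∫ x in cell K y ψ i, x) e := by
    have h2 : ∀ x : E d, (inner ℝ x e * giw δ x) * gw δ x = inner ℝ e x := by
      intro x
      rw [mul_assoc, giw_mul_gw, mul_one, real_inner_comm]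
    simp only [h2]
    rw [integral_inner (integrableOn_id_cell hK y ψ i), real_inner_comm]
  have h3 : 0 < ga δ K y ψ (giw δ) i := by
    have := gm_mul_ga_giw y ψ i hG
    rw [← this] at hN
    exact pos_of_mul_pos_right hN hG.le
  rw [real_inner_smul_left, ← gm_mul_ga_giw y ψ i hG]
  rw [show ga δ K y ψ (fun x => inner ℝ x e * giw δ x) i =
    (∫ x in cell K y ψ i, (inner ℝ x e * giw δ x) * gw δ x) / gm δ K y ψ i from rfl, h1]
  field_simp

theorem gm_le_vol (hK : IsCompact K) {δ : ℝ} (hδ : 0 ≤ δ) (y : ι → E d) (ψ : ι → ℝ) (i : ι) :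
    gm δ K y ψ i ≤ volume.real (cell K y ψ i) := by
  have h1 : gm δ K y ψ i ≤ ∫ x in cell K y ψ i, (1 : ℝ) := by
    refine setIntegral_mono_on
      (integrableOn_cell_of_continuous hK y ψ i (continuous_gw δ))
      (integrableOn_cell_of_continuous hK y ψ i continuous_const)
      (measurableSet_cell hK y ψ i) fun x _ => ?_
    rw [gw]
    apply Real.exp_le_one_iff.2
    have : 0 ≤ δ * ‖x‖ ^ 2 / 2 := by positivity
    linarith
  simpa using h1

theorem vol_le_gm {R : ℝ} (hR : 0 < R) (hK : IsCompact K) (hKR : K ⊆ Metric.closedBall 0 R)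
    (y : ι → E d) (ψ : ι → ℝ) (i : ι) :
    volume.real (cell K y ψ i) ≤ Real.exp (1 / 16) * gm (1 / (8 * R ^ 2)) K y ψ i := by
  have h1 : ∫ x in cell K y ψ i, (1 : ℝ) ≤
      ∫ x in cell K y ψ i, Real.exp (1 / 16) * gw (1 / (8 * R ^ 2)) x := by
    refine setIntegral_mono_on
      (integrableOn_cell_of_continuous hK y ψ i continuous_const)
      (integrableOn_cell_of_continuous hK y ψ i ((continuous_gw _).const_mul _))
      (measurableSet_cell hK y ψ i) fun x hx => ?_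
    have hx' : ‖x‖ ≤ R := by
      have := hKR (cell_subset y ψ i hx)
      simpa using this
    rw [gw, ← Real.exp_add]
    apply Real.one_le_exp
    have := giw_bound hR hx'
    linarith
  rw [integral_const_mul] at h1
  simpa [gm] using h1

theorem norm_bary_le {R : ℝ} (hR : 0 < R) (hKR : K ⊆ Metric.closedBall 0 R)
    (hK : IsCompact K) (y : ι → E d) (ψ : ι → ℝ) (i : ι)
    (hN : 0 < volume.real (cell K y ψ i)) :
    ‖(volume.real (cell K y ψ i))⁻¹ • ∫ x in cell K y ψ i, x‖ ≤ R := by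
  rw [norm_smul, norm_inv, Real.norm_of_nonneg hN.le, inv_mul_le_iff₀ hN]
  have h1 : ‖∫ x in cell K y ψ i, x‖ ≤ R * volume.real (cell K y ψ i) := by
    refine norm_setIntegral_le_of_norm_le_const ?_ fun x hx => ?_
    · exact lt_of_le_of_lt (measure_mono (cell_subset y ψ i)) hK.measure_lt_top
    · have := hKR (cell_subset y ψ i hx)
      simpa using this
  linarith

end main

/-- Stability of the barycenters of the cells when the masses change (same sites). -/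
theorem bary_stability {d : ℕ} {R : ℝ} (hR : 0 < R) :
    ∃ C : ℝ, 0 ≤ C ∧ ∀ K : Set (E d), IsCompact K → Convex ℝ K → (interior K).Nonempty →
      K ⊆ Metric.closedBall 0 R →
      ∀ (ι : Type) [Fintype ι] (y : ι → E d), Function.Injective y → ∀ ψ ψ' : ι → ℝ,
      (∀ i, 0 < mass K y ψ i) → (∀ i, 0 < mass K y ψ' i) →
      (∀ i, mass K y ψ i ≤ 2 * mass K y ψ' i) →
      ∑ i, mass K y ψ i * ‖bary K y ψ' i - bary K y ψ i‖ ^ 2 ≤
        C * ∑ i, (mass K y ψ' i - mass K y ψ i) ^ 2 / mass K y ψ i := by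
  refine ⟨656 * R ^ 2, by positivity, ?_⟩
  intro K hK hKc hKi hKR ι _ y hy ψ ψ' hm hm' hmm
  rcases isEmpty_or_nonempty ι with hι | hι
  · simp
  have hV : 0 < volume.real K := by
    rw [measureReal_def]
    exact ENNReal.toReal_pos (Measure.measure_pos_of_nonempty_interior _ hKi).ne'
      hK.measure_lt_top.ne
  set V := volume.real K with hVdef
  set N : ι → ℝ := fun i => volume.real (cell K y ψ i) with hNdef
  set N' : ι → ℝ := fun i => volume.real (cell K y ψ' i) with hNdef'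
  have hmN : ∀ i, mass K y ψ i = V⁻¹ * N i := fun i => mass_eq hK y ψ i
  have hmN' : ∀ i, mass K y ψ' i = V⁻¹ * N' i := fun i => mass_eq hK y ψ' i
  have hN : ∀ i, 0 < N i := fun i => by
    have := hm i
    rw [hmN] at this
    exact pos_of_mul_pos_right this (inv_pos.2 hV).le
  have hN' : ∀ i, 0 < N' i := fun i => by
    have := hm' i
    rw [hmN'] at this
    exact pos_of_mul_pos_right this (inv_pos.2 hV).le
  set A := Real.exp (1 / 16) with hA
  have hA1 : 1 ≤ A := Real.one_le_exp (by norm_num)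
  have hA0 : 0 < A := Real.exp_pos _
  set δ : ℝ := 1 / (8 * R ^ 2) with hδ
  have hδ0 : 0 < δ := by positivity
  set G : ι → ℝ := fun i => gm δ K y ψ i with hGdef
  set G' : ι → ℝ := fun i => gm δ K y ψ' i with hGdef'
  have hG1 : ∀ i, G i ≤ N i := fun i => gm_le_vol hK hδ0.le y ψ i
  have hG1' : ∀ i, G' i ≤ N' i := fun i => gm_le_vol hK hδ0.le y ψ' i
  have hG2 : ∀ i, N i ≤ A * G i := fun i => vol_le_gm hR hK hKR y ψ i
  have hG2' : ∀ i, N' i ≤ A * G' i := fun i => vol_le_gm hR hK hKR y ψ' i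
  have hG : ∀ i, 0 < G i := fun i =>
    pos_of_mul_pos_right (lt_of_lt_of_le (hN i) (hG2 i)) hA0.le
  have hG' : ∀ i, 0 < G' i := fun i =>
    pos_of_mul_pos_right (lt_of_lt_of_le (hN' i) (hG2' i)) hA0.le
  set P : ι → ℝ := fun i => ga δ K y ψ (giw δ) i with hPdef
  set P' : ι → ℝ := fun i => ga δ K y ψ' (giw δ) i with hPdef'
  have hGP : ∀ i, G i * P i = N i := fun i => gm_mul_ga_giw y ψ i (hG i)
  have hGP' : ∀ i, G' i * P' i = N' i := fun i => gm_mul_ga_giw y ψ' i (hG' i)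
  have hP1 : ∀ i, 1 ≤ P i := fun i => by
    have h1 := hG1 i
    rw [← hGP i] at h1
    exact (le_mul_iff_one_le_right (hG i)).1 h1
  have hP1' : ∀ i, 1 ≤ P' i := fun i => by
    have h1 := hG1' i
    rw [← hGP' i] at h1
    exact (le_mul_iff_one_le_right (hG' i)).1 h1
  have hPA : ∀ i, P i ≤ A := fun i => by
    have h1 := hG2 i
    rw [← hGP i, mul_comm A] at h1
    exact le_of_mul_le_mul_left h1 (hG i)
  have hPA' : ∀ i, P' i ≤ A := fun i => by
    have h1 := hG2' i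
    rw [← hGP' i, mul_comm A] at h1
    exact le_of_mul_le_mul_left h1 (hG' i)
  set b : ι → E d := fun i => (volume.real (cell K y ψ i))⁻¹ • ∫ x in cell K y ψ i, x with hb
  set b' : ι → E d := fun i => (volume.real (cell K y ψ' i))⁻¹ • ∫ x in cell K y ψ' i, x
    with hb'
  have hbary : ∀ i, bary K y ψ i = b i := fun i => bary_eq hK hV y ψ i
  have hbary' : ∀ i, bary K y ψ' i = b' i := fun i => bary_eq hK hV y ψ' i
  have hbR : ∀ i, ‖b i‖ ≤ R := fun i => norm_bary_le hR hKR hK y ψ i (hN i)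
  set e : ι → E d := fun i => ‖b' i - b i‖⁻¹ • (b' i - b i) with he
  have he1 : ∀ i, ‖e i‖ ≤ 1 := fun i => by
    rw [he]
    simp only [norm_smul, norm_inv, norm_norm]
    exact inv_mul_le_one
  have he2 : ∀ i, inner ℝ (b' i - b i) (e i) = ‖b' i - b i‖ := fun i => by
    rw [he]
    simp only [real_inner_smul_right, real_inner_self_eq_norm_sq]
    rcases eq_or_ne (‖b' i - b i‖) 0 with h | h
    · rw [h]; simp
    · field_simp
  set Q : ι → ℝ := fun i => ga δ K y ψ (fun x => inner ℝ x (e i) * giw δ x) i with hQdef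
  set Q' : ι → ℝ := fun i => ga δ K y ψ' (fun x => inner ℝ x (e i) * giw δ x) i with hQdef'
  have hQ : ∀ i, Q i = P i * inner ℝ (b i) (e i) := fun i =>
    ga_inner hK y ψ i (hG i) (hN i) (e i)
  have hQ' : ∀ i, Q' i = P' i * inner ℝ (b' i) (e i) := fun i =>
    ga_inner hK y ψ' i (hG' i) (hN' i) (e i)
  have hB : ∀ i, ‖b' i - b i‖ ≤ |Q i - Q' i| + R * |P i - P' i| := by
    intro i
    have h1 : ‖b' i - b i‖ ≤ P' i * ‖b' i - b i‖ :=
      le_mul_of_one_le_left (norm_nonneg _) (hP1' i)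
    have h2 : P' i * ‖b' i - b i‖ = (Q' i - Q i) + (P i - P' i) * inner ℝ (b i) (e i) := by
      rw [← he2 i, inner_sub_left, hQ, hQ']
      ring
    have h3 : |(inner ℝ (b i) (e i) : ℝ)| ≤ R :=
      ((abs_real_inner_le_norm _ _).trans
        (mul_le_of_le_one_right (norm_nonneg _) (he1 i))).trans (hbR i)
    have h4 : (P i - P' i) * inner ℝ (b i) (e i) ≤ |P i - P' i| * R :=
      (le_abs_self _).trans (by
        rw [abs_mul]
        exact mul_le_mul_of_nonneg_left h3 (abs_nonneg _))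
    have h5 : Q' i - Q i ≤ |Q i - Q' i| := by
      rw [abs_sub_comm]; exact le_abs_self _
    linarith
  have hKn : ∀ x ∈ K, ‖x‖ ≤ R := fun x hx => by
    have := hKR hx
    simpa using this
  have c0 := cells_gain (δ := δ) (L := A / (8 * R)) hK hKc hδ0 (by positivity) hy ψ ψ'
    (fun _ => giw δ) (fun _ => continuous_giw δ)
    (fun _ x hx x' hx' => giw_lip hR (hKn x hx) (hKn x' hx')) hG hG'
  have c1 := cells_gain (δ := δ) (L := 9 / 8 * A) hK hKc hδ0 (by positivity) hy ψ ψ'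
    (fun i x => inner ℝ x (e i) * giw δ x)
    (fun i => by
      have := continuous_giw (d := d) δ
      fun_prop)
    (fun i x hx x' hx' => inner_giw_lip hR (he1 i) (hKn x hx) (hKn x' hx')) hG hG'
  have h0 : ∑ i, Real.sqrt (G i * G' i) * (P i - P' i) ^ 2 ≤
      A ^ 2 / 2 * ∑ i, (Real.sqrt (G i) - Real.sqrt (G' i)) ^ 2 := by
    have e1 : δ / (4 * (A / (8 * R)) ^ 2) = 2 / A ^ 2 := by
      rw [hδ]
      field_simp
      norm_num
    rw [e1, div_mul_eq_mul_div, div_le_iff₀ (by positivity)] at c0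
    linarith
  have h1 : ∑ i, Real.sqrt (G i * G' i) * (Q i - Q' i) ^ 2 ≤
      81 / 2 * R ^ 2 * A ^ 2 * ∑ i, (Real.sqrt (G i) - Real.sqrt (G' i)) ^ 2 := by
    have e1 : δ / (4 * (9 / 8 * A) ^ 2) = 2 / (81 * R ^ 2 * A ^ 2) := by
      rw [hδ]
      field_simp
      norm_num
    rw [e1, div_mul_eq_mul_div, div_le_iff₀ (by positivity)] at c1
    linarith
  have hmain := bary_sum hR hA1 exp_sixteenth_pow G G' P P' Q Q' (fun i => ‖b' i - b i‖)
    hG hG' hP1 hP1' hPA hPA' (fun i => by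
      rw [hGP, hGP']
      have := hmm i
      rw [hmN, hmN'] at this
      have h3 : V⁻¹ * N i ≤ V⁻¹ * (2 * N' i) := by linarith
      exact le_of_mul_le_mul_left h3 (inv_pos.2 hV)) (fun i => norm_nonneg _) hB h0 h1
  simp only [hGP, hGP'] at hmain
  have hl : ∑ i, mass K y ψ i * ‖bary K y ψ' i - bary K y ψ i‖ ^ 2 =
      V⁻¹ * ∑ i, N i * ‖b' i - b i‖ ^ 2 := by
    rw [Finset.mul_sum]
    refine Finset.sum_congr rfl fun i _ => ?_
    rw [hmN, hbary, hbary', mul_assoc]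
  have hr : ∑ i, (mass K y ψ' i - mass K y ψ i) ^ 2 / mass K y ψ i =
      V⁻¹ * ∑ i, (N' i - N i) ^ 2 / N i := by
    rw [Finset.mul_sum]
    refine Finset.sum_congr rfl fun i _ => ?_
    rw [hmN, hmN']
    have := (hN i).ne'
    field_simp
  rw [hl, hr]
  calc V⁻¹ * ∑ i, N i * ‖b' i - b i‖ ^ 2
      ≤ V⁻¹ * (656 * R ^ 2 * ∑ i, (N' i - N i) ^ 2 / N i) :=
        mul_le_mul_of_nonneg_left hmain (inv_pos.2 hV).le
    _ = _ := by ring

end Vale.Agent.P074
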