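import Mathlib

open MeasureTheory Set
open scoped ENNReal NNReal

namespace Vale.Agent.P074

section general

variable {E : Type} [NormedAddCommGroup E] [MeasurableSpace E]

/-- `T` is a quadratic optimal transport map from `ρ` to `μ`: a Borel map pushing `ρ` forward
to `μ` that minimizes `∫ |x - T x|² dρ` among all Borel maps pushing `ρ` forward to `μ`. -/
def IsOptimalMap (ρ μ : Measure E) (T : E → E) : Prop :=
  Measurable T ∧ ρ.map T = μ ∧
    ∀ S : E → E, Measurable S → ρ.map S = μ →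
      ∫⁻ x, ENNReal.ofReal (‖x - T x‖ ^ 2) ∂ρ ≤ ∫⁻ x, ENNReal.ofReal (‖x - S x‖ ^ 2) ∂ρ

/-- The couplings of `μ` and `ν`. -/
def Couplings (μ ν : Measure E) : Set (Measure (E × E)) :=
  {π | π.map Prod.fst = μ ∧ π.map Prod.snd = ν}

/-- The Wasserstein distance `W_p`. -/
noncomputable def W (p : ℝ) (μ ν : Measure E) : ℝ≥0∞ :=
  ⨅ π ∈ Couplings μ ν, (∫⁻ z, ENNReal.ofReal (‖z.1 - z.2‖ ^ p) ∂π) ^ (1 / p)

/-- The distance `‖S - T‖_{L²(ρ)}`. -/
noncomputable def distL2 (ρ : Measure E) (S T : E → E) : ℝ≥0∞ :=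
  (∫⁻ x, ENNReal.ofReal (‖S x - T x‖ ^ 2) ∂ρ) ^ (1 / 2 : ℝ)

end general

/-- Euclidean space `ℝ^d` with the Euclidean norm. -/
abbrev E (d : ℕ) := EuclideanSpace ℝ (Fin d)

/-- The uniform probability measure on `K`. -/
noncomputable def unif {d : ℕ} (K : Set (E d)) : Measure (E d) :=
  (volume K)⁻¹ • (volume.restrict K)

/-- The exponent `α` is admissible in dimension `d`. -/
def Admissible (d : ℕ) (α : ℝ) : Prop :=
  0 < α ∧ α ≤ 1 ∧
  ∀ K : Set (E d), IsCompact K → Convex ℝ K → (interior K).Nonempty →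
  ∀ Y : Set (E d), IsCompact Y →
  ∃ C : ℝ≥0, ∀ μ ν : Measure (E d), IsProbabilityMeasure μ → IsProbabilityMeasure ν →
    μ Yᶜ = 0 → ν Yᶜ = 0 →
    ∀ Tμ Tν : E d → E d, IsOptimalMap (unif K) μ Tμ → IsOptimalMap (unif K) ν Tν →
      distL2 (unif K) Tμ Tν ≤ C * (W 2 μ ν) ^ α

/-- The supremum of the admissible exponents. -/
noncomputable def alphaStar (d : ℕ) : ℝ := sSup {α : ℝ | Admissible d α}

end Vale.Agent.P074
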