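import Vale.Agent.P074.Defs

/-!
Task P074-C11: discretization of a coupling by finitely many moving atoms without
collisions.
-/

open MeasureTheory Set
open scoped ENNReal NNReal

namespace Vale.Agent.P074

/-- The bad values of the perturbation parameter are finitely many. -/
lemma discr_bad_finite (p q r κ : ℝ) (hκ : κ ≠ 0) :
    {η : ℝ | (p + η * κ) * (q + η * κ) - r = 0}.Finite := by
  open Polynomial in
  let P : ℝ[X] := (C p + X * C κ) * (C q + X * C κ) - C r
  have hP : P ≠ 0 := by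
    intro h0
    have h2 : P.coeff 2 = κ ^ 2 := by
      have : P = C (κ ^ 2) * X ^ 2 + C (κ * (p + q)) * X + C (p * q - r) := by
        simp only [P, C_mul, C_add, C_sub, C_pow]; ring
      rw [this, coeff_add, coeff_add, coeff_C_mul_X_pow, coeff_C_mul_X, coeff_C]
      simp
    rw [h0, coeff_zero] at h2
    exact hκ (pow_eq_zero_iff (two_ne_zero) |>.mp h2.symm)
  refine (P.roots.toFinset.finite_toSet).subset ?_
  intro η hη
  simp only [Finset.mem_coe, Multiset.mem_toFinset]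
  rw [Polynomial.mem_roots hP, Polynomial.IsRoot.def]
  simp only [P, Polynomial.eval_sub, Polynomial.eval_mul, Polynomial.eval_add, Polynomial.eval_C,
    Polynomial.eval_X]
  exact hη

/-- Nonzero determinant excludes a collision. -/
lemma discr_det {p₀ p₁ q₀ q₁ t : ℝ} (hD : p₀ * q₁ - p₁ * q₀ ≠ 0)
    (h0 : (1 - t) * p₀ + t * q₀ = 0) (h1 : (1 - t) * p₁ + t * q₁ = 0) : False := by
  have e1 : (1 - t) * (p₀ * q₁ - p₁ * q₀) = 0 := by linear_combination q₁ * h0 - q₀ * h1
  have e2 : t * (p₀ * q₁ - p₁ * q₀) = 0 := by linear_combination p₀ * h1 - p₁ * h0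
  apply hD
  linear_combination e1 + e2

/-- Perturbation of finitely many pairs of points into general position. -/
lemma discr_perturb {d : ℕ} (hd : 2 ≤ d) {ι : Type} [Fintype ι] (κ : ι → ℝ)
    (hκ : Function.Injective κ) (a b : ι → E d) {δ : ℝ} (hδ : 0 < δ) :
    ∃ y z : ι → E d, (∀ i, ‖y i - a i‖ ≤ δ) ∧ (∀ i, ‖z i - b i‖ ≤ δ) ∧
      (∀ t : ℝ, Function.Injective (fun i => (1 - t) • y i + t • z i)) := by
  classical
  let i0 : Fin d := ⟨0, by omega⟩
  let i1 : Fin d := ⟨1, by omega⟩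
  have hi : i0 ≠ i1 := by intro h; simpa [i0, i1] using congrArg Fin.val h
  let e0 : E d := EuclideanSpace.single i0 (1 : ℝ)
  let e1 : E d := EuclideanSpace.single i1 (1 : ℝ)
  obtain ⟨R, hR0, hR⟩ : ∃ R : ℝ, 0 < R ∧ ∀ i, |κ i| ≤ R := by
    refine ⟨1 + ∑ i, |κ i|, by positivity, fun i => ?_⟩
    have : |κ i| ≤ ∑ i, |κ i| :=
      Finset.single_le_sum (f := fun i => |κ i|) (fun i _ => abs_nonneg _) (Finset.mem_univ i)
    linarith
  let bad : Set ℝ := ⋃ p ∈ {p : ι × ι | p.1 ≠ p.2}, {η : ℝ |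
    ((a p.1 i0 - a p.2 i0) + η * (κ p.1 - κ p.2)) * ((b p.1 i1 - b p.2 i1) + η * (κ p.1 - κ p.2))
      - (a p.1 i1 - a p.2 i1) * (b p.1 i0 - b p.2 i0) = 0}
  have hbad : bad.Finite := by
    refine Set.Finite.biUnion (Set.toFinite _) ?_
    rintro ⟨i, j⟩ hij
    exact discr_bad_finite _ _ _ _ (sub_ne_zero.mpr fun h => hij (hκ h))
  obtain ⟨η, hη, hηbad⟩ : ∃ η ∈ Ioo 0 (δ / R), η ∉ bad := by
    have hinf : (Ioo 0 (δ / R)).Infinite := Set.Ioo_infinite (by positivity)
    obtain ⟨η, hη⟩ := (hinf.sdiff hbad).nonempty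
    exact ⟨η, hη.1, hη.2⟩
  refine ⟨fun i => a i + (η * κ i) • e0, fun i => b i + (η * κ i) • e1, ?_, ?_, ?_⟩
  · intro i
    simp only [add_sub_cancel_left, norm_smul]
    have : ‖e0‖ = 1 := by simp [e0]
    rw [this, mul_one, norm_mul, Real.norm_eq_abs, Real.norm_eq_abs, abs_of_pos hη.1]
    calc η * |κ i| ≤ δ / R * R := mul_le_mul hη.2.le (hR i) (abs_nonneg _) (by positivity)
      _ = δ := by field_simp
  · intro i
    simp only [add_sub_cancel_left, norm_smul]
    have : ‖e1‖ = 1 := by simp [e1]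
    rw [this, mul_one, norm_mul, Real.norm_eq_abs, Real.norm_eq_abs, abs_of_pos hη.1]
    calc η * |κ i| ≤ δ / R * R := mul_le_mul hη.2.le (hR i) (abs_nonneg _) (by positivity)
      _ = δ := by field_simp
  · intro t i j hij
    by_contra hne
    have hnb : ((a i i0 - a j i0) + η * (κ i - κ j)) * ((b i i1 - b j i1) + η * (κ i - κ j))
      - (a i i1 - a j i1) * (b i i0 - b j i0) ≠ 0 := by
      intro h0
      exact hηbad (Set.mem_biUnion (x := (i, j)) hne h0)
    simp only at hij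
    have h0 := congrArg (fun w : E d => w i0) hij
    have h1 := congrArg (fun w : E d => w i1) hij
    simp [e0, e1, hi, hi.symm] at h0 h1
    refine discr_det (t := t) hnb ?_ ?_
    · linear_combination h0
    · linear_combination h1

theorem discretize {d : ℕ} (hd : 2 ≤ d) {Y : Set (E d)} (hY : IsCompact Y)
    (π : Measure (E d × E d)) [IsProbabilityMeasure π] (hπ1 : π (Prod.fst ⁻¹' Yᶜ) = 0)
    (hπ2 : π (Prod.snd ⁻¹' Yᶜ) = 0) {ε : ℝ} (hε : 0 < ε) :
    ∃ (ι : Type) (_ : Fintype ι) (_ : Nonempty ι) (m : ι → ℝ) (y z : ι → E d)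
      (σ : E d × E d → ι),
      (∀ i, 0 < m i) ∧ ∑ i, m i = 1 ∧
      (∀ t ∈ Icc (0 : ℝ) 1, Function.Injective (fun i => (1 - t) • y i + t • z i)) ∧
      (∀ i, MeasurableSet (σ ⁻¹' {i})) ∧ (∀ i, π.real (σ ⁻¹' {i}) = m i) ∧
      (∀ᵐ q ∂π, ‖q.1 - y (σ q)‖ ≤ ε ∧ ‖q.2 - z (σ q)‖ ≤ ε) := by
  classical
  set K : Set (E d × E d) := Y ×ˢ Y with hKdef
  have hK : IsCompact K := hY.prod hY
  have hπK : π Kᶜ = 0 := by
    have : Kᶜ ⊆ Prod.fst ⁻¹' Yᶜ ∪ Prod.snd ⁻¹' Yᶜ := by
      rintro ⟨q1, q2⟩ hq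
      simp only [hKdef, mem_compl_iff, mem_prod, not_and_or] at hq
      exact hq
    exact measure_mono_null this (measure_union_null hπ1 hπ2)
  obtain ⟨t, -, htf, hcov⟩ := hK.finite_cover_balls (half_pos hε)
  obtain ⟨n, f, -, hf⟩ := htf.fin_param
  let e : ℕ → E d × E d := fun k => if h : k < n then f ⟨k, h⟩ else 0
  let s : SimpleFunc (E d × E d) ℕ := SimpleFunc.nearestPtInd e n
  have hsle : ∀ q, s q ≤ n := fun q => SimpleFunc.nearestPtInd_le e n q
  have hs : ∀ q ∈ K, dist (e (s q)) q ≤ ε / 2 := by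
    intro q hq
    obtain ⟨c, hc, hqc⟩ := mem_iUnion₂.mp (hcov hq)
    rw [← hf] at hc
    obtain ⟨k, rfl⟩ := hc
    have hek : e k.val = f k := by simp [e]
    have h1 : edist (SimpleFunc.nearestPt e n q) q ≤ edist (e k.val) q :=
      SimpleFunc.edist_nearestPt_le e q k.2.le
    have h2 : SimpleFunc.nearestPt e n q = e (s q) := rfl
    rw [h2, hek] at h1
    rw [edist_dist, edist_dist] at h1
    have h3 := (ENNReal.ofReal_le_ofReal_iff dist_nonneg).mp h1
    rw [Metric.mem_ball, dist_comm] at hqc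
    exact h3.trans hqc.le
  let ι : Type := {k : Fin (n + 1) // 0 < π (s ⁻¹' {k.val})}
  have hne : Nonempty ι := by
    by_contra hcon
    have hall : ∀ k : Fin (n + 1), π (s ⁻¹' {k.val}) = 0 := by
      intro k
      by_contra hk
      exact hcon ⟨⟨k, pos_iff_ne_zero.mpr hk⟩⟩
    have huniv : (univ : Set (E d × E d)) ⊆ ⋃ k : Fin (n + 1), s ⁻¹' {k.val} := by
      intro q _
      rw [mem_iUnion]
      exact ⟨⟨s q, Nat.lt_succ_of_le (hsle q)⟩, rfl⟩
    have : π univ = 0 := measure_mono_null huniv (measure_iUnion_null hall)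
    rw [measure_univ] at this
    exact one_ne_zero this
  let g : ℕ → ι := fun k => if h : k < n + 1 then
    (if h' : 0 < π (s ⁻¹' {k}) then ⟨⟨k, h⟩, h'⟩ else Classical.arbitrary ι) else Classical.arbitrary ι
  let σ : E d × E d → ι := fun q => g (s q)
  have hσm : ∀ i, MeasurableSet (σ ⁻¹' {i}) := by
    intro i
    have : σ ⁻¹' {i} = s ⁻¹' (g ⁻¹' {i}) := rfl
    rw [this]
    exact s.measurableSet_preimage _
  have hσsub : ∀ i : ι, s ⁻¹' {i.val.val} ⊆ σ ⁻¹' {i} := by
    intro i q hq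
    have hq' : s q = i.val.val := hq
    show g (s q) = i
    rw [hq']
    simp only [g]
    rw [dif_pos i.val.2, dif_pos i.2]
  obtain ⟨y, z, hy, hz, hinj⟩ := discr_perturb hd (fun i : ι => (i.val.val : ℝ))
    (fun i j h => by
      have h' : i.val.val = j.val.val := Nat.cast_injective (R := ℝ) h
      exact Subtype.ext (Fin.ext h'))
    (fun i => (e i.val.val).1) (fun i => (e i.val.val).2) (half_pos hε)
  refine ⟨ι, inferInstance, hne, fun i => π.real (σ ⁻¹' {i}), y, z, σ, ?_, ?_,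
    fun t _ => hinj t, hσm, fun _ => rfl, ?_⟩
  · intro i
    exact ENNReal.toReal_pos ((i.2.trans_le (measure_mono (hσsub i))).ne') (measure_ne_top _ _)
  · rw [sum_measureReal_preimage_singleton Finset.univ (fun i _ => hσm i)]
    simp
  · have h1 : ∀ᵐ q ∂π, q ∈ K := by
      rw [ae_iff]; exact hπK
    have h2 : ∀ᵐ q ∂π, ∀ k : ℕ, s q = k → 0 < π (s ⁻¹' {k}) := by
      rw [ae_all_iff]
      intro k
      by_cases hk : 0 < π (s ⁻¹' {k})
      · exact Filter.Eventually.of_forall fun _ _ => hk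
      · have hk0 : π (s ⁻¹' {k}) = 0 := by simpa using hk
        rw [ae_iff]
        refine measure_mono_null ?_ hk0
        intro q hq
        simp only [mem_ofPred_eq, Classical.not_imp] at hq
        exact hq.1
    filter_upwards [h1, h2] with q hqK hq
    have hpos := hq (s q) rfl
    have hσq : σ q = ⟨⟨s q, Nat.lt_succ_of_le (hsle q)⟩, hpos⟩ := by
      show g (s q) = _
      simp only [g]
      rw [dif_pos (Nat.lt_succ_of_le (hsle q)), dif_pos hpos]
    have hd' := hs q hqK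
    rw [Prod.dist_eq, max_le_iff] at hd'
    have hval : (σ q).val.val = s q := by rw [hσq]
    have hy' := hy (σ q)
    have hz' := hz (σ q)
    simp only [hval] at hy' hz'
    constructor
    · calc ‖q.1 - y (σ q)‖ = ‖(q.1 - (e (s q)).1) - (y (σ q) - (e (s q)).1)‖ := by congr 1; abel
        _ ≤ ‖q.1 - (e (s q)).1‖ + ‖y (σ q) - (e (s q)).1‖ := norm_sub_le _ _
        _ ≤ ε / 2 + ε / 2 := by
          refine add_le_add ?_ hy'
          rw [← dist_eq_norm, dist_comm]; exact hd'.1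
        _ = ε := by ring
    · calc ‖q.2 - z (σ q)‖ = ‖(q.2 - (e (s q)).2) - (z (σ q) - (e (s q)).2)‖ := by congr 1; abel
        _ ≤ ‖q.2 - (e (s q)).2‖ + ‖z (σ q) - (e (s q)).2‖ := norm_sub_le _ _
        _ ≤ ε / 2 + ε / 2 := by
          refine add_le_add ?_ hz'
          rw [← dist_eq_norm, dist_comm]; exact hd'.2
        _ = ε := by ring

end Vale.Agent.P074
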