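import Vale.Agent.P074.Defs

/-! P074, part (A): no exponent above `1/3` is admissible. -/

open MeasureTheory Set Filter Topology
open scoped ENNReal NNReal

namespace Vale.Agent.P074

variable {d : ℕ}

/-! ### Two-point optimal maps -/

/-- the map sending a half-space to `p` and its complement to `q` -/
noncomputable def tp (p q : E d) (s : ℝ) (x : E d) : E d :=
  if inner ℝ x (q - p) ≤ s then p else q

lemma measurable_tp (p q : E d) (s : ℝ) : Measurable (tp p q s) := by
  unfold tp
  exact Measurable.ite (measurableSet_le (by fun_prop) (by fun_prop)) measurable_const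
    measurable_const

lemma tp_mem (p q : E d) (s : ℝ) (x : E d) : tp p q s x = p ∨ tp p q s x = q := by
  unfold tp; split <;> simp

/-- nonnegative weights of the two points -/
noncomputable def wr (p q : E d) (s : ℝ) (y : E d) : ℝ :=
  if y = q then max (2 * s + ‖p‖ ^ 2 - ‖q‖ ^ 2) 0 else max (-(2 * s + ‖p‖ ^ 2 - ‖q‖ ^ 2)) 0

lemma wr_nonneg (p q : E d) (s : ℝ) (y : E d) : 0 ≤ wr p q s y := by
  unfold wr; split <;> exact le_max_right _ _

lemma wr_measurable (p q : E d) (s : ℝ) : Measurable (wr p q s) := by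
  unfold wr
  exact Measurable.ite (measurableSet_singleton q) measurable_const measurable_const

lemma tp_le {p q : E d} (hpq : p ≠ q) (s : ℝ) (x y : E d) (hy : y = p ∨ y = q) :
    ‖x - tp p q s x‖ ^ 2 + wr p q s (tp p q s x) ≤ ‖x - y‖ ^ 2 + wr p q s y := by
  set l := 2 * s + ‖p‖ ^ 2 - ‖q‖ ^ 2 with hl
  have h1 : ‖x - p‖ ^ 2 = ‖x‖ ^ 2 - 2 * inner ℝ x p + ‖p‖ ^ 2 := norm_sub_sq_real x p
  have h2 : ‖x - q‖ ^ 2 = ‖x‖ ^ 2 - 2 * inner ℝ x q + ‖q‖ ^ 2 := norm_sub_sq_real x q
  have h3 : inner ℝ x (q - p) = inner ℝ x q - inner ℝ x p := inner_sub_right _ _ _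
  have hwp : wr p q s p = max (-l) 0 := by simp [wr, hpq, hl]
  have hwq : wr p q s q = max l 0 := by simp [wr, hl]
  have h4 : max l 0 - max (-l) 0 = l := by
    rcases le_total 0 l with h | h
    · rw [max_eq_left h, max_eq_right (by linarith)]; ring
    · rw [max_eq_right h, max_eq_left (by linarith)]; ring
  by_cases hx : inner ℝ x (q - p) ≤ s
  · have ht : tp p q s x = p := by simp [tp, hx]
    rw [ht]
    rcases hy with rfl | rfl
    · exact le_refl _
    · rw [hwp, hwq, h1, h2]
      linarith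
  · have ht : tp p q s x = q := by simp [tp, hx]
    rw [ht]
    rcases hy with rfl | rfl
    · rw [hwp, hwq, h1, h2]
      linarith [not_le.1 hx]
    · exact le_refl _

theorem tp_optimal (ρ : Measure (E d)) [IsProbabilityMeasure ρ] {p q : E d} (hpq : p ≠ q)
    (s : ℝ) : IsOptimalMap ρ (ρ.map (tp p q s)) (tp p q s) := by
  refine ⟨measurable_tp p q s, rfl, fun S hS hmap => ?_⟩
  have hw : Measurable fun y => ENNReal.ofReal (wr p q s y) := (wr_measurable p q s).ennreal_ofReal
  have hwS : ∫⁻ x, ENNReal.ofReal (wr p q s (S x)) ∂ρ =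
      ∫⁻ x, ENNReal.ofReal (wr p q s (tp p q s x)) ∂ρ := by
    have h1 := lintegral_map (μ := ρ) hw hS
    have h2 := lintegral_map (μ := ρ) hw (measurable_tp p q s)
    rw [← h1, ← h2, hmap]
  have hfin : ∫⁻ x, ENNReal.ofReal (wr p q s (tp p q s x)) ∂ρ ≠ ∞ := by
    apply ne_of_lt
    calc ∫⁻ x, ENNReal.ofReal (wr p q s (tp p q s x)) ∂ρ
        ≤ ∫⁻ _, ENNReal.ofReal (wr p q s p + wr p q s q) ∂ρ := by
          apply lintegral_mono
          intro x
          apply ENNReal.ofReal_le_ofReal
          rcases tp_mem p q s x with h | h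
          · rw [h]; linarith [wr_nonneg p q s q]
          · rw [h]; linarith [wr_nonneg p q s p]
      _ < ∞ := by
          rw [lintegral_const, measure_univ, mul_one]
          exact ENNReal.ofReal_lt_top
  have hSae : ∀ᵐ x ∂ρ, S x = p ∨ S x = q := by
    have hm : MeasurableSet ({p, q} : Set (E d)) := (Set.toFinite _).measurableSet
    have h1 : (ρ.map S) ({p, q} : Set (E d))ᶜ = 0 := by
      rw [hmap, Measure.map_apply (measurable_tp p q s) hm.compl]
      have : tp p q s ⁻¹' ({p, q} : Set (E d))ᶜ = ∅ := by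
        ext x
        simp only [mem_preimage, mem_compl_iff, mem_insert_iff, mem_singleton_iff,
          mem_empty_iff_false, iff_false, not_not]
        exact tp_mem p q s x
      rw [this, measure_empty]
    rw [Measure.map_apply hS hm.compl] at h1
    rw [ae_iff]
    exact h1
  have hpt : ∀ᵐ x ∂ρ, ENNReal.ofReal (‖x - tp p q s x‖ ^ 2) +
      ENNReal.ofReal (wr p q s (tp p q s x)) ≤
      ENNReal.ofReal (‖x - S x‖ ^ 2) + ENNReal.ofReal (wr p q s (S x)) := by
    filter_upwards [hSae] with x hx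
    rw [← ENNReal.ofReal_add (by positivity) (wr_nonneg _ _ _ _),
      ← ENNReal.ofReal_add (by positivity) (wr_nonneg _ _ _ _)]
    exact ENNReal.ofReal_le_ofReal (tp_le hpq s x (S x) hx)
  have h := lintegral_mono_ae hpt
  have hm1 : Measurable fun x => ENNReal.ofReal (wr p q s (tp p q s x)) :=
    hw.comp (measurable_tp p q s)
  have hm2 : Measurable fun x => ENNReal.ofReal (wr p q s (S x)) := hw.comp hS
  rw [lintegral_add_right _ hm1, lintegral_add_right _ hm2, hwS] at h
  exact (ENNReal.add_le_add_iff_right hfin).1 h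

/-! ### The cube -/

/-- the cube `[-1,1]^d` -/
def cube (d : ℕ) : Set (E d) := {x | ∀ i, x i ∈ Icc (-1 : ℝ) 1}

lemma cube_eq : cube d = WithLp.ofLp ⁻¹' (Icc (fun _ => (-1:ℝ)) (fun _ => 1)) := by
  ext x
  simp only [cube, mem_ofPred_eq, mem_preimage, mem_Icc, Pi.le_def, forall_and]

lemma measurableSet_cube : MeasurableSet (cube d) := by
  rw [cube_eq]
  exact (PiLp.volume_preserving_ofLp (Fin d)).measurable measurableSet_Icc

lemma volume_cube : volume (cube d) = ENNReal.ofReal (2 ^ d) := by
  rw [cube_eq, (PiLp.volume_preserving_ofLp (Fin d)).measure_preimage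
    measurableSet_Icc.nullMeasurableSet, Real.volume_Icc_pi]
  norm_num

/-- boxes -/
def box (a b : Fin d → ℝ) : Set (E d) := {x | ∀ i, x i ∈ Ioc (a i) (b i)}

lemma box_eq (a b : Fin d → ℝ) :
    box a b = WithLp.ofLp ⁻¹' (pi univ fun i => Ioc (a i) (b i)) := by
  ext x
  simp [box]

lemma measurableSet_box (a b : Fin d → ℝ) : MeasurableSet (box a b) := by
  rw [box_eq]
  exact (PiLp.volume_preserving_ofLp (Fin d)).measurable
    (MeasurableSet.univ_pi fun i => measurableSet_Ioc)

lemma unif_box (a b : Fin d → ℝ) (hab : ∀ i, a i ≤ b i) (ha : ∀ i, -1 ≤ a i)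
    (hb : ∀ i, b i ≤ 1) :
    unif (cube d) (box a b) = ENNReal.ofReal (∏ i, (b i - a i) / 2) := by
  have hsub : box a b ⊆ cube d := fun x hx i =>
    ⟨(ha i).trans (hx i).1.le, (hx i).2.trans (hb i)⟩
  rw [unif, Measure.smul_apply, Measure.restrict_apply (measurableSet_box a b),
    inter_eq_left.2 hsub, volume_cube, box_eq, (PiLp.volume_preserving_ofLp
    (Fin d)).measure_preimage (MeasurableSet.univ_pi fun i => measurableSet_Ioc).nullMeasurableSet,
    Real.volume_pi_Ioc, ← ENNReal.ofReal_prod_of_nonneg fun i _ => sub_nonneg.2 (hab i),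
    smul_eq_mul, ← ENNReal.ofReal_inv_of_pos (by positivity), ← ENNReal.ofReal_mul (by positivity),
    Finset.prod_div_distrib]
  congr 1
  simp
  ring

instance : IsProbabilityMeasure (unif (cube d)) := by
  constructor
  rw [unif, Measure.smul_apply, Measure.restrict_apply_univ, volume_cube, smul_eq_mul]
  apply ENNReal.inv_mul_cancel
  · simp
  · exact ENNReal.ofReal_ne_top

lemma unif_compl_cube : unif (cube d) (cube d)ᶜ = 0 := by
  rw [unif, Measure.smul_apply, Measure.restrict_apply measurableSet_cube.compl]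
  simp

lemma isCompact_cube : IsCompact (cube d) := by
  have : cube d = (EuclideanSpace.equiv (Fin d) ℝ) ⁻¹' (Icc (fun _ => (-1:ℝ)) (fun _ => 1)) := by
    rw [cube_eq]; rfl
  rw [this]
  exact (EuclideanSpace.equiv (Fin d) ℝ).toHomeomorph.isCompact_preimage.2 isCompact_Icc

lemma convex_cube : Convex ℝ (cube d) := by
  intro x hx y hy a b ha hb hab i
  have h1 := hx i
  have h2 := hy i
  simp only [PiLp.add_apply, PiLp.smul_apply, smul_eq_mul]
  constructor
  · nlinarith [h1.1, h2.1]
  · nlinarith [h1.2, h2.2]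

lemma interior_cube : (interior (cube d)).Nonempty := by
  refine ⟨0, ?_⟩
  rw [mem_interior]
  refine ⟨{x | ∀ i, x i ∈ Ioo (-1 : ℝ) 1}, fun x hx i => ⟨(hx i).1.le, (hx i).2.le⟩, ?_, ?_⟩
  · have : {x : E d | ∀ i, x i ∈ Ioo (-1 : ℝ) 1} = ⋂ i, (fun x : E d => x i) ⁻¹' Ioo (-1 : ℝ) 1 := by
      ext x; simp
    rw [this]
    apply isOpen_iInter_of_finite
    intro i
    exact isOpen_Ioo.preimage (by fun_prop)
  · intro i
    simp

lemma unif_le (i₀ : Fin d) {s : ℝ} (hs : s ∈ Icc (-1 : ℝ) 1) :
    unif (cube d) {x | x i₀ ≤ s} = ENNReal.ofReal ((s + 1) / 2) := by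
  have hm : MeasurableSet {x : E d | x i₀ ≤ s} := measurableSet_le (by fun_prop) (by fun_prop)
  have hEq : {x : E d | x i₀ ≤ s} ∩ cube d =
      WithLp.ofLp ⁻¹' (Icc (fun _ => (-1:ℝ)) (fun i => if i = i₀ then s else 1)) := by
    ext x
    simp only [mem_inter_iff, cube, mem_ofPred_eq, mem_preimage, mem_Icc, Pi.le_def]
    constructor
    · rintro ⟨h1, h2⟩
      refine ⟨fun i => (h2 i).1, fun i => ?_⟩
      split_ifs with hi
      · rw [hi]; exact h1
      · exact (h2 i).2
    · rintro ⟨h1, h2⟩
      refine ⟨by simpa using h2 i₀, fun i => ⟨h1 i, (h2 i).trans ?_⟩⟩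
      split_ifs
      · exact hs.2
      · exact le_refl _
  have hnn : ∀ i : Fin d, 0 ≤ (if i = i₀ then s else 1) - (-1 : ℝ) := by
    intro i; split_ifs
    · linarith [hs.1]
    · norm_num
  rw [unif, Measure.smul_apply, Measure.restrict_apply hm, hEq, volume_cube,
    (PiLp.volume_preserving_ofLp (Fin d)).measure_preimage measurableSet_Icc.nullMeasurableSet,
    Real.volume_Icc_pi, ← ENNReal.ofReal_prod_of_nonneg fun i _ => hnn i,
    smul_eq_mul, ← ENNReal.ofReal_inv_of_pos (by positivity), ← ENNReal.ofReal_mul (by positivity)]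
  congr 1
  have h1 : ∏ i : Fin d, ((if i = i₀ then s else 1) - (-1 : ℝ)) / 2 = (s + 1) / 2 := by
    rw [Finset.prod_eq_single i₀]
    · simp
    · intro i _ hi
      simp [hi]
    · simp
  rw [Finset.prod_div_distrib] at h1
  simp only [Finset.prod_const, Finset.card_univ, Fintype.card_fin] at h1
  rw [← h1]
  ring

/-! ### The example -/

lemma map_ite (ρ : Measure (E d)) {A : Set (E d)} (hA : MeasurableSet A) (p q : E d)
    (f : E d → E d) (hf : ∀ x ∈ A, f x = p) (hf' : ∀ x ∉ A, f x = q) :
    ρ.map f = ρ A • Measure.dirac p + ρ Aᶜ • Measure.dirac q := by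
  classical
  have hfe : f = fun x => if x ∈ A then p else q := by
    funext x
    by_cases hx : x ∈ A
    · simp [hx, hf x hx]
    · simp [hx, hf' x hx]
  have hfm : Measurable f := by
    rw [hfe]; exact Measurable.ite hA measurable_const measurable_const
  ext B hB
  rw [Measure.map_apply hfm hB]
  simp only [Measure.coe_add, Measure.coe_smul, Pi.add_apply, Pi.smul_apply, smul_eq_mul,
    Measure.dirac_apply' _ hB]
  have h1 : f ⁻¹' B = (f ⁻¹' B ∩ A) ∪ (f ⁻¹' B ∩ Aᶜ) := by
    rw [← inter_union_distrib_left, union_compl_self, inter_univ]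
  rw [h1, measure_union _ ((hfm hB).inter hA.compl)]
  · congr 1
    · by_cases hp : p ∈ B
      · have : f ⁻¹' B ∩ A = A := by
          ext x; simp only [mem_inter_iff, mem_preimage, and_iff_right_iff_imp]
          intro hx; rw [hf x hx]; exact hp
        rw [this]; simp [hp]
      · have : f ⁻¹' B ∩ A = ∅ := by
          ext x; simp only [mem_inter_iff, mem_preimage, mem_empty_iff_false, iff_false, not_and]
          intro hx hxA; rw [hf x hxA] at hx; exact hp hx
        rw [this]; simp [hp]
    · by_cases hp : q ∈ B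
      · have : f ⁻¹' B ∩ Aᶜ = Aᶜ := by
          ext x; simp only [mem_inter_iff, mem_preimage, and_iff_right_iff_imp]
          intro hx; rw [hf' x hx]; exact hp
        rw [this]; simp [hp]
      · have : f ⁻¹' B ∩ Aᶜ = ∅ := by
          ext x; simp only [mem_inter_iff, mem_preimage, mem_empty_iff_false, iff_false, not_and]
          intro hx hxA; rw [hf' x hxA] at hx; exact hp hx
        rw [this]; simp [hp]
  · exact disjoint_compl_right.mono inter_subset_right inter_subset_right

/-- The volume of the two boxes. -/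
lemma prod_box {i₀ i₁ : Fin d} (h01 : i₀ ≠ i₁) (u v : ℝ) (a b : Fin d → ℝ)
    (h0 : (b i₀ - a i₀) / 2 = u) (h1 : (b i₁ - a i₁) / 2 = v)
    (h : ∀ i, i ≠ i₀ → i ≠ i₁ → (b i - a i) / 2 = 1) : ∏ i, (b i - a i) / 2 = u * v := by
  classical
  rw [← Finset.mul_prod_erase Finset.univ _ (Finset.mem_univ i₀),
    ← Finset.mul_prod_erase (Finset.univ.erase i₀) _
      (Finset.mem_erase.2 ⟨h01.symm, Finset.mem_univ i₁⟩), h0, h1, Finset.prod_eq_one, mul_one]
  intro i hi
  rw [Finset.mem_erase, Finset.mem_erase] at hi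
  exact h i hi.2.1 hi.1

theorem example_bounds (hd : 2 ≤ d) {h : ℝ} (h0 : 0 < h) (h1 : h ≤ 1 / 4) :
    ∃ μ ν : Measure (E d), ∃ Tμ Tν : E d → E d,
      IsProbabilityMeasure μ ∧ IsProbabilityMeasure ν ∧
      μ (Metric.closedBall 0 1)ᶜ = 0 ∧ ν (Metric.closedBall 0 1)ᶜ = 0 ∧
      IsOptimalMap (unif (cube d)) μ Tμ ∧ IsOptimalMap (unif (cube d)) ν Tν ∧
      W 2 μ ν ≤ ENNReal.ofReal (2 * h ^ 3) ^ (1 / 2 : ℝ) ∧
      ENNReal.ofReal (h / 16) ^ (1 / 2 : ℝ) ≤ distL2 (unif (cube d)) Tμ Tν := by
  classical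
  set ρ := unif (cube d) with hρ
  let i₀ : Fin d := ⟨0, by omega⟩
  let i₁ : Fin d := ⟨1, by omega⟩
  have h01 : i₀ ≠ i₁ := by simp [i₀, i₁]
  let q : E d := EuclideanSpace.single i₀ 1
  let p : E d := h • EuclideanSpace.single i₁ 1
  let c : ℝ := -1 + 2 * h
  have hiq : ∀ x : E d, inner ℝ x q = x i₀ := by
    intro x; simp [q, EuclideanSpace.inner_single_right]
  have hip : ∀ x : E d, inner ℝ x p = h * x i₁ := by
    intro x; simp [p, inner_smul_right, EuclideanSpace.inner_single_right]
  have hipq : ∀ x : E d, inner ℝ x (q - p) = x i₀ - h * x i₁ := by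
    intro x; rw [inner_sub_right, hiq, hip]
  have hqn : ‖q‖ = 1 := by simp [q]
  have hpn : ‖p‖ = h := by simp [p, norm_smul, abs_of_pos h0]
  have hpq : p ≠ q := by
    intro h'
    have := congrArg norm h'
    rw [hqn, hpn] at this
    linarith
  have h0q : (0 : E d) ≠ q := by
    intro h'
    have := congrArg norm h'
    rw [hqn, norm_zero] at this
    linarith
  have hpqn : 1 ≤ ‖p - q‖ ^ 2 := by
    have : ‖p - q‖ ^ 2 = ‖p‖ ^ 2 - 2 * inner ℝ p q + ‖q‖ ^ 2 := norm_sub_sq_real p q
    rw [this, hiq, hpn, hqn]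
    have : p i₀ = 0 := by simp [p, h01]
    rw [this]
    nlinarith
  -- the half-space
  let A : Set (E d) := {x | inner ℝ x (q - p) ≤ c}
  have hA : MeasurableSet A := measurableSet_le (by fun_prop) (by fun_prop)
  have hcube : ∀ᵐ x ∂ρ, x ∈ cube d := by
    rw [ae_iff]; exact unif_compl_cube
  have hmle : ρ A ≤ ENNReal.ofReal (3 / 2 * h) := by
    calc ρ A ≤ ρ {x | x i₀ ≤ c + h} := by
          apply measure_mono_ae
          filter_upwards [hcube] with x hx hxA
          have h2 : inner ℝ x (q - p) ≤ c := hxA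
          rw [hipq] at h2
          show x i₀ ≤ c + h
          have := (hx i₁).2
          nlinarith
      _ = ENNReal.ofReal ((c + h + 1) / 2) := unif_le i₀ ⟨by simp only [c]; linarith, by
          simp only [c]; linarith⟩
      _ = _ := by congr 1; simp only [c]; ring
  have hmge : ENNReal.ofReal (1 / 2 * h) ≤ ρ A := by
    calc ENNReal.ofReal (1 / 2 * h) = ENNReal.ofReal ((c - h + 1) / 2) := by
          congr 1; simp only [c]; ring
      _ = ρ {x | x i₀ ≤ c - h} := (unif_le i₀ ⟨by simp only [c]; linarith, by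
          simp only [c]; linarith⟩).symm
      _ ≤ ρ A := by
          apply measure_mono_ae
          filter_upwards [hcube] with x hx hxA
          have h2 : x i₀ ≤ c - h := hxA
          show inner ℝ x (q - p) ≤ c
          rw [hipq]
          have := (hx i₁).1
          nlinarith
  have hmfin : ρ A ≠ ∞ := measure_ne_top _ _
  set m := (ρ A).toReal with hm
  have hmA : ρ A = ENNReal.ofReal m := (ENNReal.ofReal_toReal hmfin).symm
  have hm1 : m ≤ 3 / 2 * h := by
    rw [hmA] at hmle
    exact (ENNReal.ofReal_le_ofReal_iff (by positivity)).1 hmle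
  have hm2 : 1 / 2 * h ≤ m := by
    rw [hmA] at hmge
    exact (ENNReal.ofReal_le_ofReal_iff ENNReal.toReal_nonneg).1 hmge
  let c' : ℝ := -1 + 2 * m
  let B : Set (E d) := {x | x i₀ ≤ c'}
  have hB : MeasurableSet B := measurableSet_le (by fun_prop) (by fun_prop)
  have hBA : ρ B = ρ A := by
    rw [hmA]
    show ρ {x | x i₀ ≤ c'} = _
    rw [unif_le i₀ ⟨by simp only [c']; linarith, by simp only [c']; linarith⟩]
    congr 1; simp only [c']; ring
  have hBAc : ρ Bᶜ = ρ Aᶜ := by
    rw [measure_compl hB (measure_ne_top _ _), measure_compl hA (measure_ne_top _ _), hBA]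
  let Tμ := tp p q c
  let Tν := tp 0 q c'
  have hTμA : ∀ x ∈ A, Tμ x = p := fun x hx => by
    exact if_pos (show inner ℝ x (q - p) ≤ c from hx)
  have hTμA' : ∀ x ∉ A, Tμ x = q := fun x hx => by
    exact if_neg (show ¬ inner ℝ x (q - p) ≤ c from hx)
  have hTνB : ∀ x ∈ B, Tν x = 0 := fun x hx => by
    show (if inner ℝ x (q - 0) ≤ c' then 0 else q) = 0
    rw [if_pos]
    rw [sub_zero, hiq]; exact hx
  have hTνB' : ∀ x ∉ B, Tν x = q := fun x hx => by
    show (if inner ℝ x (q - 0) ≤ c' then 0 else q) = q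
    rw [if_neg]
    rw [sub_zero, hiq]; exact hx
  have hmaps : ∀ (f : E d → E d) (hf : Measurable f) (hf1 : ∀ x, ‖f x‖ ≤ 1),
      (ρ.map f) (Metric.closedBall 0 1)ᶜ = 0 := by
    intro f hf hf1
    rw [Measure.map_apply hf Metric.isClosed_closedBall.measurableSet.compl]
    have : f ⁻¹' (Metric.closedBall 0 1)ᶜ = ∅ := by
      ext x; simp [hf1 x]
    rw [this, measure_empty]
  refine ⟨ρ.map Tμ, ρ.map Tν, Tμ, Tν,
    Measure.isProbabilityMeasure_map (measurable_tp _ _ _).aemeasurable,
    Measure.isProbabilityMeasure_map (measurable_tp _ _ _).aemeasurable,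
    hmaps _ (measurable_tp _ _ _) ?_, hmaps _ (measurable_tp _ _ _) ?_,
    tp_optimal ρ hpq c, tp_optimal ρ h0q c', ?_, ?_⟩
  · intro x
    show ‖tp p q c x‖ ≤ 1
    rcases tp_mem p q c x with h' | h'
    · rw [h', hpn]; linarith
    · rw [h', hqn]
  · intro x
    show ‖tp 0 q c' x‖ ≤ 1
    rcases tp_mem 0 q c' x with h' | h'
    · rw [h', norm_zero]; exact zero_le_one
    · rw [h', hqn]
  · -- the coupling
    let g : E d → E d := fun x => if x ∈ A then 0 else q
    have hg : Measurable g := Measurable.ite hA measurable_const measurable_const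
    have hpair : Measurable fun x => (Tμ x, g x) := (measurable_tp _ _ _).prodMk hg
    have hπ : ρ.map (fun x => (Tμ x, g x)) ∈ Couplings (ρ.map Tμ) (ρ.map Tν) := by
      constructor
      · rw [Measure.map_map measurable_fst hpair]; rfl
      · rw [Measure.map_map measurable_snd hpair, map_ite ρ hB 0 q Tν hTνB hTνB', hBA, hBAc]
        exact map_ite ρ hA 0 q _ (fun x hx => by simp [g, hx]) (fun x hx => by simp [g, hx])
    refine (iInf₂_le _ hπ).trans ?_
    apply ENNReal.rpow_le_rpow _ (by norm_num)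
    have hmeas : Measurable fun z : E d × E d => ENNReal.ofReal (‖z.1 - z.2‖ ^ (2 : ℝ)) := by
      fun_prop
    rw [lintegral_map hmeas hpair]
    calc ∫⁻ x, ENNReal.ofReal (‖Tμ x - g x‖ ^ (2 : ℝ)) ∂ρ
        ≤ ∫⁻ x, A.indicator (fun _ => ENNReal.ofReal (h ^ 2)) x ∂ρ := by
          apply lintegral_mono
          intro x
          by_cases hx : x ∈ A
          · simp only [hx, indicator_of_mem, g, if_true]
            rw [hTμA x hx, sub_zero, hpn, Real.rpow_two]
          · simp only [hx, g, if_false, hTμA' x hx]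
            simp
      _ = ENNReal.ofReal (h ^ 2) * ρ A := by
          rw [lintegral_indicator hA, setLIntegral_const]
      _ ≤ ENNReal.ofReal (h ^ 2) * ENNReal.ofReal (3 / 2 * h) := by gcongr
      _ = ENNReal.ofReal (h ^ 2 * (3 / 2 * h)) := (ENNReal.ofReal_mul (by positivity)).symm
      _ ≤ ENNReal.ofReal (2 * h ^ 3) := by
          apply ENNReal.ofReal_le_ofReal
          have : 0 < h ^ 3 := by positivity
          nlinarith
  · -- the lower bound
    have key : ∃ G : Set (E d), MeasurableSet G ∧ ENNReal.ofReal (h / 16) ≤ ρ G ∧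
        ∀ x ∈ G, 1 ≤ ‖Tμ x - Tν x‖ ^ 2 := by
      rcases le_or_gt c' c with hcc | hcc
      · let a : Fin d → ℝ := fun i => if i = i₀ then c else if i = i₁ then 1 / 2 else -1
        let b : Fin d → ℝ := fun i => if i = i₀ then c + h / 2 else 1
        refine ⟨box a b, measurableSet_box a b, ?_, ?_⟩
        · rw [hρ, unif_box a b ?_ ?_ ?_, prod_box h01 (h / 4) (1 / 4)]
          · apply ENNReal.ofReal_le_ofReal; linarith
          · simp only [a, b, if_true]; ring
          · simp only [a, b, h01.symm, if_false, if_true]; norm_num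
          · intro i hi hi'
            simp only [a, b, hi, hi', if_false]; norm_num
          · intro i; simp only [a, b]
            split_ifs <;> linarith
          · intro i; simp only [a, c]
            split_ifs <;> linarith
          · intro i; simp only [b, c]
            split_ifs <;> linarith
        · intro x hx
          have hx0 := hx i₀
          have hx1 := hx i₁
          simp only [a, b, h01.symm, if_false, if_true, mem_Ioc] at hx0 hx1
          rw [hTνB' x (fun hB => by
            have : x i₀ ≤ c' := hB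
            linarith), hTμA x (by
            show inner ℝ x (q - p) ≤ c
            rw [hipq]
            nlinarith)]
          exact hpqn
      · let a : Fin d → ℝ := fun i => if i = i₀ then c - h / 2 else -1
        let b : Fin d → ℝ := fun i => if i = i₀ then c else if i = i₁ then -(1 / 2) else 1
        refine ⟨box a b, measurableSet_box a b, ?_, ?_⟩
        · rw [hρ, unif_box a b ?_ ?_ ?_, prod_box h01 (h / 4) (1 / 4)]
          · apply ENNReal.ofReal_le_ofReal; linarith
          · simp only [a, b, if_true]; ring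
          · simp only [a, b, h01.symm, if_false, if_true]; norm_num
          · intro i hi hi'
            simp only [a, b, hi, hi', if_false]; norm_num
          · intro i; simp only [a, b, c]
            split_ifs <;> linarith
          · intro i; simp only [a, c]
            split_ifs <;> linarith
          · intro i; simp only [b, c]
            split_ifs <;> linarith
        · intro x hx
          have hx0 := hx i₀
          have hx1 := hx i₁
          simp only [a, b, h01.symm, if_false, if_true, mem_Ioc] at hx0 hx1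
          rw [hTνB x (by
            show x i₀ ≤ c'
            linarith), hTμA' x (fun hA => by
            have h2 : inner ℝ x (q - p) ≤ c := hA
            rw [hipq] at h2
            nlinarith), sub_zero, hqn]
          norm_num
    obtain ⟨G, hG, hGm, hGx⟩ := key
    unfold distL2
    apply ENNReal.rpow_le_rpow _ (by norm_num)
    calc ENNReal.ofReal (h / 16) ≤ ρ G := hGm
      _ = ∫⁻ x, G.indicator 1 x ∂ρ := (lintegral_indicator_one hG).symm
      _ ≤ ∫⁻ x, ENNReal.ofReal (‖Tμ x - Tν x‖ ^ 2) ∂ρ := by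
          apply lintegral_mono
          intro x
          by_cases hx : x ∈ G
          · simp only [hx, indicator_of_mem, Pi.one_apply]
            rw [← ENNReal.ofReal_one]
            exact ENNReal.ofReal_le_ofReal (hGx x hx)
          · simp [hx]

theorem not_admissible_of_gt (hd : 2 ≤ d) {α : ℝ} (hα : 1 / 3 < α) : ¬ Admissible d α := by
  rintro ⟨hα0, -, hall⟩
  obtain ⟨C, hC⟩ := hall (cube d) isCompact_cube convex_cube interior_cube
    (Metric.closedBall 0 1) (isCompact_closedBall 0 1)
  have key : ∀ h : ℝ, 0 < h → h ≤ 1 / 4 → 1 / 16 ≤ (C : ℝ) ^ 2 * 2 ^ α * h ^ (3 * α - 1) := by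
    intro h h0 h1
    obtain ⟨μ, ν, Tμ, Tν, hμ, hν, hμY, hνY, hTμ, hTν, hW, hL⟩ := example_bounds hd h0 h1
    have h2 := hL.trans ((hC μ ν hμ hν hμY hνY Tμ Tν hTμ hTν).trans
      (mul_le_mul_right (ENNReal.rpow_le_rpow hW hα0.le) (C : ℝ≥0∞)))
    rw [ENNReal.ofReal_rpow_of_nonneg (by positivity) (by norm_num),
      ENNReal.ofReal_rpow_of_nonneg (by positivity) (by norm_num),
      ENNReal.ofReal_rpow_of_nonneg (by positivity) hα0.le, ← ENNReal.ofReal_coe_nnreal,
      ← ENNReal.ofReal_mul (by positivity), ENNReal.ofReal_le_ofReal_iff (by positivity)] at h2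
    have h3 := pow_le_pow_left₀ (by positivity) h2 2
    have e1 : ((h / 16) ^ (1 / 2 : ℝ)) ^ 2 = h / 16 := by
      rw [← Real.sqrt_eq_rpow, Real.sq_sqrt (by positivity)]
    have e2 : ((C : ℝ) * ((2 * h ^ 3) ^ (1 / 2 : ℝ)) ^ α) ^ 2 =
        (C : ℝ) ^ 2 * 2 ^ α * h ^ (3 * α - 1) * h := by
      have e3 : (((2 * h ^ 3) ^ (1 / 2 : ℝ)) ^ α) ^ 2 = (2 * h ^ 3) ^ α := by
        rw [← Real.rpow_natCast, ← Real.rpow_mul (by positivity), ← Real.rpow_mul (by positivity)]
        congr 1; push_cast; ring
      have e4 : h ^ (3 * α - 1) * h = (h ^ 3) ^ α := by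
        rw [← Real.rpow_natCast, ← Real.rpow_mul h0.le]
        nth_rewrite 2 [← Real.rpow_one h]
        rw [← Real.rpow_add h0]
        congr 1; push_cast; ring
      rw [mul_pow, e3, Real.mul_rpow (by norm_num) (by positivity), mul_assoc, mul_assoc, e4]
    rw [e1, e2] at h3
    have h4 : 1 / 16 * h ≤ (C : ℝ) ^ 2 * 2 ^ α * h ^ (3 * α - 1) * h := by linarith
    exact le_of_mul_le_mul_right h4 h0
  have hlim : Tendsto (fun h : ℝ => (C : ℝ) ^ 2 * 2 ^ α * h ^ (3 * α - 1)) (𝓝[>] 0) (𝓝 0) := by
    have h1 : Tendsto (fun h : ℝ => h ^ (3 * α - 1)) (𝓝 0) (𝓝 (0 ^ (3 * α - 1))) :=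
      (Real.continuousAt_rpow_const 0 (3 * α - 1) (Or.inr (by linarith))).tendsto
    rw [Real.zero_rpow (by linarith)] at h1
    have h2 := (h1.mono_left nhdsWithin_le_nhds).const_mul ((C : ℝ) ^ 2 * 2 ^ α)
      (x := 𝓝[>] 0)
    rwa [mul_zero] at h2
  have := ge_of_tendsto hlim (b := 1 / 16) (by
    filter_upwards [Ioc_mem_nhdsGT (show (0:ℝ) < 1 / 4 by norm_num)] with h hh
    exact key h hh.1 hh.2)
  norm_num at this

end Vale.Agent.P074
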