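import Vale.Agent.P074.LagGeom

/-!
Task P074-C5: existence of weights realizing given masses.
-/

open MeasureTheory Set Filter Topology
open scoped ENNReal NNReal

namespace Vale.Agent.P074

namespace Exist

variable {d : ℕ} {ι : Type} [Fintype ι] [Nonempty ι] {K : Set (E d)}

lemma isProb_unif' (hK : IsCompact K) (hKi : (interior K).Nonempty) :
    IsProbabilityMeasure (unif K) := by
  have hfin : volume K < ∞ := hK.measure_lt_top
  have hpos : 0 < volume K :=
    (isOpen_interior.measure_pos volume hKi).trans_le (measure_mono interior_subset)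
  constructor
  unfold unif
  rw [Measure.smul_apply, Measure.restrict_apply_univ, smul_eq_mul,
    ENNReal.inv_mul_cancel hpos.ne' hfin.ne]

lemma ae_mem (hK : IsCompact K) : ∀ᵐ x ∂(unif K), x ∈ K :=
  Measure.ae_smul_measure (ae_restrict_mem hK.isClosed.measurableSet) _

lemma continuous_pot (y : ι → E d) (ψ : ι → ℝ) : Continuous (pot y ψ) := by
  have h : ∀ i, ‖y i‖ ≤ ((∑ j, ‖y j‖₊ : ℝ≥0) : ℝ) := by
    intro i
    have : ‖y i‖₊ ≤ ∑ j, ‖y j‖₊ :=
      Finset.single_le_sum (f := fun j => ‖y j‖₊) (fun _ _ => zero_le) (Finset.mem_univ i)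
    exact_mod_cast this
  exact (lipschitz_pot h ψ).continuous

lemma integrable_pot (hK : IsCompact K) (hKi : (interior K).Nonempty) (y : ι → E d)
    (ψ : ι → ℝ) : Integrable (pot y ψ) (unif K) := by
  have hpos : 0 < volume K :=
    (isOpen_interior.measure_pos volume hKi).trans_le (measure_mono interior_subset)
  have h1 : IntegrableOn (pot y ψ) K volume :=
    (continuous_pot y ψ).continuousOn.integrableOn_compact hK
  exact Integrable.smul_measure h1 (ENNReal.inv_ne_top.mpr hpos.ne')

lemma pot_le_add (y : ι → E d) (ψ ψ' : ι → ℝ) (x : E d) :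
    pot y ψ x ≤ pot y ψ' x + dist ψ ψ' := by
  refine ciSup_le fun i => ?_
  have h1 := le_pot y ψ' x i
  have h2 : |ψ i - ψ' i| ≤ dist ψ ψ' := by
    rw [← Real.dist_eq]
    exact dist_le_pi_dist ψ ψ' i
  have h3 := abs_le.mp h2
  linarith [h3.1]

lemma pot_add_const (y : ι → E d) (ψ : ι → ℝ) (c : ℝ) (x : E d) :
    pot y (fun i => ψ i + c) x = pot y ψ x - c := by
  refine le_antisymm (ciSup_le fun i => ?_) ?_
  · have := le_pot y ψ x i
    linarith
  · rw [sub_le_iff_le_add]
    refine ciSup_le fun i => ?_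
    have := le_pot y (fun i => ψ i + c) x i
    linarith

/-- the Kantorovich functional -/
noncomputable def Phi (K : Set (E d)) (y : ι → E d) (m : ι → ℝ) (ψ : ι → ℝ) : ℝ :=
  ∫ x, pot y ψ x ∂(unif K) + ∑ i, m i * ψ i

lemma continuous_Phi (hK : IsCompact K) (hKi : (interior K).Nonempty) (y : ι → E d)
    (m : ι → ℝ) : Continuous (Phi K y m) := by
  have := isProb_unif' hK hKi
  have h1 : LipschitzWith 1 (fun ψ : ι → ℝ => ∫ x, pot y ψ x ∂(unif K)) := by
    refine LipschitzWith.of_le_add fun ψ ψ' => ?_
    have h2 : ∫ x, (pot y ψ' x + dist ψ ψ') ∂(unif K) =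
        ∫ x, pot y ψ' x ∂(unif K) + dist ψ ψ' := by
      rw [integral_add (integrable_pot hK hKi y ψ') (integrable_const _), integral_const]
      simp
    rw [← h2]
    exact integral_mono (integrable_pot hK hKi y ψ)
      ((integrable_pot hK hKi y ψ').add (integrable_const _)) (pot_le_add y ψ ψ')
  unfold Phi
  refine h1.continuous.add ?_
  fun_prop

lemma Phi_add_const (hK : IsCompact K) (hKi : (interior K).Nonempty) (y : ι → E d)
    {m : ι → ℝ} (hsum : ∑ i, m i = 1) (ψ : ι → ℝ) (c : ℝ) :
    Phi K y m (fun i => ψ i + c) = Phi K y m ψ := by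
  have := isProb_unif' hK hKi
  unfold Phi
  simp only [pot_add_const, mul_add]
  rw [integral_sub (integrable_pot hK hKi y ψ) (integrable_const _), integral_const,
    Finset.sum_add_distrib, ← Finset.sum_mul, hsum]
  simp

lemma exists_min (hK : IsCompact K) (hKi : (interior K).Nonempty) (y : ι → E d)
    {m : ι → ℝ} (hm : ∀ i, 0 < m i) (hsum : ∑ i, m i = 1) :
    ∃ ψ : ι → ℝ, ∀ χ, Phi K y m ψ ≤ Phi K y m χ := by
  have := isProb_unif' hK hKi
  obtain ⟨R, hR⟩ := hK.isBounded.exists_norm_le
  have hR0 : 0 ≤ R := (norm_nonneg _).trans (hR _ (interior_subset hKi.some_mem))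
  set A : ℝ := R * ∑ j, ‖y j‖ with hA
  obtain ⟨k, -, hk⟩ := Finset.exists_min_image Finset.univ m Finset.univ_nonempty
  have hmk : ∀ i, m k ≤ m i := fun i => hk i (Finset.mem_univ i)
  -- lower bound
  have hlow : ∀ χ : ι → ℝ, (∀ i, 0 ≤ χ i) → (∃ j, χ j = 0) → ∀ i, -A + m k * χ i ≤ Phi K y m χ := by
    intro χ hχ ⟨j, hj⟩ i
    have h1 : -A ≤ ∫ x, pot y χ x ∂(unif K) := by
      have h2 : ∫ _x, (-A) ∂(unif K) = -A := by
        rw [integral_const]; simp
      rw [← h2]
      refine integral_mono_ae (integrable_const _) (integrable_pot hK hKi y χ) ?_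
      filter_upwards [ae_mem hK] with x hx
      refine le_trans ?_ (le_pot y χ x j)
      rw [hj, sub_zero]
      have h3 : |inner ℝ x (y j)| ≤ A := by
        refine (abs_real_inner_le_norm _ _).trans ?_
        rw [hA]
        refine mul_le_mul (hR x hx) ?_ (norm_nonneg _) hR0
        exact Finset.single_le_sum (f := fun j => ‖y j‖) (fun _ _ => norm_nonneg _)
          (Finset.mem_univ j)
      exact neg_le_of_abs_le h3
    have h4 : m k * χ i ≤ ∑ i, m i * χ i := by
      refine (mul_le_mul_of_nonneg_right (hmk i) (hχ i)).trans ?_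
      exact Finset.single_le_sum (f := fun i => m i * χ i)
        (fun i _ => mul_nonneg (hm i).le (hχ i)) (Finset.mem_univ i)
    unfold Phi
    linarith
  set L : ℝ := (Phi K y m 0 + A) / m k with hL
  have hL0 : 0 ≤ L := by
    refine div_nonneg ?_ (hm k).le
    have := hlow 0 (fun _ => le_rfl) ⟨k, rfl⟩ k
    simp only [Pi.zero_apply, mul_zero, add_zero] at this
    linarith
  have hbox : IsCompact (Set.univ.pi fun _ : ι => Icc (0 : ℝ) L) :=
    isCompact_univ_pi fun _ => isCompact_Icc
  have h0box : (0 : ι → ℝ) ∈ (Set.univ.pi fun _ : ι => Icc (0 : ℝ) L) :=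
    fun i _ => ⟨le_rfl, hL0⟩
  obtain ⟨ψ, hψ, hmin⟩ := hbox.exists_isMinOn ⟨0, h0box⟩ (continuous_Phi hK hKi y m).continuousOn
  refine ⟨ψ, fun χ => ?_⟩
  obtain ⟨j, -, hj⟩ := Finset.exists_min_image Finset.univ χ Finset.univ_nonempty
  have hχ0 : ∀ i, 0 ≤ χ i + (-χ j) := fun i => by have := hj i (Finset.mem_univ i); linarith
  rw [← Phi_add_const hK hKi y hsum χ (-χ j)]
  by_cases hin : (fun i => χ i + (-χ j)) ∈ (Set.univ.pi fun _ : ι => Icc (0 : ℝ) L)
  · exact hmin hin
  · have h1 : ∃ i, L < χ i + (-χ j) := by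
      by_contra h
      push Not at h
      exact hin fun i _ => ⟨hχ0 i, h i⟩
    obtain ⟨i, hi⟩ := h1
    have h2 := hlow (fun i => χ i + (-χ j)) hχ0 ⟨j, by ring⟩ i
    have h3 : Phi K y m ψ ≤ Phi K y m 0 := hmin h0box
    have h4 : m k * L = Phi K y m 0 + A := by
      rw [hL]
      field_simp [(hm k).ne']
    have h5 : m k * L < m k * (χ i + (-χ j)) := mul_lt_mul_of_pos_left hi (hm k)
    linarith

open Classical in
lemma mass_ge (hK : IsCompact K) (hKi : (interior K).Nonempty) (y : ι → E d)
    {m : ι → ℝ} {ψ : ι → ℝ} (hψ : ∀ χ, Phi K y m ψ ≤ Phi K y m χ) (i : ι) {t : ℝ} (ht : 0 < t) :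
    m i ≤ mass K y (Function.update ψ i (ψ i - t)) i := by
  have := isProb_unif' hK hKi
  set ψ' : ι → ℝ := Function.update ψ i (ψ i - t) with hψ'
  have h1 := hψ ψ'
  have hcell : MeasurableSet (cell K y ψ' i) := measurableSet_cell hK y ψ' i
  have h2 : ∫ x, pot y ψ' x ∂(unif K) ≤ ∫ x, pot y ψ x ∂(unif K) + t * mass K y ψ' i := by
    have h3 : ∫ x, (pot y ψ x + (cell K y ψ' i).indicator (fun _ => t) x) ∂(unif K) =
        ∫ x, pot y ψ x ∂(unif K) + t * mass K y ψ' i := by
      rw [integral_add (integrable_pot hK hKi y ψ) ((integrable_const t).indicator hcell),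
        integral_indicator hcell, setIntegral_const]
      simp only [smul_eq_mul, mass]
      ring
    rw [← h3]
    refine integral_mono_ae (integrable_pot hK hKi y ψ')
      ((integrable_pot hK hKi y ψ).add ((integrable_const t).indicator hcell)) ?_
    filter_upwards [ae_mem hK] with x hx
    by_cases hxc : x ∈ cell K y ψ' i
    · rw [pot_eq_of_mem_cell hxc, indicator_of_mem hxc, hψ', Function.update_self]
      have := le_pot y ψ x i
      linarith
    · rw [indicator_of_notMem hxc, add_zero]
      have h4 : ∃ j, inner ℝ x (y i) - ψ' i < inner ℝ x (y j) - ψ' j := by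
        by_contra h
        push Not at h
        exact hxc ⟨hx, h⟩
      obtain ⟨j, hj⟩ := h4
      have hji : j ≠ i := by
        rintro rfl
        exact lt_irrefl _ hj
      have hj' : ψ' j = ψ j := Function.update_of_ne hji _ _
      refine ciSup_le fun l => ?_
      by_cases hl : l = i
      · rw [hl]
        refine hj.le.trans ?_
        rw [hj']
        exact le_pot y ψ x j
      · have hl' : ψ' l = ψ l := Function.update_of_ne hl _ _
        rw [hl']
        exact le_pot y ψ x l
  have h5 : ∑ j, m j * ψ' j = ∑ j, m j * ψ j - m i * t := by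
    have h6 : ∀ j, m j * ψ' j = m j * ψ j - if j = i then m i * t else 0 := by
      intro j
      by_cases hj : j = i
      · rw [if_pos hj, hj, hψ', Function.update_self]
        ring
      · rw [if_neg hj, hψ', Function.update_of_ne hj]
        ring
    simp only [h6]
    rw [Finset.sum_sub_distrib, Finset.sum_ite_eq' Finset.univ i]
    simp
  unfold Phi at h1
  rw [h5] at h1
  have h6 : t * m i ≤ t * mass K y ψ' i := by linarith
  exact le_of_mul_le_mul_left h6 ht

end Exist

open Exist

theorem exists_weights {d : ℕ} {ι : Type} [Fintype ι] [Nonempty ι] {K : Set (E d)}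
    (hK : IsCompact K) (hKc : Convex ℝ K) (hKi : (interior K).Nonempty) {y : ι → E d}
    (hy : Function.Injective y) {m : ι → ℝ} (hm : ∀ i, 0 < m i) (hsum : ∑ i, m i = 1) :
    ∃ ψ : ι → ℝ, ∀ i, mass K y ψ i = m i := by
  classical
  have := isProb_unif' hK hKi
  obtain ⟨ψ, hψ⟩ := exists_min hK hKi y hm hsum
  have hge : ∀ i, m i ≤ mass K y ψ i := by
    intro i
    set s : ℕ → Set (E d) :=
      fun n => cell K y (Function.update ψ i (ψ i - 1 / ((n : ℝ) + 1))) i with hs
    have hanti : Antitone s := by
      intro a b hab x hx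
      refine ⟨hx.1, fun j => ?_⟩
      have h1 := hx.2 j
      have h2 : (1 : ℝ) / ((b : ℝ) + 1) ≤ 1 / ((a : ℝ) + 1) :=
        one_div_le_one_div_of_le (by positivity) (by
          have : (a : ℝ) ≤ b := by exact_mod_cast hab
          linarith)
      by_cases hj : j = i
      · rw [hj]
      · rw [Function.update_self, Function.update_of_ne hj] at h1 ⊢
        linarith
    have hinter : ⋂ n, s n = cell K y ψ i := by
      ext x
      rw [mem_iInter]
      constructor
      · intro h
        refine ⟨(h 0).1, fun j => ?_⟩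
        by_cases hj : j = i
        · rw [hj]
        · refine le_of_forall_pos_le_add fun δ hδ => ?_
          obtain ⟨n, hn⟩ := exists_nat_one_div_lt hδ
          have h1 := (h n).2 j
          rw [Function.update_self, Function.update_of_ne hj] at h1
          linarith
      · intro h n
        refine ⟨h.1, fun j => ?_⟩
        have h1 := h.2 j
        have h2 : (0 : ℝ) < 1 / ((n : ℝ) + 1) := by positivity
        by_cases hj : j = i
        · rw [hj]
        · rw [Function.update_self, Function.update_of_ne hj]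
          linarith
    have hlim : Tendsto (fun n => (unif K).real (s n)) atTop (𝓝 ((unif K).real (⋂ n, s n))) := by
      have h1 := tendsto_measure_iInter_atTop (μ := unif K) (s := s)
        (fun n => (measurableSet_cell hK y _ i).nullMeasurableSet) hanti
        ⟨0, measure_ne_top _ _⟩
      exact (ENNReal.tendsto_toReal (measure_ne_top _ _)).comp h1
    rw [hinter] at hlim
    refine ge_of_tendsto hlim (Eventually.of_forall fun n => ?_)
    exact mass_ge hK hKi y hψ i (by positivity)
  refine ⟨ψ, fun i => ?_⟩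
  have h1 : ∑ i, m i = ∑ i, mass K y ψ i := by
    rw [hsum, sum_mass hK hKi hy ψ]
  have h2 := (Finset.sum_eq_sum_iff_of_le (fun i _ => hge i)).mp h1
  exact (h2 i (Finset.mem_univ i)).symm

end Vale.Agent.P074
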