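import Vale.Agent.P074.Defs

open MeasureTheory Set Filter Topology
open scoped ENNReal NNReal

namespace Vale.Agent.P074

section maps

variable {ι α β F : Type} [Fintype ι] [MeasurableSpace α] [MeasurableSpace β] [MeasurableSpace F]

lemma map_comp_eq {μ : Measure α} {ν : Measure β} [IsFiniteMeasure μ] [IsFiniteMeasure ν]
    {σ : α → ι} {τ : β → ι} (hσ : ∀ i, MeasurableSet (σ ⁻¹' {i}))
    (hτ : ∀ i, MeasurableSet (τ ⁻¹' {i}))
    (h : ∀ i, μ.real (σ ⁻¹' {i}) = ν.real (τ ⁻¹' {i})) (y : ι → F) :
    μ.map (fun a => y (σ a)) = ν.map (fun b => y (τ b)) := by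
  let _ : MeasurableSpace ι := ⊤
  have hσm : Measurable σ := measurable_to_countable' hσ
  have hτm : Measurable τ := measurable_to_countable' hτ
  have key : μ.map σ = ν.map τ := by
    apply Measure.ext_of_singleton
    intro i
    rw [Measure.map_apply hσm (MeasurableSet.singleton i),
      Measure.map_apply hτm (MeasurableSet.singleton i)]
    have := h i
    rwa [Measure.real, Measure.real, ENNReal.toReal_eq_toReal_iff' (measure_ne_top _ _)
      (measure_ne_top _ _)] at this
  have h1 : μ.map (fun a => y (σ a)) = (μ.map σ).map y :=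
    (Measure.map_map (measurable_from_top) hσm).symm
  have h2 : ν.map (fun b => y (τ b)) = (ν.map τ).map y :=
    (Measure.map_map (measurable_from_top) hτm).symm
  rw [h1, h2, key]

lemma measurable_comp_fin {σ : α → ι} (hσ : ∀ i, MeasurableSet (σ ⁻¹' {i})) (y : ι → F) :
    Measurable (fun a => y (σ a)) := by
  let _ : MeasurableSpace ι := ⊤
  have hσm : Measurable σ := measurable_to_countable' hσ
  exact (measurable_from_top : Measurable y).comp hσm

lemma integral_comp_fin {μ : Measure α} [IsFiniteMeasure μ] {σ : α → ι}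
    (hσ : ∀ i, MeasurableSet (σ ⁻¹' {i})) (g : ι → ℝ) :
    ∫ a, g (σ a) ∂μ = ∑ i, μ.real (σ ⁻¹' {i}) * g i := by
  let _ : MeasurableSpace ι := ⊤
  have hσm : Measurable σ := measurable_to_countable' hσ
  have h1 : ∫ a, g (σ a) ∂μ = ∫ i, g i ∂(μ.map σ) := by
    rw [integral_map hσm.aemeasurable (measurable_from_top).aestronglyMeasurable]
  rw [h1, integral_fintype (Integrable.of_finite)]
  refine Finset.sum_congr rfl fun i _ => ?_
  rw [map_measureReal_apply hσm (MeasurableSet.singleton i), smul_eq_mul]

end maps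

end Vale.Agent.P074
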