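import Vale.Agent.P074.FinalAux
import Vale.Agent.P074.Example

open MeasureTheory Set Filter Topology
open scoped ENNReal NNReal

namespace Vale.Agent.P074

lemma sel_subgrad {d : ℕ} {ι : Type} [Fintype ι] [Nonempty ι] (y : ι → E d) (ψ : ι → ℝ)
    {τ : E d → ι}
    (hτ : ∀ x j, inner ℝ x (y j) - ψ j ≤ inner ℝ x (y (τ x)) - ψ (τ x)) (x z : E d) :
    pot y ψ x + inner ℝ (z - x) (y (τ x)) ≤ pot y ψ z := by
  have h1 : pot y ψ x ≤ inner ℝ x (y (τ x)) - ψ (τ x) := ciSup_le (hτ x)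
  have h2 := le_pot y ψ z (τ x)
  rw [inner_sub_left]
  linarith

/-- A bounded measurable function is integrable for a finite measure. -/
lemma integrable_of_ae_le {α : Type} [MeasurableSpace α] {μ : Measure α} [IsFiniteMeasure μ]
    {f : α → ℝ} (hf : Measurable f) {c : ℝ} (h : ∀ᵐ a ∂μ, ‖f a‖ ≤ c) : Integrable f μ :=
  Integrable.of_bound hf.aestronglyMeasurable c h

/-- Algebraic comparison of squared distances. -/
lemma sq_dist_le {d : ℕ} {R : ℝ} {a b s t : E d} (ha : ‖a‖ ≤ R) (hb : ‖b‖ ≤ R) (hs : ‖s‖ ≤ R)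
    (ht : ‖t‖ ≤ R) :
    ‖a - b‖ ^ 2 ≤ ‖s - t‖ ^ 2 + 4 * R * (‖a - s‖ + ‖b - t‖) := by
  have h1 : ‖a - b‖ ≤ ‖s - t‖ + (‖a - s‖ + ‖b - t‖) := by
    have : a - b = (s - t) + ((a - s) - (b - t)) := by abel
    rw [this]
    refine (norm_add_le _ _).trans ?_
    gcongr
    exact norm_sub_le _ _
  have h2 : ‖a - b‖ ≤ 2 * R := (norm_sub_le _ _).trans (by linarith)
  have h3 : ‖s - t‖ ≤ 2 * R := (norm_sub_le _ _).trans (by linarith)
  have h4 := norm_nonneg (a - b)
  have h5 := norm_nonneg (s - t)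
  have h6 : 0 ≤ ‖a - s‖ + ‖b - t‖ := by positivity
  nlinarith

theorem coupling_bound {d : ℕ} (hd : 2 ≤ d) {K Y : Set (E d)} (hK : IsCompact K)
    (hKc : Convex ℝ K) (hKi : (interior K).Nonempty) (hY : IsCompact Y) :
    ∃ C : ℝ, 0 ≤ C ∧ ∀ μ ν : Measure (E d), IsProbabilityMeasure μ → IsProbabilityMeasure ν →
      μ Yᶜ = 0 → ν Yᶜ = 0 →
      ∀ Tμ Tν : E d → E d, IsOptimalMap (unif K) μ Tμ → IsOptimalMap (unif K) ν Tν →
      ∀ π ∈ Couplings μ ν,
        (∫ x, ‖Tμ x - Tν x‖ ^ 2 ∂(unif K)) ^ 3 ≤ C * ∫ z, ‖z.1 - z.2‖ ^ 2 ∂π := by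
  obtain ⟨R0, hR0pos, hR0⟩ : ∃ R0 : ℝ, 0 < R0 ∧ Y ⊆ Metric.closedBall 0 R0 := by
    obtain ⟨r, hr, h⟩ := hY.isBounded.subset_closedBall_lt 0 0
    exact ⟨r, hr, h⟩
  obtain ⟨RK, hRKpos, hRK⟩ : ∃ R0 : ℝ, 0 < R0 ∧ K ⊆ Metric.closedBall 0 R0 := by
    obtain ⟨r, hr, h⟩ := hK.isBounded.subset_closedBall_lt 0 0
    exact ⟨r, hr, h⟩
  set R : ℝ≥0 := ⟨R0 + 1, by positivity⟩ with hRdef
  have hRR : (R : ℝ) = R0 + 1 := rfl
  have hYR : Y ⊆ Metric.closedBall 0 (R : ℝ) :=
    hR0.trans (Metric.closedBall_subset_closedBall (by rw [hRR]; linarith))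
  haveI hρ := unif_prob hK hKi
  obtain ⟨C1, hC1, l1⟩ := l1_stability hK hKi R
  obtain ⟨C2, hC2, ws⟩ := weights_stability hK hKc hKi
  obtain ⟨C3, hC3, gs⟩ := grad_stability hK hKc hKi R
  refine ⟨C3 * (4 * RK ^ 2 + 4 * C2), by positivity, ?_⟩
  intro μ ν hμ hν hμY hνY Tμ Tν hTμ hTν π hπ
  obtain ⟨hπ1, hπ2⟩ := hπ
  have hπprob : IsProbabilityMeasure π := by
    constructor
    have h : (π.map Prod.fst) univ = μ univ := by rw [hπ1]
    rw [Measure.map_apply measurable_fst MeasurableSet.univ, preimage_univ] at h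
    rw [h]
    exact measure_univ
  have hYm : MeasurableSet Y := hY.measurableSet
  have hπY1 : π (Prod.fst ⁻¹' Yᶜ) = 0 := by
    rw [← Measure.map_apply measurable_fst hYm.compl, hπ1, hμY]
  have hπY2 : π (Prod.snd ⁻¹' Yᶜ) = 0 := by
    rw [← Measure.map_apply measurable_snd hYm.compl, hπ2, hνY]
  -- bounds on the maps
  have hTμb : ∀ᵐ x ∂(unif K), ‖Tμ x‖ ≤ R := by
    have : ∀ᵐ y ∂((unif K).map Tμ), y ∈ Y := by
      rw [hTμ.2.1]
      exact measure_eq_zero_iff_ae_notMem.1 hμY |>.mono (fun y hy => by simpa using hy)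
    have h2 := ae_of_ae_map hTμ.1.aemeasurable this
    filter_upwards [h2] with x hx
    simpa using hYR hx
  have hTνb : ∀ᵐ x ∂(unif K), ‖Tν x‖ ≤ R := by
    have : ∀ᵐ y ∂((unif K).map Tν), y ∈ Y := by
      rw [hTν.2.1]
      exact measure_eq_zero_iff_ae_notMem.1 hνY |>.mono (fun y hy => by simpa using hy)
    have h2 := ae_of_ae_map hTν.1.aemeasurable this
    filter_upwards [h2] with x hx
    simpa using hYR hx
  obtain ⟨φ, hφc, hφL, hφs⟩ := exists_potential hK hKc hKi hYR hμ hμY hTμ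
  obtain ⟨χ', hχc, hχL, hχs⟩ := exists_potential hK hKc hKi hYR hν hνY hTν
  set A : ℝ := ∫ x, ‖Tμ x - Tν x‖ ^ 2 ∂(unif K) with hA
  set c0 : ℝ := ∫ z, ‖z.1 - z.2‖ ^ 2 ∂π with hc0
  -- main claim for every ε
  have claim : ∀ ε : ℝ, 0 < ε → ε ≤ 1 →
      (A - 4 * R * (C1 * √ε + C1 * √ε)) ^ 3 ≤
        C3 * (4 * RK ^ 2 + 4 * C2) * (c0 + (8 * R + 4) * ε) := by
    intro ε hε hε1
    obtain ⟨ι, _, _, m, y, z, σ, hm, hmsum, hinj, hσm, hσmass, hσ⟩ :=
      discretize hd hY π hπY1 hπY2 hε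
    have hy : Function.Injective y := by
      have := hinj 0 (by simp)
      simpa using this
    have hz : Function.Injective z := by
      have := hinj 1 (by simp)
      simpa using this
    obtain ⟨ψ, hψ⟩ := exists_weights hK hKc hKi hy hm hmsum
    obtain ⟨χ, hχ⟩ := exists_weights hK hKc hKi hz hm hmsum
    obtain ⟨c, hc⟩ := ws ι y z hinj ψ χ (fun i => by rw [hψ i]; exact hm i)
      (fun i => by rw [hψ i, hχ i])
    have hpl := integral_pot_sub_sq_le hK hKi hRK hy hz (ψ := ψ) (χ := χ)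
      (fun i => by rw [hψ i, hχ i]) c
    obtain ⟨τ, hτm, hτ⟩ := exists_selection y ψ
    obtain ⟨τ', hτ'm, hτ'⟩ := exists_selection z χ
    -- norm bounds of sites
    have hyz : ∀ i, ‖y i‖ ≤ R ∧ ‖z i‖ ≤ R := by
      intro i
      have hpos : 0 < π.real (σ ⁻¹' {i}) := by rw [hσmass i]; exact hm i
      have hne : π (σ ⁻¹' {i}) ≠ 0 := by
        intro h0
        rw [Measure.real, h0] at hpos
        simp at hpos
      have hae : ∀ᵐ q ∂π, (‖q.1 - y (σ q)‖ ≤ ε ∧ ‖q.2 - z (σ q)‖ ≤ ε) ∧ q.1 ∈ Y ∧ q.2 ∈ Y := by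
        have e1 : ∀ᵐ q ∂π, q.1 ∈ Y :=
          measure_eq_zero_iff_ae_notMem.1 hπY1 |>.mono (fun q hq => by simpa using hq)
        have e2 : ∀ᵐ q ∂π, q.2 ∈ Y :=
          measure_eq_zero_iff_ae_notMem.1 hπY2 |>.mono (fun q hq => by simpa using hq)
        filter_upwards [hσ, e1, e2] with q h1 h2 h3 using ⟨h1, h2, h3⟩
      obtain ⟨q, hq, hqσ⟩ : ∃ q, ((‖q.1 - y (σ q)‖ ≤ ε ∧ ‖q.2 - z (σ q)‖ ≤ ε) ∧ q.1 ∈ Y ∧ q.2 ∈ Y)
          ∧ q ∈ σ ⁻¹' {i} := by
        by_contra hcon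
        push Not at hcon
        apply hne
        rw [measure_eq_zero_iff_ae_notMem]
        filter_upwards [hae] with q hq using hcon q hq
      have hqi : σ q = i := by simpa using hqσ
      obtain ⟨⟨h1, h2⟩, h3, h4⟩ := hq
      rw [hqi] at h1 h2
      have h5 : ‖q.1‖ ≤ R0 := by simpa using hR0 h3
      have h6 : ‖q.2‖ ≤ R0 := by simpa using hR0 h4
      constructor
      · have : y i = q.1 - (q.1 - y i) := by abel
        rw [this, hRR]
        exact (norm_sub_le _ _).trans (by linarith)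
      · have : z i = q.2 - (q.2 - z i) := by abel
        rw [this, hRR]
        exact (norm_sub_le _ _).trans (by linarith)
    set S : E d → E d := fun x => y (τ x) with hS
    set S' : E d → E d := fun x => z (τ' x) with hS'
    have hSm : Measurable S := measurable_comp_fin hτm y
    have hS'm : Measurable S' := measurable_comp_fin hτ'm z
    have hSb : ∀ x, ‖S x‖ ≤ R := fun x => (hyz (τ x)).1
    have hS'b : ∀ x, ‖S' x‖ ≤ R := fun x => (hyz (τ' x)).2
    have hτmass : ∀ i, (unif K).real (τ ⁻¹' {i}) = m i := fun i => by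
      rw [unif_selection hK hy ψ hτm hτ i, hψ i]
    have hτ'mass : ∀ i, (unif K).real (τ' ⁻¹' {i}) = m i := fun i => by
      rw [unif_selection hK hz χ hτ'm hτ' i, hχ i]
    have hlipy : LipschitzWith R (pot y ψ) := lipschitz_pot (fun i => (hyz i).1) ψ
    have hlipz : LipschitzWith R (pot z χ) := lipschitz_pot (fun i => (hyz i).2) χ
    -- finite stability
    have hfin := gs S S' (pot y ψ) (pot z χ) c hSm hS'm (Eventually.of_forall hSb)
      (Eventually.of_forall hS'b) (convexOn_pot y ψ) hlipy (convexOn_pot z χ) hlipz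
      (Eventually.of_forall fun x u => sel_subgrad y ψ hτ x u)
      (Eventually.of_forall fun x u => sel_subgrad z χ hτ' x u)
    -- cost of the discretized coupling
    have hcost : ∑ i, m i * ‖z i - y i‖ ^ 2 ≤ c0 + (8 * R + 4) * ε := by
      have h1 : ∑ i, m i * ‖z i - y i‖ ^ 2 = ∫ q, ‖z (σ q) - y (σ q)‖ ^ 2 ∂π := by
        rw [integral_comp_fin hσm (fun i => ‖z i - y i‖ ^ 2)]
        exact Finset.sum_congr rfl fun i _ => by rw [hσmass i]
      rw [h1]
      have hmeas1 : Measurable (fun q : E d × E d => ‖z (σ q) - y (σ q)‖ ^ 2) :=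
        measurable_comp_fin hσm (fun i => ‖z i - y i‖ ^ 2)
      have hae : ∀ᵐ q ∂π, ‖q.1‖ ≤ R ∧ ‖q.2‖ ≤ R := by
        have e1 : ∀ᵐ q ∂π, q.1 ∈ Y :=
          measure_eq_zero_iff_ae_notMem.1 hπY1 |>.mono (fun q hq => by simpa using hq)
        have e2 : ∀ᵐ q ∂π, q.2 ∈ Y :=
          measure_eq_zero_iff_ae_notMem.1 hπY2 |>.mono (fun q hq => by simpa using hq)
        filter_upwards [e1, e2] with q h2 h3
        exact ⟨by simpa using hYR h2, by simpa using hYR h3⟩
      have hmeas2 : Measurable (fun q : E d × E d => ‖q.1 - q.2‖ ^ 2) := by fun_prop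
      have hint2 : Integrable (fun q : E d × E d => ‖q.1 - q.2‖ ^ 2) π := by
        refine integrable_of_ae_le hmeas2 (c := (2 * R) ^ 2) ?_
        filter_upwards [hae] with q hq
        rw [Real.norm_of_nonneg (by positivity)]
        have : ‖q.1 - q.2‖ ≤ 2 * R := (norm_sub_le _ _).trans (by linarith [hq.1, hq.2])
        gcongr
      have hint1 : Integrable (fun q : E d × E d => ‖z (σ q) - y (σ q)‖ ^ 2) π := by
        refine integrable_of_ae_le hmeas1 (c := (2 * R) ^ 2) (Eventually.of_forall fun q => ?_)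
        rw [Real.norm_of_nonneg (by positivity)]
        have : ‖z (σ q) - y (σ q)‖ ≤ 2 * R :=
          (norm_sub_le _ _).trans (by linarith [(hyz (σ q)).1, (hyz (σ q)).2])
        gcongr
      have h2 : ∫ q, ‖z (σ q) - y (σ q)‖ ^ 2 ∂π ≤
          ∫ q, (‖q.1 - q.2‖ ^ 2 + (8 * R + 4) * ε) ∂π := by
        refine integral_mono_ae hint1 (hint2.add (integrable_const _)) ?_
        filter_upwards [hae, hσ] with q hq hq2
        obtain ⟨h3, h4⟩ := hq2
        have h5 : ‖z (σ q) - y (σ q)‖ ≤ ‖q.1 - q.2‖ + 2 * ε := by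
          have : z (σ q) - y (σ q) = (q.1 - y (σ q)) - (q.2 - z (σ q)) - (q.1 - q.2) := by abel
          rw [this]
          refine (norm_sub_le _ _).trans ?_
          have := norm_sub_le (q.1 - y (σ q)) (q.2 - z (σ q))
          linarith
        have h6 : ‖q.1 - q.2‖ ≤ 2 * R := (norm_sub_le _ _).trans (by linarith [hq.1, hq.2])
        have h7 := norm_nonneg (q.1 - q.2)
        have h8 := norm_nonneg (z (σ q) - y (σ q))
        calc ‖z (σ q) - y (σ q)‖ ^ 2 ≤ (‖q.1 - q.2‖ + 2 * ε) ^ 2 := by gcongr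
          _ ≤ ‖q.1 - q.2‖ ^ 2 + (8 * R + 4) * ε := by nlinarith
      refine h2.trans ?_
      rw [integral_add hint2 (integrable_const _)]
      simp [hc0]
    -- comparison of Tμ and S
    have hcmp1 : ∫ x, ‖Tμ x - S x‖ ∂(unif K) ≤ C1 * √ε := by
      set π1 : Measure (E d × E d) := π.map (fun q => (q.1, y (σ q))) with hπ1def
      have hmeas : Measurable (fun q : E d × E d => (q.1, y (σ q))) :=
        measurable_fst.prodMk (measurable_comp_fin hσm y)
      have hf1 : π1.map Prod.fst = (unif K).map Tμ := by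
        rw [hπ1def, Measure.map_map measurable_fst hmeas, hTμ.2.1]
        exact hπ1
      have hf2 : π1.map Prod.snd = (unif K).map S := by
        rw [hπ1def, Measure.map_map measurable_snd hmeas]
        exact map_comp_eq hσm hτm (fun i => by rw [hσmass i, hτmass i]) y
      have h := l1 Tμ S φ (pot y ψ) π1 hTμ.1 hSm hTμb (Eventually.of_forall hSb) hφc hφL
        (convexOn_pot y ψ) hlipy hφs (Eventually.of_forall fun x u => sel_subgrad y ψ hτ x u)
        hf1 hf2
      refine h.trans ?_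
      gcongr
      rw [hπ1def, integral_map hmeas.aemeasurable (by fun_prop)]
      have : ∫ q, ‖q.1 - y (σ q)‖ ∂π ≤ ∫ _q, ε ∂π := by
        refine integral_mono_of_nonneg (Eventually.of_forall fun q => norm_nonneg _)
          (integrable_const _) ?_
        filter_upwards [hσ] with q hq using hq.1
      simpa using this
    have hcmp2 : ∫ x, ‖Tν x - S' x‖ ∂(unif K) ≤ C1 * √ε := by
      set π1 : Measure (E d × E d) := π.map (fun q => (q.2, z (σ q))) with hπ1def
      have hmeas : Measurable (fun q : E d × E d => (q.2, z (σ q))) :=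
        measurable_snd.prodMk (measurable_comp_fin hσm z)
      have hf1 : π1.map Prod.fst = (unif K).map Tν := by
        rw [hπ1def, Measure.map_map measurable_fst hmeas, hTν.2.1]
        exact hπ2
      have hf2 : π1.map Prod.snd = (unif K).map S' := by
        rw [hπ1def, Measure.map_map measurable_snd hmeas]
        exact map_comp_eq hσm hτ'm (fun i => by rw [hσmass i, hτ'mass i]) z
      have h := l1 Tν S' χ' (pot z χ) π1 hTν.1 hS'm hTνb (Eventually.of_forall hS'b) hχc hχL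
        (convexOn_pot z χ) hlipz hχs (Eventually.of_forall fun x u => sel_subgrad z χ hτ' x u)
        hf1 hf2
      refine h.trans ?_
      gcongr
      rw [hπ1def, integral_map hmeas.aemeasurable (by fun_prop)]
      have : ∫ q, ‖q.2 - z (σ q)‖ ∂π ≤ ∫ _q, ε ∂π := by
        refine integral_mono_of_nonneg (Eventually.of_forall fun q => norm_nonneg _)
          (integrable_const _) ?_
        filter_upwards [hσ] with q hq using hq.2
      simpa using this
    -- combine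
    have hB : A ≤ ∫ x, ‖S x - S' x‖ ^ 2 ∂(unif K) +
        4 * R * (∫ x, ‖Tμ x - S x‖ ∂(unif K) + ∫ x, ‖Tν x - S' x‖ ∂(unif K)) := by
      have i1 : Integrable (fun x => ‖Tμ x - S x‖) (unif K) := by
        refine integrable_of_ae_le (hTμ.1.sub hSm).norm (c := 2 * R) ?_
        filter_upwards [hTμb] with x hx
        rw [norm_norm]
        exact (norm_sub_le _ _).trans (by linarith [hSb x])
      have i2 : Integrable (fun x => ‖Tν x - S' x‖) (unif K) := by
        refine integrable_of_ae_le (hTν.1.sub hS'm).norm (c := 2 * R) ?_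
        filter_upwards [hTνb] with x hx
        rw [norm_norm]
        exact (norm_sub_le _ _).trans (by linarith [hS'b x])
      have i3 : Integrable (fun x => ‖S x - S' x‖ ^ 2) (unif K) := by
        refine integrable_of_ae_le ((hSm.sub hS'm).norm.pow_const 2) (c := (2 * R) ^ 2)
          (Eventually.of_forall fun x => ?_)
        rw [Real.norm_of_nonneg (by positivity)]
        have : ‖S x - S' x‖ ≤ 2 * R := (norm_sub_le _ _).trans (by linarith [hSb x, hS'b x])
        gcongr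
      have i4 : Integrable (fun x => ‖Tμ x - Tν x‖ ^ 2) (unif K) := by
        refine integrable_of_ae_le ((hTμ.1.sub hTν.1).norm.pow_const 2) (c := (2 * R) ^ 2) ?_
        filter_upwards [hTμb, hTνb] with x h1 h2
        rw [Real.norm_of_nonneg (by positivity)]
        have : ‖Tμ x - Tν x‖ ≤ 2 * R := (norm_sub_le _ _).trans (by linarith)
        gcongr
      have i5 : Integrable (fun x => 4 * (R : ℝ) * (‖Tμ x - S x‖ + ‖Tν x - S' x‖)) (unif K) :=
        (i1.add i2).const_mul _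
      have e5 : ∫ x, (‖S x - S' x‖ ^ 2 + 4 * (R : ℝ) * (‖Tμ x - S x‖ + ‖Tν x - S' x‖)) ∂(unif K) =
          ∫ x, ‖S x - S' x‖ ^ 2 ∂(unif K) +
        4 * R * (∫ x, ‖Tμ x - S x‖ ∂(unif K) + ∫ x, ‖Tν x - S' x‖ ∂(unif K)) := by
        rw [integral_add i3 i5, integral_const_mul, integral_add i1 i2]
      rw [hA, ← e5]
      refine integral_mono_ae i4 (i3.add i5) ?_
      filter_upwards [hTμb, hTνb] with x h1 h2
      exact sq_dist_le h1 h2 (hSb x) (hS'b x)
    have hA2 : A - 4 * R * (C1 * √ε + C1 * √ε) ≤ ∫ x, ‖S x - S' x‖ ^ 2 ∂(unif K) := by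
      have : 4 * (R : ℝ) * (∫ x, ‖Tμ x - S x‖ ∂(unif K) + ∫ x, ‖Tν x - S' x‖ ∂(unif K)) ≤
          4 * R * (C1 * √ε + C1 * √ε) := by gcongr
      linarith
    have hcube : (A - 4 * R * (C1 * √ε + C1 * √ε)) ^ 3 ≤
        (∫ x, ‖S x - S' x‖ ^ 2 ∂(unif K)) ^ 3 :=
      (Odd.strictMono_pow (by decide : Odd 3)).monotone hA2
    refine hcube.trans (hfin.trans ?_)
    rw [mul_assoc]
    refine mul_le_mul_of_nonneg_left ?_ hC3
    refine hpl.trans ?_
    have e1 : ∑ i, mass K y ψ i * ‖z i - y i‖ ^ 2 = ∑ i, m i * ‖z i - y i‖ ^ 2 :=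
      Finset.sum_congr rfl fun i _ => by rw [hψ i]
    rw [e1] at hc ⊢
    have h0 : 0 ≤ ∑ i, m i * ‖z i - y i‖ ^ 2 :=
      Finset.sum_nonneg fun i _ => mul_nonneg (hm i).le (by positivity)
    calc 4 * RK ^ 2 * ∑ i, m i * ‖z i - y i‖ ^ 2 +
          4 * ∑ i, mass K y ψ i * (χ i - ψ i - c) ^ 2
        ≤ 4 * RK ^ 2 * ∑ i, m i * ‖z i - y i‖ ^ 2 +
          4 * (C2 * ∑ i, m i * ‖z i - y i‖ ^ 2) := by gcongr
      _ = (4 * RK ^ 2 + 4 * C2) * ∑ i, m i * ‖z i - y i‖ ^ 2 := by ring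
      _ ≤ (4 * RK ^ 2 + 4 * C2) * (c0 + (8 * R + 4) * ε) := by gcongr
  -- let ε tend to 0
  have hlim1 : Tendsto (fun ε : ℝ => (A - 4 * R * (C1 * √ε + C1 * √ε)) ^ 3) (𝓝[>] 0)
      (𝓝 ((A - 4 * R * (C1 * √0 + C1 * √0)) ^ 3)) := by
    apply Tendsto.mono_left _ nhdsWithin_le_nhds
    apply Continuous.tendsto
    fun_prop
  have hlim2 : Tendsto (fun ε : ℝ => C3 * (4 * RK ^ 2 + 4 * C2) * (c0 + (8 * R + 4) * ε))
      (𝓝[>] 0) (𝓝 (C3 * (4 * RK ^ 2 + 4 * C2) * (c0 + (8 * R + 4) * 0))) := by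
    apply Tendsto.mono_left _ nhdsWithin_le_nhds
    apply Continuous.tendsto
    fun_prop
  have := le_of_tendsto_of_tendsto hlim1 hlim2 ?_
  · simpa using this
  · filter_upwards [Ioo_mem_nhdsGT (show (0 : ℝ) < 1 by norm_num)] with ε hε
    exact claim ε hε.1 hε.2.le

end Vale.Agent.P074
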