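import Vale.Agent.P074.LagDefs

/-!
Basic facts on Laguerre cells (task P074-C2).
-/

open MeasureTheory Set
open scoped ENNReal NNReal

namespace Vale.Agent.P074

variable {d : ℕ} {ι : Type} [Fintype ι]

omit [Fintype ι] in
theorem lag_isClosed_best (y : ι → E d) (ψ : ι → ℝ) (i : ι) :
    IsClosed {x : E d | ∀ j, inner ℝ x (y j) - ψ j ≤ inner ℝ x (y i) - ψ i} := by
  rw [Set.ofPred_forall]
  exact isClosed_iInter fun j => isClosed_le (by fun_prop) (by fun_prop)

omit [Fintype ι] in
theorem lag_cell_eq_inter (K : Set (E d)) (y : ι → E d) (ψ : ι → ℝ) (i : ι) :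
    cell K y ψ i = K ∩ {x : E d | ∀ j, inner ℝ x (y j) - ψ j ≤ inner ℝ x (y i) - ψ i} := rfl

theorem isClosed_cell {K : Set (E d)} (hK : IsCompact K) (y : ι → E d) (ψ : ι → ℝ) (i : ι) :
    IsClosed (cell K y ψ i) := by
  rw [lag_cell_eq_inter]
  exact hK.isClosed.inter (lag_isClosed_best y ψ i)

theorem measurableSet_cell {K : Set (E d)} (hK : IsCompact K) (y : ι → E d) (ψ : ι → ℝ) (i : ι) :
    MeasurableSet (cell K y ψ i) := (isClosed_cell hK y ψ i).measurableSet

theorem cell_subset {K : Set (E d)} (y : ι → E d) (ψ : ι → ℝ) (i : ι) :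
    cell K y ψ i ⊆ K := fun _ hx => hx.1

theorem exists_mem_cell [Nonempty ι] {K : Set (E d)} (y : ι → E d) (ψ : ι → ℝ) {x : E d}
    (hx : x ∈ K) : ∃ i, x ∈ cell K y ψ i := by
  obtain ⟨i, hi⟩ := Finite.exists_max fun i => inner ℝ x (y i) - ψ i
  exact ⟨i, hx, hi⟩

theorem mid_mem_cell {K : Set (E d)} (hKc : Convex ℝ K) (y : ι → E d) {ψ ψ' : ι → ℝ} {i : ι}
    {x x' : E d} (hx : x ∈ cell K y ψ i) (hx' : x' ∈ cell K y ψ' i) :
    (1 / 2 : ℝ) • (x + x') ∈ cell K y (fun j => (ψ j + ψ' j) / 2) i := by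
  refine ⟨?_, fun j => ?_⟩
  · rw [smul_add]
    exact hKc hx.1 hx'.1 (by norm_num) (by norm_num) (by norm_num)
  · have h1 := hx.2 j
    have h2 := hx'.2 j
    simp only [inner_smul_left, inner_add_left, RCLike.conj_to_real]
    linarith

/-- Hyperplanes are null. -/
theorem lag_volume_hyperplane {v : E d} (hv : v ≠ 0) (c : ℝ) :
    volume {x : E d | inner ℝ x v = c} = 0 := by
  by_cases hne : ∃ x0 : E d, inner ℝ x0 v = c
  swap
  · push Not at hne
    have : {x : E d | inner ℝ x v = c} = ∅ := by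
      ext x; simp [hne x]
    rw [this, measure_empty]
  obtain ⟨x0, hx0⟩ := hne
  have h1 : {x : E d | inner ℝ x v = c} ⊆
      (fun x => x + (-x0)) ⁻¹' (((Submodule.span ℝ {v})ᗮ : Submodule ℝ (E d)) : Set (E d)) := by
    intro x hx
    have hx' : inner ℝ x v = c := hx
    simp only [mem_preimage, SetLike.mem_coe, Submodule.mem_orthogonal_singleton_iff_inner_left]
    rw [inner_add_left, inner_neg_left, hx', hx0, add_neg_cancel]
  refine measure_mono_null h1 ?_
  rw [measure_preimage_add_right]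
  refine Measure.addHaar_submodule _ _ ?_
  intro htop
  have h2 : v ∈ (Submodule.span ℝ {v})ᗮ := by rw [htop]; trivial
  rw [Submodule.mem_orthogonal_singleton_iff_inner_left] at h2
  exact hv (inner_self_eq_zero.1 h2)

/-- Different cells overlap in a null set when the sites are distinct. -/
theorem volume_cell_inter {K : Set (E d)} {y : ι → E d} (hy : Function.Injective y)
    (ψ : ι → ℝ) {i j : ι} (hij : i ≠ j) :
    volume (cell K y ψ i ∩ cell K y ψ j) = 0 := by
  refine measure_mono_null ?_ (lag_volume_hyperplane (v := y i - y j)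
    (sub_ne_zero.2 fun h => hij (hy h)) (ψ i - ψ j))
  rintro x ⟨h1, h2⟩
  have h3 := h1.2 j
  have h4 := h2.2 i
  show inner ℝ x (y i - y j) = ψ i - ψ j
  rw [inner_sub_right]
  linarith

theorem lag_iUnion_cell [Nonempty ι] (K : Set (E d)) (y : ι → E d) (ψ : ι → ℝ) :
    ⋃ i, cell K y ψ i = K := by
  ext x
  simp only [mem_iUnion]
  exact ⟨fun ⟨i, hi⟩ => hi.1, fun hx => exists_mem_cell y ψ hx⟩

/-- The integral over `K` is the sum of the integrals over the cells. -/
theorem sum_integral_cell [Nonempty ι] {K : Set (E d)} (hK : IsCompact K) {y : ι → E d}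
    (hy : Function.Injective y) (ψ : ι → ℝ) {F : Type} [NormedAddCommGroup F] [NormedSpace ℝ F]
    {f : E d → F} (hf : IntegrableOn f K volume) :
    ∑ i, ∫ x in cell K y ψ i, f x = ∫ x in K, f x := by
  have h := integral_iUnion_ae (μ := (volume : Measure (E d))) (s := fun i => cell K y ψ i) (f := f)
    (fun i => (measurableSet_cell hK y ψ i).nullMeasurableSet)
    (fun i j hij => volume_cell_inter hy ψ hij) (by rwa [lag_iUnion_cell])
  rw [lag_iUnion_cell, tsum_fintype] at h
  exact h.symm

theorem lag_unif_restrict {K : Set (E d)} (hK : IsCompact K) : (unif K).restrict K = unif K := by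
  rw [unif, Measure.restrict_smul, Measure.restrict_restrict hK.measurableSet, inter_self]

theorem lag_unif_null {K s : Set (E d)} (hs : volume s = 0) : unif K s = 0 := by
  rw [unif, Measure.smul_apply, smul_eq_mul]
  have : (volume.restrict K) s = 0 := Measure.absolutelyContinuous_of_le Measure.restrict_le_self hs
  rw [this, mul_zero]

/-- The same for the uniform probability measure. -/
theorem sum_integral_cell_unif [Nonempty ι] {K : Set (E d)} (hK : IsCompact K) {y : ι → E d}
    (hy : Function.Injective y) (ψ : ι → ℝ) {F : Type} [NormedAddCommGroup F] [NormedSpace ℝ F]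
    {f : E d → F} (hf : Integrable f (unif K)) :
    ∑ i, ∫ x in cell K y ψ i, f x ∂(unif K) = ∫ x, f x ∂(unif K) := by
  have h := integral_iUnion_ae (μ := unif K) (s := fun i => cell K y ψ i) (f := f)
    (fun i => (measurableSet_cell hK y ψ i).nullMeasurableSet)
    (fun i j hij => lag_unif_null (volume_cell_inter hy ψ hij)) hf.integrableOn
  rw [lag_iUnion_cell, tsum_fintype, lag_unif_restrict hK] at h
  exact h.symm

theorem lag_unif_prob {K : Set (E d)} (hK : IsCompact K)
    (hKi : (interior K).Nonempty) : IsProbabilityMeasure (unif K) := by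
  have h0 : volume K ≠ 0 := (Measure.measure_pos_of_nonempty_interior volume hKi).ne'
  have h1 : volume K ≠ ∞ := hK.measure_lt_top.ne
  constructor
  rw [unif, Measure.smul_apply, Measure.restrict_apply_univ, smul_eq_mul]
  exact ENNReal.inv_mul_cancel h0 h1

theorem lag_integrable_unif {K : Set (E d)} (hK : IsCompact K)
    (hKi : (interior K).Nonempty) {F : Type} [NormedAddCommGroup F] {f : E d → F}
    (hf : Continuous f) : Integrable f (unif K) := by
  have h0 : volume K ≠ 0 := (Measure.measure_pos_of_nonempty_interior volume hKi).ne'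
  rw [unif]
  exact (hf.continuousOn.integrableOn_compact hK).smul_measure (ENNReal.inv_ne_top.2 h0)

theorem sum_mass [Nonempty ι] {K : Set (E d)} (hK : IsCompact K) (hKi : (interior K).Nonempty)
    {y : ι → E d} (hy : Function.Injective y) (ψ : ι → ℝ) : ∑ i, mass K y ψ i = 1 := by
  haveI := lag_unif_prob hK hKi
  have h := sum_integral_cell_unif hK hy ψ (f := fun _ => (1 : ℝ)) (integrable_const _)
  simpa [mass] using h

theorem mass_nonneg (K : Set (E d)) (y : ι → E d) (ψ : ι → ℝ) (i : ι) : 0 ≤ mass K y ψ i :=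
  measureReal_nonneg

theorem le_pot (y : ι → E d) (ψ : ι → ℝ) (x : E d) (i : ι) :
    inner ℝ x (y i) - ψ i ≤ pot y ψ x :=
  le_ciSup (f := fun i => inner ℝ x (y i) - ψ i) (Set.finite_range _).bddAbove i

theorem pot_eq_of_mem_cell {K : Set (E d)} {y : ι → E d} {ψ : ι → ℝ} {x : E d} {i : ι}
    (hx : x ∈ cell K y ψ i) : pot y ψ x = inner ℝ x (y i) - ψ i := by
  haveI : Nonempty ι := ⟨i⟩
  exact le_antisymm (ciSup_le hx.2) (le_pot y ψ x i)

theorem convexOn_pot [Nonempty ι] (y : ι → E d) (ψ : ι → ℝ) :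
    ConvexOn ℝ univ (pot y ψ) := by
  refine ⟨convex_univ, fun x _ x' _ a b ha hb hab => ?_⟩
  refine ciSup_le fun i => ?_
  have h1 := mul_le_mul_of_nonneg_left (le_pot y ψ x i) ha
  have h2 := mul_le_mul_of_nonneg_left (le_pot y ψ x' i) hb
  simp only [inner_smul_left, inner_add_left, RCLike.conj_to_real, smul_eq_mul]
  have h3 : ψ i = a * ψ i + b * ψ i := by rw [← add_mul, hab, one_mul]
  calc a * inner ℝ x (y i) + b * inner ℝ x' (y i) - ψ i
      = a * (inner ℝ x (y i) - ψ i) + b * (inner ℝ x' (y i) - ψ i) := by linarith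
    _ ≤ _ := add_le_add h1 h2

theorem lipschitz_pot [Nonempty ι] {R : ℝ≥0} {y : ι → E d} (hy : ∀ i, ‖y i‖ ≤ R) (ψ : ι → ℝ) :
    LipschitzWith R (pot y ψ) := by
  refine LipschitzWith.of_le_add_mul R fun x x' => ?_
  refine ciSup_le fun i => ?_
  have h1 := le_pot y ψ x' i
  have h2 : inner ℝ x (y i) - inner ℝ x' (y i) ≤ R * dist x x' := by
    rw [← inner_sub_left, dist_eq_norm]
    calc inner ℝ (x - x') (y i) ≤ ‖x - x'‖ * ‖y i‖ := real_inner_le_norm _ _
      _ ≤ ‖x - x'‖ * R := mul_le_mul_of_nonneg_left (hy i) (norm_nonneg _)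
      _ = R * ‖x - x'‖ := mul_comm _ _
  linarith

theorem lag_continuous_pot [Nonempty ι] (y : ι → E d) (ψ : ι → ℝ) : Continuous (pot y ψ) := by
  refine (lipschitz_pot (R := ∑ i, ‖y i‖₊) (fun i => ?_) ψ).continuous
  have : ‖y i‖₊ ≤ ∑ i, ‖y i‖₊ :=
    Finset.single_le_sum (f := fun i => ‖y i‖₊) (fun _ _ => zero_le) (Finset.mem_univ i)
  exact_mod_cast this

theorem lag_setIntegral_affine {K : Set (E d)} (hK : IsCompact K) (hKi : (interior K).Nonempty)
    (y : ι → E d) (ψ : ι → ℝ) (i : ι) (v : E d) (c : ℝ) :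
    ∫ x in cell K y ψ i, (inner ℝ x v - c) ∂(unif K) =
      inner ℝ (mom K y ψ i) v - mass K y ψ i * c := by
  haveI := lag_unif_prob hK hKi
  have i1 : IntegrableOn (fun x : E d => inner ℝ x v) (cell K y ψ i) (unif K) :=
    (lag_integrable_unif hK hKi (by fun_prop)).integrableOn
  have i2 : IntegrableOn (fun x : E d => x) (cell K y ψ i) (unif K) :=
    (lag_integrable_unif hK hKi continuous_id).integrableOn
  rw [integral_sub i1 (integrable_const _)]
  congr 1
  · rw [mom, real_inner_comm, ← integral_inner i2]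
    exact integral_congr_ae (Filter.Eventually.of_forall fun x => real_inner_comm _ _)
  · rw [setIntegral_const, smul_eq_mul]; rfl

/-- Value of the integral of the potential. -/
theorem integral_pot [Nonempty ι] {K : Set (E d)} (hK : IsCompact K)
    (hKi : (interior K).Nonempty) {y : ι → E d} (hy : Function.Injective y) (ψ : ι → ℝ) :
    ∫ x, pot y ψ x ∂(unif K) =
      ∑ i, (inner ℝ (mom K y ψ i) (y i) - mass K y ψ i * ψ i) := by
  rw [← sum_integral_cell_unif hK hy ψ
    (lag_integrable_unif hK hKi (lag_continuous_pot y ψ))]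
  refine Finset.sum_congr rfl fun i _ => ?_
  rw [← lag_setIntegral_affine hK hKi]
  exact setIntegral_congr_fun (measurableSet_cell hK y ψ i) fun x hx => pot_eq_of_mem_cell hx

/-- Testing the potential of `(z, χ)` with the cells of `(y, ψ)`. -/
theorem le_integral_pot [Nonempty ι] {K : Set (E d)} (hK : IsCompact K)
    (hKi : (interior K).Nonempty) {y : ι → E d} (hy : Function.Injective y) (ψ : ι → ℝ)
    (z : ι → E d) (χ : ι → ℝ) :
    ∑ i, (inner ℝ (mom K y ψ i) (z i) - mass K y ψ i * χ i) ≤ ∫ x, pot z χ x ∂(unif K) := by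
  haveI := lag_unif_prob hK hKi
  have hint := lag_integrable_unif hK hKi (lag_continuous_pot z χ)
  rw [← sum_integral_cell_unif hK hy ψ hint]
  refine Finset.sum_le_sum fun i _ => ?_
  rw [← lag_setIntegral_affine hK hKi]
  refine setIntegral_mono ?_ hint.integrableOn fun x => le_pot z χ x i
  exact (lag_integrable_unif hK hKi (by fun_prop)).integrableOn

/-- A measurable choice of the cell. -/
theorem exists_selection [Nonempty ι] (y : ι → E d) (ψ : ι → ℝ) :
    ∃ τ : E d → ι, (∀ i, MeasurableSet (τ ⁻¹' {i})) ∧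
      ∀ x j, inner ℝ x (y j) - ψ j ≤ inner ℝ x (y (τ x)) - ψ (τ x) := by
  classical
  let A : ι → Set (E d) := fun i => {x | ∀ j, inner ℝ x (y j) - ψ j ≤ inner ℝ x (y i) - ψ i}
  have hA : ∀ i, MeasurableSet (A i) := fun i => (lag_isClosed_best y ψ i).measurableSet
  let e : Fin (Fintype.card ι) ≃ ι := (Fintype.equivFin ι).symm
  have hne : ∀ x, (Finset.univ.filter fun k => x ∈ A (e k)).Nonempty := by
    intro x
    obtain ⟨i, hi⟩ := Finite.exists_max fun i => inner ℝ x (y i) - ψ i
    refine ⟨e.symm i, ?_⟩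
    simp only [Finset.mem_filter, Finset.mem_univ, true_and, Equiv.apply_symm_apply]
    exact hi
  let τ : E d → ι := fun x => e ((Finset.univ.filter fun k => x ∈ A (e k)).min' (hne x))
  refine ⟨τ, fun i => ?_, fun x => ?_⟩
  · have : τ ⁻¹' {i} = A i ∩ ⋂ k : Fin (Fintype.card ι), ⋂ (_ : k < e.symm i), (A (e k))ᶜ := by
      ext x
      simp only [mem_preimage, mem_singleton_iff, mem_inter_iff, mem_iInter, mem_compl_iff]
      have h1 : τ x = i ↔
          (Finset.univ.filter fun k => x ∈ A (e k)).min' (hne x) = e.symm i :=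
        (Equiv.eq_symm_apply e).symm
      rw [h1, Finset.min'_eq_iff]
      simp only [Finset.mem_filter, Finset.mem_univ, true_and, Equiv.apply_symm_apply]
      refine and_congr_right fun _ => ?_
      constructor
      · intro h k hk hx; exact absurd (h k hx) (not_le.2 hk)
      · intro h k hx
        by_contra hlt
        exact h k (not_le.1 hlt) hx
    rw [this]
    exact (hA i).inter (MeasurableSet.iInter fun k => MeasurableSet.iInter fun _ => (hA _).compl)
  · have h2 := Finset.min'_mem _ (hne x)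
    simp only [Finset.mem_filter, Finset.mem_univ, true_and] at h2
    exact h2

/-- The mass of the cell chosen by a selection is the mass of the cell. -/
theorem unif_selection [Nonempty ι] {K : Set (E d)} (hK : IsCompact K)
    {y : ι → E d} (hy : Function.Injective y) (ψ : ι → ℝ) {τ : E d → ι}
    (_hτm : ∀ i, MeasurableSet (τ ⁻¹' {i}))
    (hτ : ∀ x j, inner ℝ x (y j) - ψ j ≤ inner ℝ x (y (τ x)) - ψ (τ x)) (i : ι) :
    (unif K).real (τ ⁻¹' {i}) = mass K y ψ i := by
  refine measureReal_congr ?_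
  have h1 : ∀ᵐ x ∂(unif K), x ∈ K := by
    rw [← lag_unif_restrict hK]
    exact ae_restrict_mem hK.measurableSet
  have h2 : ∀ᵐ x ∂(unif K), ∀ j, j ≠ i → x ∉ cell K y ψ i ∩ cell K y ψ j := by
    rw [ae_all_iff]
    intro j
    by_cases hj : j = i
    · exact Filter.Eventually.of_forall fun x h => absurd hj h
    · have : unif K (cell K y ψ i ∩ cell K y ψ j) = 0 :=
        lag_unif_null (volume_cell_inter hy ψ (Ne.symm hj))
      filter_upwards [measure_eq_zero_iff_ae_notMem.1 this] with x hx _ using hx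
  filter_upwards [h1, h2] with x hx1 hx2
  apply propext
  show τ x = i ↔ x ∈ cell K y ψ i
  constructor
  · intro h
    refine ⟨hx1, ?_⟩
    rw [← h]
    exact hτ x
  · intro h
    by_contra hne
    exact hx2 (τ x) hne ⟨h, hx1, hτ x⟩

end Vale.Agent.P074
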