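import Vale.Agent.P074.PL
import Vale.Agent.P074.LagGeom

/-!
The Prékopa–Leindler gain on Laguerre cells with a Gaussian weight (task P074-C3).
-/

open MeasureTheory Set
open scoped ENNReal NNReal

namespace Vale.Agent.P074

variable {d : ℕ} {ι : Type} [Fintype ι]

/-- Gaussian weight. -/
noncomputable def gw (δ : ℝ) (x : E d) : ℝ := Real.exp (-(δ * ‖x‖ ^ 2 / 2))

/-- Gaussian mass of a cell. -/
noncomputable def gm (δ : ℝ) (K : Set (E d)) (y : ι → E d) (ψ : ι → ℝ) (i : ι) : ℝ :=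
  ∫ x in cell K y ψ i, gw δ x

/-- Gaussian average of `p` over a cell. -/
noncomputable def ga (δ : ℝ) (K : Set (E d)) (y : ι → E d) (ψ : ι → ℝ) (p : E d → ℝ) (i : ι) :
    ℝ :=
  (∫ x in cell K y ψ i, p x * gw δ x) / gm δ K y ψ i

theorem continuous_gw (δ : ℝ) : Continuous (gw δ : E d → ℝ) := by
  unfold gw; fun_prop

theorem gw_pos (δ : ℝ) (x : E d) : 0 < gw δ x := Real.exp_pos _

theorem integrableOn_cell_of_continuous {K : Set (E d)} (hK : IsCompact K) (y : ι → E d)
    (ψ : ι → ℝ) (i : ι) {f : E d → ℝ} (hf : Continuous f) :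
    IntegrableOn f (cell K y ψ i) volume :=
  (hf.continuousOn.integrableOn_compact hK).mono_set (cell_subset y ψ i)

/-- the exponential moment is at least the exponential of the mean -/
theorem exp_moment_le {K : Set (E d)} (hK : IsCompact K) (δ : ℝ) (y : ι → E d) (ψ : ι → ℝ)
    (i : ι) {p : E d → ℝ} (hp : Continuous p) (κ : ℝ) (hpos : 0 < gm δ K y ψ i) :
    Real.exp (κ * ga δ K y ψ p i) * gm δ K y ψ i ≤
      ∫ x in cell K y ψ i, gw δ x * Real.exp (κ * p x) := by
  set P := ga δ K y ψ p i with hP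
  have hw := continuous_gw (d := d) δ
  have h1 : ∫ x in cell K y ψ i, (Real.exp (κ * P) * (1 - κ * P)) * gw δ x +
      (Real.exp (κ * P) * κ) * (p x * gw δ x) ≤
      ∫ x in cell K y ψ i, gw δ x * Real.exp (κ * p x) := by
    refine setIntegral_mono_on ?_ ?_ (measurableSet_cell hK y ψ i) fun x _ => ?_
    · exact integrableOn_cell_of_continuous hK y ψ i (by fun_prop)
    · exact integrableOn_cell_of_continuous hK y ψ i (by fun_prop)
    · have h2 := Real.add_one_le_exp (κ * (p x - P))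
      have h3 : Real.exp (κ * p x) = Real.exp (κ * P) * Real.exp (κ * (p x - P)) := by
        rw [← Real.exp_add]; congr 1; ring
      rw [h3]
      have h4 := mul_le_mul_of_nonneg_left h2
        (mul_nonneg (gw_pos δ x).le (Real.exp_pos (κ * P)).le)
      nlinarith
  refine le_trans (le_of_eq ?_) h1
  have i1 : IntegrableOn (fun x => (Real.exp (κ * P) * (1 - κ * P)) * gw δ x)
      (cell K y ψ i) volume := integrableOn_cell_of_continuous hK y ψ i (by fun_prop)
  have i2 : IntegrableOn (fun x => (Real.exp (κ * P) * κ) * (p x * gw δ x))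
      (cell K y ψ i) volume := integrableOn_cell_of_continuous hK y ψ i (by fun_prop)
  rw [integral_add i1 i2, integral_const_mul, integral_const_mul]
  have h5 : ∫ x in cell K y ψ i, p x * gw δ x = P * gm δ K y ψ i := by
    rw [hP, ga, div_mul_cancel₀ _ hpos.ne']
  rw [h5]
  show _ = Real.exp (κ * P) * (1 - κ * P) * gm δ K y ψ i + _
  ring

/-- the one-cell inequality -/
theorem cell_gain_one {K : Set (E d)} (hK : IsCompact K) (hKc : Convex ℝ K)
    {δ L : ℝ} (hδ : 0 < δ) (hL : 0 < L) {y : ι → E d}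
    (ψ ψ' : ι → ℝ) {p : E d → ℝ} (hpc : Continuous p)
    (hp : ∀ x ∈ K, ∀ x' ∈ K, |p x - p x'| ≤ L * ‖x - x'‖) (i : ι)
    (hpos : 0 < gm δ K y ψ i) (hpos' : 0 < gm δ K y ψ' i) :
    Real.sqrt (gm δ K y ψ i * gm δ K y ψ' i) *
        (1 + δ / (8 * L ^ 2) * (ga δ K y ψ p i - ga δ K y ψ' p i) ^ 2) ≤
      gm δ K y (fun j => (ψ j + ψ' j) / 2) i := by
  set P := ga δ K y ψ p i with hP
  set P' := ga δ K y ψ' p i with hP'
  set G := gm δ K y ψ i with hG
  set G' := gm δ K y ψ' i with hG'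
  set M := gm δ K y (fun j => (ψ j + ψ' j) / 2) i with hM
  set κ : ℝ := δ * (P - P') / (2 * L ^ 2) with hκ
  have hw := continuous_gw (d := d) δ
  set C := cell K y ψ i with hC
  set C' := cell K y ψ' i with hC'
  set CM := cell K y (fun j => (ψ j + ψ' j) / 2) i with hCM
  have mC : MeasurableSet C := measurableSet_cell hK y ψ i
  have mC' : MeasurableSet C' := measurableSet_cell hK y ψ' i
  have mCM : MeasurableSet CM := measurableSet_cell hK y _ i
  let f : E d → ℝ≥0∞ := C.indicator fun x => ENNReal.ofReal (gw δ x * Real.exp (κ * p x))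
  let g : E d → ℝ≥0∞ := C'.indicator fun x =>
    ENNReal.ofReal (Real.exp (-(κ ^ 2 * L ^ 2 / δ)) * (gw δ x * Real.exp ((-κ) * p x)))
  let h : E d → ℝ≥0∞ := CM.indicator fun x => ENNReal.ofReal (gw δ x)
  have hf : Measurable f := Measurable.indicator (by fun_prop) mC
  have hg : Measurable g := Measurable.indicator (by fun_prop) mC'
  have hh : Measurable h := Measurable.indicator (by fun_prop) mCM
  have key : ∀ x x', f x * g x' ≤ h ((1 / 2 : ℝ) • (x + x')) ^ 2 := by
    intro x x'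
    by_cases hx : x ∈ C
    swap
    · simp [f, hx]
    by_cases hx' : x' ∈ C'
    swap
    · simp [g, hx']
    have hz : (1 / 2 : ℝ) • (x + x') ∈ CM := mid_mem_cell hKc y hx hx'
    simp only [f, g, h, indicator_of_mem hx, indicator_of_mem hx', indicator_of_mem hz]
    rw [← ENNReal.ofReal_mul (mul_nonneg (gw_pos δ x).le (Real.exp_pos _).le),
      ← ENNReal.ofReal_pow (gw_pos δ _).le]
    apply ENNReal.ofReal_le_ofReal
    have hpar : ‖(1 / 2 : ℝ) • (x + x')‖ ^ 2 =
        ‖x‖ ^ 2 / 2 + ‖x'‖ ^ 2 / 2 - ‖x - x'‖ ^ 2 / 4 := by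
      have h1 := parallelogram_law_with_norm ℝ x x'
      rw [norm_smul, mul_pow]
      norm_num
      nlinarith
    have hlip := hp x (cell_subset y ψ i hx) x' (cell_subset y ψ' i hx')
    set r := ‖x - x'‖ with hr
    simp only [gw]
    rw [← Real.exp_nat_mul, ← Real.exp_add, ← Real.exp_add, ← Real.exp_add, ← Real.exp_add]
    apply Real.exp_le_exp.2
    rw [hpar]
    have h2 : κ * (p x - p x') ≤ κ ^ 2 * L ^ 2 / δ + δ * r ^ 2 / 4 := by
      have h3 : κ * (p x - p x') ≤ |κ| * (L * r) := by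
        calc κ * (p x - p x') ≤ |κ * (p x - p x')| := le_abs_self _
          _ = |κ| * |p x - p x'| := abs_mul _ _
          _ ≤ |κ| * (L * r) := mul_le_mul_of_nonneg_left hlip (abs_nonneg _)
      have h4 : |κ| * (L * r) ≤ κ ^ 2 * L ^ 2 / δ + δ * r ^ 2 / 4 := by
        have h5 : 0 ≤ (2 * (|κ| * L) - δ * r) ^ 2 / (4 * δ) := by positivity
        have h6 : (2 * (|κ| * L) - δ * r) ^ 2 / (4 * δ) =
            κ ^ 2 * L ^ 2 / δ + δ * r ^ 2 / 4 - |κ| * (L * r) := by
          have h7 : |κ| ^ 2 = κ ^ 2 := sq_abs κ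
          field_simp
          rw [← h7]
          ring
        linarith
      exact h3.trans h4
    push_cast
    nlinarith
  have hPL := prekopa_leindler_half hf hg hh key
  -- evaluate the integrals
  have ef : ∫⁻ x, f x = ENNReal.ofReal (∫ x in C, gw δ x * Real.exp (κ * p x)) := by
    rw [lintegral_indicator mC, ofReal_integral_eq_lintegral_ofReal]
    · exact integrableOn_cell_of_continuous hK y ψ i (by fun_prop)
    · exact Filter.Eventually.of_forall fun x => mul_nonneg (gw_pos δ x).le (Real.exp_pos _).le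
  have eg : ∫⁻ x, g x = ENNReal.ofReal (Real.exp (-(κ ^ 2 * L ^ 2 / δ)) *
      ∫ x in C', gw δ x * Real.exp ((-κ) * p x)) := by
    rw [lintegral_indicator mC', ← integral_const_mul, ofReal_integral_eq_lintegral_ofReal]
    · exact integrableOn_cell_of_continuous hK y ψ' i (by fun_prop)
    · exact Filter.Eventually.of_forall fun x => mul_nonneg (Real.exp_pos _).le
        (mul_nonneg (gw_pos δ x).le (Real.exp_pos _).le)
  have eh : ∫⁻ x, h x = ENNReal.ofReal M := by
    rw [lintegral_indicator mCM, hM, gm, ofReal_integral_eq_lintegral_ofReal]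
    · exact integrableOn_cell_of_continuous hK y _ i (by fun_prop)
    · exact Filter.Eventually.of_forall fun x => (gw_pos δ x).le
  have hM0 : 0 ≤ M := integral_nonneg fun x => (gw_pos δ x).le
  set I := ∫ x in C, gw δ x * Real.exp (κ * p x) with hI
  set I' := ∫ x in C', gw δ x * Real.exp ((-κ) * p x) with hI'
  have l1 : Real.exp (κ * P) * G ≤ I := exp_moment_le hK δ y ψ i hpc κ hpos
  have l2 : Real.exp ((-κ) * P') * G' ≤ I' := exp_moment_le hK δ y ψ' i hpc (-κ) hpos'
  have hI0 : 0 ≤ I := le_trans (by positivity) l1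
  have hI0' : 0 ≤ I' := le_trans (by positivity) l2
  rw [ef, eg, eh, ← ENNReal.ofReal_mul hI0, ← ENNReal.ofReal_pow hM0,
    ENNReal.ofReal_le_ofReal_iff (by positivity)] at hPL
  have h8 : G * G' * Real.exp (δ / (4 * L ^ 2) * (P - P') ^ 2) ≤ M ^ 2 := by
    refine le_trans ?_ hPL
    have h9 : (Real.exp (κ * P) * G) * (Real.exp ((-κ) * P') * G') ≤ I * I' :=
      mul_le_mul l1 l2 (by positivity) hI0
    have h10 := mul_le_mul_of_nonneg_left h9 (Real.exp_pos (-(κ ^ 2 * L ^ 2 / δ))).le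
    calc G * G' * Real.exp (δ / (4 * L ^ 2) * (P - P') ^ 2)
        = Real.exp (-(κ ^ 2 * L ^ 2 / δ)) *
          ((Real.exp (κ * P) * G) * (Real.exp ((-κ) * P') * G')) := by
          have e1 : δ / (4 * L ^ 2) * (P - P') ^ 2 =
              -(κ ^ 2 * L ^ 2 / δ) + (κ * P + (-κ) * P') := by
            rw [hκ]
            field_simp
            ring
          rw [e1, Real.exp_add, Real.exp_add]
          ring
      _ ≤ Real.exp (-(κ ^ 2 * L ^ 2 / δ)) * (I * I') := h10
      _ = I * (Real.exp (-(κ ^ 2 * L ^ 2 / δ)) * I') := by ring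
  have h11 : Real.sqrt (G * G') * Real.exp (δ / (8 * L ^ 2) * (P - P') ^ 2) ≤ M := by
    apply abs_le_of_sq_le_sq' _ hM0 |>.2
    rw [mul_pow, Real.sq_sqrt (by positivity), ← Real.exp_nat_mul]
    refine le_trans (le_of_eq ?_) h8
    congr 2
    push_cast
    ring
  refine le_trans ?_ h11
  apply mul_le_mul_of_nonneg_left _ (Real.sqrt_nonneg _)
  have := Real.add_one_le_exp (δ / (8 * L ^ 2) * (P - P') ^ 2)
  linarith

/-- Gain in the Prékopa–Leindler inequality: for `p i` Lipschitz with constant `L` on `K`. -/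
theorem cells_gain [Nonempty ι] {K : Set (E d)} (hK : IsCompact K) (hKc : Convex ℝ K)
    {δ L : ℝ} (hδ : 0 < δ) (hL : 0 < L) {y : ι → E d} (hy : Function.Injective y)
    (ψ ψ' : ι → ℝ) (p : ι → E d → ℝ) (hpc : ∀ i, Continuous (p i))
    (hp : ∀ i, ∀ x ∈ K, ∀ x' ∈ K, |p i x - p i x'| ≤ L * ‖x - x'‖)
    (hpos : ∀ i, 0 < gm δ K y ψ i) (hpos' : ∀ i, 0 < gm δ K y ψ' i) :
    δ / (4 * L ^ 2) * ∑ i, Real.sqrt (gm δ K y ψ i * gm δ K y ψ' i) *
        (ga δ K y ψ (p i) i - ga δ K y ψ' (p i) i) ^ 2 ≤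
      ∑ i, (Real.sqrt (gm δ K y ψ i) - Real.sqrt (gm δ K y ψ' i)) ^ 2 := by
  have hint : IntegrableOn (gw δ : E d → ℝ) K volume :=
    (continuous_gw δ).continuousOn.integrableOn_compact hK
  have s1 := sum_integral_cell hK hy ψ hint
  have s2 := sum_integral_cell hK hy ψ' hint
  have s3 := sum_integral_cell hK hy (fun j => (ψ j + ψ' j) / 2) hint
  have h1 : ∀ i, Real.sqrt (gm δ K y ψ i * gm δ K y ψ' i) *
        (1 + δ / (8 * L ^ 2) * (ga δ K y ψ (p i) i - ga δ K y ψ' (p i) i) ^ 2) ≤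
      gm δ K y (fun j => (ψ j + ψ' j) / 2) i := fun i =>
    cell_gain_one hK hKc hδ hL ψ ψ' (hpc i) (hp i) i (hpos i) (hpos' i)
  have h2 := Finset.sum_le_sum fun i (_ : i ∈ Finset.univ) => h1 i
  have h3 : ∀ i, (Real.sqrt (gm δ K y ψ i) - Real.sqrt (gm δ K y ψ' i)) ^ 2 =
      gm δ K y ψ i + gm δ K y ψ' i - 2 * Real.sqrt (gm δ K y ψ i * gm δ K y ψ' i) := by
    intro i
    rw [Real.sqrt_mul (hpos i).le, sub_sq, Real.sq_sqrt (hpos i).le, Real.sq_sqrt (hpos' i).le]
    ring
  have h4 : ∑ i, Real.sqrt (gm δ K y ψ i * gm δ K y ψ' i) *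
        (1 + δ / (8 * L ^ 2) * (ga δ K y ψ (p i) i - ga δ K y ψ' (p i) i) ^ 2) =
      ∑ i, Real.sqrt (gm δ K y ψ i * gm δ K y ψ' i) +
      δ / (8 * L ^ 2) * ∑ i, Real.sqrt (gm δ K y ψ i * gm δ K y ψ' i) *
        (ga δ K y ψ (p i) i - ga δ K y ψ' (p i) i) ^ 2 := by
    rw [Finset.mul_sum, ← Finset.sum_add_distrib]
    refine Finset.sum_congr rfl fun i _ => ?_
    ring
  rw [Finset.sum_congr rfl fun i _ => h3 i, Finset.sum_sub_distrib, Finset.sum_add_distrib,
    ← Finset.mul_sum]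
  rw [h4] at h2
  have e1 : ∑ i, gm δ K y ψ i = ∫ x in K, gw δ x := s1
  have e2 : ∑ i, gm δ K y ψ' i = ∫ x in K, gw δ x := s2
  have e3 : ∑ i, gm δ K y (fun j => (ψ j + ψ' j) / 2) i = ∫ x in K, gw δ x := s3
  have e4 : δ / (4 * L ^ 2) = 2 * (δ / (8 * L ^ 2)) := by
    field_simp
    norm_num
  rw [e4]
  linarith

end Vale.Agent.P074
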