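import Vale.Agent.P074.Lower

/-!
Interpolation inequality for gradients of convex functions.
-/

open MeasureTheory Set Metric
open scoped ENNReal NNReal

namespace Vale.Agent.P074

namespace GradAux

variable {d : ℕ}

/-- points all of whose `e`-translates by `±s` stay in `K`. -/
def core (K : Set (E d)) (e : E d) (s : ℝ) : Set (E d) :=
  {x | x ∈ K ∧ x + s • e ∈ K ∧ x - s • e ∈ K}

lemma core_measurable {K : Set (E d)} (hK : MeasurableSet K) (e : E d) (s : ℝ) :
    MeasurableSet (core K e s) := by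
  have h1 : Measurable fun x : E d => x + s • e := by fun_prop
  have h2 : Measurable fun x : E d => x - s • e := by fun_prop
  exact hK.inter ((h1 hK).inter (h2 hK))

lemma core_subset {K : Set (E d)} (e : E d) (s : ℝ) : core K e s ⊆ K := fun _ h => h.1

/-- the boundary layer is thin -/
lemma vol_diff_core {K : Set (E d)} (hK : IsCompact K) (hKc : Convex ℝ K) {x0 : E d} {r : ℝ}
    (hr : 0 < r) (hB : closedBall x0 r ⊆ K) {e : E d} (he : ‖e‖ = 1) {s : ℝ} (hs : 0 ≤ s)
    (hsr : s ≤ r) :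
    (volume (K \ core K e s)).toReal ≤ d * (s / r) * (volume K).toReal := by
  set t : ℝ := s / r with ht
  have ht0 : 0 ≤ t := by positivity
  have ht1 : t ≤ 1 := by rw [ht, div_le_one hr]; exact hsr
  have hsub : AffineMap.homothety x0 (1 - t) '' K ⊆ core K e s := by
    rintro _ ⟨y, hy, rfl⟩
    have hx0 : x0 ∈ K := hB (mem_closedBall_self hr.le)
    have hre : ‖r • e‖ ≤ r := by rw [norm_smul, he, Real.norm_of_nonneg hr.le, mul_one]
    have hp : x0 + r • e ∈ K := hB (by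
      rw [mem_closedBall, dist_eq_norm, add_sub_cancel_left]; exact hre)
    have hm : x0 - r • e ∈ K := hB (by
      rw [mem_closedBall, dist_eq_norm, sub_sub_cancel_left, norm_neg]; exact hre)
    have hst : s = t * r := by rw [ht]; field_simp
    refine ⟨?_, ?_, ?_⟩
    · have := hKc hy hx0 (by linarith : 0 ≤ 1 - t) ht0 (by ring)
      convert this using 1
      simp only [AffineMap.homothety_apply, vsub_eq_sub, vadd_eq_add]
      module
    · have := hKc hy hp (by linarith : 0 ≤ 1 - t) ht0 (by ring)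
      convert this using 1
      simp only [AffineMap.homothety_apply, vsub_eq_sub, vadd_eq_add, hst]
      module
    · have := hKc hy hm (by linarith : 0 ≤ 1 - t) ht0 (by ring)
      convert this using 1
      simp only [AffineMap.homothety_apply, vsub_eq_sub, vadd_eq_add, hst]
      module
  have hfin : volume K ≠ ⊤ := hK.measure_lt_top.ne
  have hcfin : volume (core K e s) ≠ ⊤ :=
    (lt_of_le_of_lt (measure_mono (core_subset e s)) hK.measure_lt_top).ne
  have h1 : (1 - t) ^ d * (volume K).toReal ≤ (volume (core K e s)).toReal := by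
    have h2 := ENNReal.toReal_mono hcfin (measure_mono (μ := volume) hsub)
    rw [Measure.addHaar_image_homothety, ENNReal.toReal_mul, ENNReal.toReal_ofReal (abs_nonneg _)]
      at h2
    simp only [finrank_euclideanSpace, Fintype.card_fin] at h2
    rwa [abs_of_nonneg (pow_nonneg (by linarith) _)] at h2
  have h3 : (volume (K \ core K e s)).toReal =
      (volume K).toReal - (volume (core K e s)).toReal := by
    rw [measure_sdiff (core_subset e s) (core_measurable hK.measurableSet e s).nullMeasurableSet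
      hcfin, ENNReal.toReal_sub_of_le (measure_mono (core_subset e s)) hfin]
  have h4 : 1 - d * t ≤ (1 - t) ^ d := by
    have := one_add_mul_le_pow (a := -t) (by linarith) d
    calc 1 - d * t = 1 + d * (-t) := by ring
      _ ≤ (1 + -t) ^ d := this
      _ = (1 - t) ^ d := by ring
  rw [h3]
  have hV : 0 ≤ (volume K).toReal := ENNReal.toReal_nonneg
  nlinarith [mul_le_mul_of_nonneg_right h4 hV]

lemma real_aux {s g f1 f2 f0 D R : ℝ} (hs : 0 < s) (hD0 : 0 ≤ D) (hR : |g| ≤ 2 * R)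
    (a3 : s * |g| ≤ |f1| + |f2| + |f0| + D) :
    s ^ 2 * g ^ 2 ≤ 3 * (f1 ^ 2 + f2 ^ 2 + f0 ^ 2) + 4 * R * s * D := by
  rw [← sq_abs g, ← sq_abs f1, ← sq_abs f2, ← sq_abs f0]
  have hg := abs_nonneg g
  generalize |g| = G at *
  generalize |f1| = F1 at *
  generalize |f2| = F2 at *
  generalize |f0| = F0 at *
  have a4 : (s * G) * (s * G) ≤ (F1 + F2 + F0 + D) * (s * G) :=
    mul_le_mul_of_nonneg_right a3 (by positivity)
  have a5 : D * (s * G) ≤ D * (s * (2 * R)) := by gcongr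
  have y1 := sq_nonneg (s * G - 3 * F1)
  have y2 := sq_nonneg (s * G - 3 * F2)
  have y3 := sq_nonneg (s * G - 3 * F0)
  ring_nf at a4 a5 y1 y2 y3 ⊢
  linarith

/-- pointwise inequality -/
lemma pointwise' {φ χ : E d → ℝ} {c s : ℝ} {e x p q : E d} (hs : 0 < s)
    (h1 : ∀ z, φ x + inner ℝ (z - x) p ≤ φ z) (h2 : ∀ z, χ x + inner ℝ (z - x) q ≤ χ z)
    {R : ℝ} (hR : |inner ℝ e (p - q)| ≤ 2 * R) :
    s ^ 2 * (inner ℝ e (p - q)) ^ 2 ≤
      3 * ((φ (x + s • e) - χ (x + s • e) - c) ^ 2 + (φ (x - s • e) - χ (x - s • e) - c) ^ 2 +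
        (φ x - χ x - c) ^ 2) + 4 * R * s * (χ (x + s • e) + χ (x - s • e) - 2 * χ x) := by
  set g : ℝ := inner ℝ e (p - q) with hg
  set f1 := φ (x + s • e) - χ (x + s • e) - c with hf1
  set f2 := φ (x - s • e) - χ (x - s • e) - c with hf2
  set f0 := φ x - χ x - c with hf0
  set D := χ (x + s • e) + χ (x - s • e) - 2 * χ x with hD
  have e1 := h1 (x + s • e)
  have e2 := h1 (x - s • e)
  have e3 := h2 (x + s • e)
  have e4 := h2 (x - s • e)
  rw [add_sub_cancel_left, real_inner_smul_left] at e1 e3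
  rw [sub_sub_cancel_left, inner_neg_left, real_inner_smul_left] at e2 e4
  have hgg : g = inner ℝ e p - inner ℝ e q := by rw [hg, inner_sub_right]
  have a1 : s * g ≤ f1 - f0 + D := by rw [hgg, hf1, hf0, hD]; linarith
  have a2 : -(s * g) ≤ f2 - f0 + D := by rw [hgg, hf2, hf0, hD]; linarith
  have hD0 : 0 ≤ D := by rw [hD]; linarith
  have a3 : s * |g| ≤ |f1| + |f2| + |f0| + D := by
    rw [← abs_of_pos hs, ← abs_mul, abs_le]
    have := neg_abs_le f1
    have := le_abs_self f1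
    have := neg_abs_le f2
    have := le_abs_self f2
    have := neg_abs_le f0
    have := le_abs_self f0
    have := abs_nonneg f1
    have := abs_nonneg f2
    constructor <;> linarith
  exact real_aux hs hD0 hR a3

lemma trans_int {K : Set (E d)} {F : E d → ℝ} (v : E d) :
    ∫ x in {x | x + v ∈ K}, F (x + v) = ∫ x in K, F x := by
  exact (measurePreserving_add_right (volume : Measure (E d)) v).setIntegral_preimage_emb
      (measurableEmbedding_addRight v) F K

/-- One direction. -/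
lemma one_dir {K : Set (E d)} (hK : IsCompact K) (hKc : Convex ℝ K)
    (hKi : (interior K).Nonempty) (R : ℝ≥0) :
    ∃ C₁ s0 : ℝ, 0 ≤ C₁ ∧ 0 < s0 ∧ ∀ (S T : E d → E d) (φ χ : E d → ℝ) (c : ℝ),
      Measurable S → Measurable T →
      (∀ᵐ x ∂(volume.restrict K), ‖S x‖ ≤ R) → (∀ᵐ x ∂(volume.restrict K), ‖T x‖ ≤ R) →
      LipschitzWith R φ → LipschitzWith R χ → ConvexOn ℝ univ χ →
      (∀ᵐ x ∂(volume.restrict K), ∀ z, φ x + inner ℝ (z - x) (S x) ≤ φ z) →
      (∀ᵐ x ∂(volume.restrict K), ∀ z, χ x + inner ℝ (z - x) (T x) ≤ χ z) →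
      ∀ e : E d, ‖e‖ = 1 → ∀ s : ℝ, 0 < s → s ≤ s0 →
      s ^ 2 * ∫ x in K, (inner ℝ e (S x - T x)) ^ 2 ≤
        9 * (∫ x in K, (φ x - χ x - c) ^ 2) + C₁ * s ^ 3 := by
  obtain ⟨M, hM1, hKM⟩ := hK.isBounded.subset_closedBall_lt 1 (0 : E d)
  have hM : 0 ≤ M := by linarith
  obtain ⟨x0, hx0⟩ := hKi
  obtain ⟨r, hr, hrK⟩ := Metric.mem_nhds_iff.1 (mem_interior_iff_mem_nhds.1 hx0)
  have hr2 : 0 < r / 2 := by positivity
  have hBK : closedBall x0 (r / 2) ⊆ K := (closedBall_subset_ball (by linarith)).trans hrK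
  obtain ⟨cv, hcv, hvol⟩ := vol_growth (d := d) hM hr2
  set V : ℝ := (volume K).toReal with hV
  have hV0 : 0 ≤ V := ENNReal.toReal_nonneg
  refine ⟨8 * R ^ 2 * cv + 4 * R ^ 2 * (d / (r / 2)) * V, r / 2, by positivity, hr2, ?_⟩
  intro S T φ χ c hSm hTm hSR hTR hφL hχL hχc hφS hχT e he s hs hss
  set g : E d → ℝ := fun x => inner ℝ e (S x - T x) with hg
  set f : E d → ℝ := fun x => φ x - χ x - c with hf
  set Δ : E d → ℝ := fun x => χ (x + s • e) + χ (x - s • e) - 2 * χ x with hΔ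
  have hφc := hφL.continuous
  have hχc' := hχL.continuous
  have hfc : Continuous f := by fun_prop
  have hΔc : Continuous Δ := by fun_prop
  have hgm : Measurable g := by fun_prop
  have hΔ0 : ∀ x, 0 ≤ Δ x := by
    intro x
    have h1 := hχc.2 (mem_univ (x + s • e)) (mem_univ (x - s • e))
      (by norm_num : (0 : ℝ) ≤ 1 / 2) (by norm_num : (0 : ℝ) ≤ 1 / 2) (by norm_num)
    have h2 : (1 / 2 : ℝ) • (x + s • e) + (1 / 2 : ℝ) • (x - s • e) = x := by
      module
    rw [h2] at h1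
    simp only [smul_eq_mul] at h1
    simp only [hΔ]
    linarith
  have hgb : ∀ᵐ x ∂(volume.restrict K), |g x| ≤ 2 * R := by
    filter_upwards [hSR, hTR] with x h1 h2
    calc |g x| ≤ ‖e‖ * ‖S x - T x‖ := abs_real_inner_le_norm _ _
      _ ≤ 2 * R := by rw [he, one_mul]; exact (norm_sub_le _ _).trans (by linarith)
  set Kc := core K e s with hKcdef
  have hKcm : MeasurableSet Kc := core_measurable hK.measurableSet e s
  have hKcK : Kc ⊆ K := core_subset e s
  haveI : IsFiniteMeasure (volume.restrict K) := ⟨by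
    rw [Measure.restrict_apply_univ]; exact hK.measure_lt_top⟩
  have hgsq : ∀ᵐ x ∂(volume.restrict K), g x ^ 2 ≤ 4 * R ^ 2 := by
    filter_upwards [hgb] with x h1
    have := abs_le.1 h1
    nlinarith
  have hgi : IntegrableOn (fun x => g x ^ 2) K := by
    refine Integrable.of_bound (C := 4 * R ^ 2) (hgm.pow_const 2).aestronglyMeasurable ?_
    filter_upwards [hgsq] with x h1
    rw [Real.norm_of_nonneg (sq_nonneg _)]
    exact h1
  have hfi : IntegrableOn (fun x => f x ^ 2) K :=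
    (hfc.pow 2).continuousOn.integrableOn_compact hK
  have hΔiB : IntegrableOn Δ (closedBall (0 : E d) M) :=
    hΔc.continuousOn.integrableOn_compact (isCompact_closedBall _ _)
  -- translates
  have hcomp : ∀ v : E d, IsCompact {x | x + v ∈ K} := by
    intro v
    have := hK.image (f := fun x : E d => x + -v) (by fun_prop)
    convert this using 1
    ext x
    simp only [mem_ofPred_eq, mem_image]
    constructor
    · intro h
      exact ⟨x + v, h, by simp⟩
    · rintro ⟨y, hy, rfl⟩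
      simpa using hy
  have htr : ∀ v : E d, Kc ⊆ {x | x + v ∈ K} →
      IntegrableOn (fun x => f (x + v) ^ 2) Kc ∧
      ∫ x in Kc, f (x + v) ^ 2 ≤ ∫ x in K, f x ^ 2 := by
    intro v hv
    have hc : Continuous fun x => f (x + v) ^ 2 := by fun_prop
    have hi : IntegrableOn (fun x => f (x + v) ^ 2) {x | x + v ∈ K} :=
      hc.continuousOn.integrableOn_compact (hcomp v)
    refine ⟨hi.mono_set hv, ?_⟩
    calc ∫ x in Kc, f (x + v) ^ 2 ≤ ∫ x in {x | x + v ∈ K}, f (x + v) ^ 2 :=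
          setIntegral_mono_set hi (Filter.Eventually.of_forall fun x => sq_nonneg _)
            hv.eventuallyLE
      _ = ∫ x in K, f x ^ 2 := trans_int (F := fun x => f x ^ 2) v
  obtain ⟨i1, t1⟩ := htr (s • e) (fun x hx => hx.2.1)
  obtain ⟨i2, t2⟩ := htr (-(s • e)) (fun x hx => by
    have := hx.2.2
    rwa [sub_eq_add_neg] at this)
  simp only [← sub_eq_add_neg] at i2 t2
  obtain ⟨i0, t0⟩ := htr 0 (fun x hx => by simpa using hKcK hx)
  simp only [add_zero] at i0 t0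
  have iΔ : IntegrableOn Δ Kc := hΔiB.mono_set (hKcK.trans hKM)
  have igc : IntegrableOn (fun x => g x ^ 2) Kc := hgi.mono_set hKcK
  -- integrate the pointwise inequality
  have hmain : s ^ 2 * ∫ x in Kc, g x ^ 2 ≤
      3 * ((∫ x in Kc, f (x + s • e) ^ 2) + (∫ x in Kc, f (x - s • e) ^ 2) +
        ∫ x in Kc, f x ^ 2) + 4 * R * s * ∫ x in Kc, Δ x := by
    have h12 : IntegrableOn (fun x => f (x + s • e) ^ 2 + f (x - s • e) ^ 2) Kc := i1.add i2
    have h120 : IntegrableOn (fun x => f (x + s • e) ^ 2 + f (x - s • e) ^ 2 + f x ^ 2) Kc :=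
      h12.add i0
    have e1 : ∫ x in Kc, (3 * (f (x + s • e) ^ 2 + f (x - s • e) ^ 2 + f x ^ 2) +
        4 * R * s * Δ x) = 3 * ((∫ x in Kc, f (x + s • e) ^ 2) +
        (∫ x in Kc, f (x - s • e) ^ 2) + ∫ x in Kc, f x ^ 2) +
        4 * R * s * ∫ x in Kc, Δ x := by
      rw [integral_add (h120.const_mul 3) (iΔ.const_mul _), integral_const_mul,
        integral_const_mul, integral_add h12 i0, integral_add i1 i2]
    rw [← e1, ← integral_const_mul]
    refine integral_mono_ae (igc.const_mul _) ((h120.const_mul 3).add (iΔ.const_mul _)) ?_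
    have hres : ∀ {P : E d → Prop}, (∀ᵐ x ∂(volume.restrict K), P x) →
        ∀ᵐ x ∂(volume.restrict Kc), P x := fun h =>
      ae_mono (Measure.restrict_mono hKcK le_rfl) h
    filter_upwards [hres hφS, hres hχT, hres hgb] with x h1 h2 h3
    exact pointwise' hs h1 h2 h3
  have hΔB : ∫ x in Kc, Δ x ≤ 2 * (R * s) * (cv * s) := by
    have h1 : ∫ x in Kc, Δ x ≤ ∫ x in closedBall (0 : E d) M, Δ x :=
      setIntegral_mono_set hΔiB (Filter.Eventually.of_forall hΔ0)
        (hKcK.trans hKM).eventuallyLE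
    have h2 := integral_second_diff hχL hM hs.le e he
    have h3 := hvol s hs.le hss
    have h4 : 2 * (R * s) * ((volume (closedBall (0 : E d) (M + s))).toReal -
        (volume (closedBall (0 : E d) M)).toReal) ≤ 2 * (R * s) * (cv * s) :=
        mul_le_mul_of_nonneg_left h3 (by positivity)
    exact h1.trans (h2.trans h4)
  have hdiff : ∫ x in K, g x ^ 2 ≤ (∫ x in Kc, g x ^ 2) + 4 * R ^ 2 * (d * (s / (r / 2)) * V) := by
    have h1 : ∫ x in K, g x ^ 2 = (∫ x in K ∩ Kc, g x ^ 2) + ∫ x in K \ Kc, g x ^ 2 :=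
      (integral_inter_add_diff hKcm hgi).symm
    rw [inter_eq_self_of_subset_right hKcK] at h1
    have h2 : ∫ x in K \ Kc, g x ^ 2 ≤ 4 * R ^ 2 * (volume (K \ Kc)).toReal := by
      have hfin : volume (K \ Kc) < ⊤ :=
        lt_of_le_of_lt (measure_mono sdiff_subset) hK.measure_lt_top
      have h3 : ∫ x in K \ Kc, g x ^ 2 ≤ ∫ x in K \ Kc, (4 * R ^ 2 : ℝ) := by
        refine integral_mono_ae (hgi.mono_set sdiff_subset) (integrableOn_const hfin.ne) ?_
        exact ae_mono (Measure.restrict_mono sdiff_subset le_rfl) hgsq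
      rw [setIntegral_const, smul_eq_mul, mul_comm] at h3
      exact h3
    have h4 := vol_diff_core hK hKc hr2 hBK he hs.le hss
    have h5 : 4 * (R : ℝ) ^ 2 * (volume (K \ Kc)).toReal ≤
        4 * R ^ 2 * (d * (s / (r / 2)) * V) :=
      mul_le_mul_of_nonneg_left h4 (by positivity)
    linarith
  have h6 : s ^ 2 * ∫ x in K, g x ^ 2 ≤ s ^ 2 * ((∫ x in Kc, g x ^ 2) +
      4 * R ^ 2 * (d * (s / (r / 2)) * V)) := mul_le_mul_of_nonneg_left hdiff (by positivity)
  have h7 : 4 * (R : ℝ) * s * ∫ x in Kc, Δ x ≤ 4 * R * s * (2 * (R * s) * (cv * s)) :=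
    mul_le_mul_of_nonneg_left hΔB (by positivity)
  calc s ^ 2 * ∫ x in K, g x ^ 2 ≤ s ^ 2 * ((∫ x in Kc, g x ^ 2) +
        4 * R ^ 2 * (d * (s / (r / 2)) * V)) := h6
    _ = s ^ 2 * (∫ x in Kc, g x ^ 2) + s ^ 2 * (4 * R ^ 2 * (d * (s / (r / 2)) * V)) := by ring
    _ ≤ (3 * ((∫ x in K, f x ^ 2) + (∫ x in K, f x ^ 2) + ∫ x in K, f x ^ 2) +
        4 * R * s * (2 * (R * s) * (cv * s))) + s ^ 2 * (4 * R ^ 2 * (d * (s / (r / 2)) * V)) := by
        linarith
    _ = 9 * (∫ x in K, f x ^ 2) +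
        (8 * R ^ 2 * cv + 4 * R ^ 2 * (d / (r / 2)) * V) * s ^ 3 := by ring

lemma opt {A F C₁ s0 : ℝ} (hC : 0 < C₁) (hA : 0 ≤ A) (hAs : A ≤ 2 * C₁ * s0)
    (hF : 0 ≤ F) (h : ∀ s : ℝ, 0 < s → s ≤ s0 → s ^ 2 * A ≤ 9 * F + C₁ * s ^ 3) :
    A ^ 3 ≤ 72 * C₁ ^ 2 * F := by
  rcases hA.eq_or_lt with h0 | h0
  · rw [← h0]
    have : (0 : ℝ) ≤ 72 * C₁ ^ 2 * F := by positivity
    simpa using this
  · have h1 := h (A / (2 * C₁)) (by positivity) (by rw [div_le_iff₀ (by positivity)]; linarith)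
    have h2 : (A / (2 * C₁)) ^ 2 * A = A ^ 3 / (4 * C₁ ^ 2) := by field_simp; ring
    have h3 : C₁ * (A / (2 * C₁)) ^ 3 = A ^ 3 / (8 * C₁ ^ 2) := by field_simp; ring
    rw [h2, h3] at h1
    have h4 : A ^ 3 / (4 * C₁ ^ 2) - A ^ 3 / (8 * C₁ ^ 2) = A ^ 3 / (8 * C₁ ^ 2) := by
      field_simp; ring
    have h5 : A ^ 3 / (8 * C₁ ^ 2) ≤ 9 * F := by linarith
    rw [div_le_iff₀ (by positivity)] at h5
    linarith

end GradAux

open GradAux in
theorem grad_stability {d : ℕ} {K : Set (E d)} (hK : IsCompact K) (hKc : Convex ℝ K)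
    (hKi : (interior K).Nonempty) (R : ℝ≥0) :
    ∃ C : ℝ, 0 ≤ C ∧ ∀ (S T : E d → E d) (φ χ : E d → ℝ) (c : ℝ),
      Measurable S → Measurable T →
      (∀ᵐ x ∂(unif K), ‖S x‖ ≤ R) → (∀ᵐ x ∂(unif K), ‖T x‖ ≤ R) →
      ConvexOn ℝ univ φ → LipschitzWith R φ → ConvexOn ℝ univ χ → LipschitzWith R χ →
      (∀ᵐ x ∂(unif K), ∀ z, φ x + inner ℝ (z - x) (S x) ≤ φ z) →
      (∀ᵐ x ∂(unif K), ∀ z, χ x + inner ℝ (z - x) (T x) ≤ χ z) →
      (∫ x, ‖S x - T x‖ ^ 2 ∂(unif K)) ^ 3 ≤ C * ∫ x, (φ x - χ x - c) ^ 2 ∂(unif K) := by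
  obtain ⟨C₁, s0, hC₁, hs0, hmain⟩ := one_dir hK hKc hKi R
  set V : ℝ := (volume K).toReal with hV
  have hVp : 0 < V := ENNReal.toReal_pos (vol_pos hKi) hK.measure_lt_top.ne
  set C₂ : ℝ := C₁ + 4 * R ^ 2 * V / (2 * s0) + 1 with hC₂
  have hC₂p : 0 < C₂ := by positivity
  refine ⟨V⁻¹ ^ 2 * d ^ 3 * (72 * C₂ ^ 2), by positivity, ?_⟩
  intro S T φ χ c hSm hTm hSR hTR hφc hφL hχc hχL hφS hχT
  have hae : ∀ {P : E d → Prop}, (∀ᵐ x ∂(unif K), P x) → ∀ᵐ x ∂(volume.restrict K), P x := by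
    intro P h
    unfold unif at h
    rwa [Measure.ae_ennreal_smul_measure_iff (ENNReal.inv_ne_zero.2 hK.measure_lt_top.ne)] at h
  have hSR' := hae hSR
  have hTR' := hae hTR
  set b := EuclideanSpace.basisFun (Fin d) ℝ with hb
  have hb1 : ∀ i, ‖b i‖ = 1 := fun i => b.norm_eq_one i
  set F : ℝ := ∫ x in K, (φ x - χ x - c) ^ 2 with hF
  have hF0 : 0 ≤ F := integral_nonneg fun _ => sq_nonneg _
  set A : Fin d → ℝ := fun i => ∫ x in K, (inner ℝ (b i) (S x - T x)) ^ 2 with hA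
  have hA0 : ∀ i, 0 ≤ A i := fun i => integral_nonneg fun _ => sq_nonneg _
  haveI : IsFiniteMeasure (volume.restrict K) := ⟨by
    rw [Measure.restrict_apply_univ]; exact hK.measure_lt_top⟩
  have hgsq : ∀ i, ∀ᵐ x ∂(volume.restrict K), (inner ℝ (b i) (S x - T x)) ^ 2 ≤ 4 * (R : ℝ) ^ 2 := by
    intro i
    filter_upwards [hSR', hTR'] with x h1 h2
    have h3 : |inner ℝ (b i) (S x - T x)| ≤ 2 * R := by
      calc |inner ℝ (b i) (S x - T x)| ≤ ‖b i‖ * ‖S x - T x‖ := abs_real_inner_le_norm _ _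
        _ ≤ 2 * R := by rw [hb1, one_mul]; exact (norm_sub_le _ _).trans (by linarith)
    have := abs_le.1 h3
    nlinarith
  have hgm : ∀ i, Measurable fun x => (inner ℝ (b i) (S x - T x)) ^ 2 := by
    intro i; fun_prop
  have hgi : ∀ i, IntegrableOn (fun x => (inner ℝ (b i) (S x - T x)) ^ 2) K := by
    intro i
    refine Integrable.of_bound (C := 4 * R ^ 2) (hgm i).aestronglyMeasurable ?_
    filter_upwards [hgsq i] with x h1
    rw [Real.norm_of_nonneg (sq_nonneg _)]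
    exact h1
  have hAb : ∀ i, A i ≤ 4 * R ^ 2 * V := by
    intro i
    have h3 : A i ≤ ∫ x in K, (4 * R ^ 2 : ℝ) :=
      integral_mono_ae (hgi i) (integrable_const _) (hgsq i)
    rw [setIntegral_const, smul_eq_mul, mul_comm] at h3
    exact h3
  have hA3 : ∀ i, A i ^ 3 ≤ 72 * C₂ ^ 2 * F := by
    intro i
    refine opt hC₂p (hA0 i) ?_ hF0 (s0 := s0) fun s hs hss => ?_
    · refine (hAb i).trans ?_
      have h1 : 2 * C₂ * s0 = 4 * R ^ 2 * V + 2 * (C₁ + 1) * s0 := by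
        rw [hC₂]; field_simp; ring
      rw [h1]
      have : 0 ≤ 2 * (C₁ + 1) * s0 := by positivity
      linarith
    · have h1 := hmain S T φ χ c hSm hTm hSR' hTR' hφL hχL hχc (hae hφS) (hae hχT) (b i)
        (hb1 i) s hs hss
      have h2 : C₁ * s ^ 3 ≤ C₂ * s ^ 3 := by
        have : 0 ≤ 4 * (R : ℝ) ^ 2 * V / (2 * s0) := by positivity
        gcongr
        rw [hC₂]; linarith
      linarith
  have hsum : ∫ x in K, ‖S x - T x‖ ^ 2 = ∑ i, A i := by
    rw [hA, ← integral_finsetSum _ fun i _ => hgi i]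
    refine integral_congr_ae (Filter.Eventually.of_forall fun x => ?_)
    have := b.sum_sq_norm_inner_right (S x - T x)
    simp only [Real.norm_eq_abs, sq_abs] at this
    exact this.symm
  have e1 : ∫ x, ‖S x - T x‖ ^ 2 ∂(unif K) = V⁻¹ * ∑ i, A i := by
    unfold unif
    rw [integral_smul_measure, ENNReal.toReal_inv, smul_eq_mul, hsum]
  have e2 : ∫ x, (φ x - χ x - c) ^ 2 ∂(unif K) = V⁻¹ * F := by
    unfold unif
    rw [integral_smul_measure, ENNReal.toReal_inv, smul_eq_mul]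
  rw [e1, e2]
  have h8 : (∑ i, A i) ^ 3 ≤ (d : ℝ) ^ 2 * ∑ i, A i ^ 3 := by
    have := pow_sum_le_card_mul_sum_pow (s := Finset.univ) (f := A) (fun i _ => hA0 i) 2
    simpa using this
  have h9 : ∑ i, A i ^ 3 ≤ d * (72 * C₂ ^ 2 * F) := by
    have := Finset.sum_le_sum (s := Finset.univ) fun i _ => hA3 i
    simpa using this
  calc (V⁻¹ * ∑ i, A i) ^ 3 = V⁻¹ ^ 3 * (∑ i, A i) ^ 3 := by ring
    _ ≤ V⁻¹ ^ 3 * ((d : ℝ) ^ 2 * (d * (72 * C₂ ^ 2 * F))) := by
        have := mul_le_mul_of_nonneg_left h9 (by positivity : (0 : ℝ) ≤ (d : ℝ) ^ 2)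
        exact mul_le_mul_of_nonneg_left (h8.trans this) (by positivity)
    _ = V⁻¹ ^ 2 * d ^ 3 * (72 * C₂ ^ 2) * (V⁻¹ * F) := by ring

end Vale.Agent.P074
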