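import Vale.Agent.P074.Defs

/-!
Definitions for the Laguerre-cell part of the proof that the exponent `1/3` is admissible.
-/

open MeasureTheory Set
open scoped ENNReal NNReal

namespace Vale.Agent.P074

variable {d : ℕ} {ι : Type}

/-- The Laguerre cell (inside `K`) of the site `y i` for the weights `ψ`. -/
def cell (K : Set (E d)) (y : ι → E d) (ψ : ι → ℝ) (i : ι) : Set (E d) :=
  {x | x ∈ K ∧ ∀ j, inner ℝ x (y j) - ψ j ≤ inner ℝ x (y i) - ψ i}

/-- Mass of the cell for the uniform probability measure of `K`. -/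
noncomputable def mass (K : Set (E d)) (y : ι → E d) (ψ : ι → ℝ) (i : ι) : ℝ :=
  (unif K).real (cell K y ψ i)

/-- First moment of the cell. -/
noncomputable def mom (K : Set (E d)) (y : ι → E d) (ψ : ι → ℝ) (i : ι) : E d :=
  ∫ x in cell K y ψ i, x ∂(unif K)

/-- Barycenter of the cell. -/
noncomputable def bary (K : Set (E d)) (y : ι → E d) (ψ : ι → ℝ) (i : ι) : E d :=
  (mass K y ψ i)⁻¹ • mom K y ψ i

/-- The piecewise affine convex potential with sites `y` and weights `ψ`. -/
noncomputable def pot (y : ι → E d) (ψ : ι → ℝ) (x : E d) : ℝ :=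
  ⨆ i, (inner ℝ x (y i) - ψ i)

end Vale.Agent.P074
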