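import Vale.Agent.P074.Defs

/-! P074: the L¹ stability estimate for gradients of convex functions. -/

open MeasureTheory Set Metric
open scoped ENNReal NNReal

namespace Vale.Agent.P074

/-- truncated conjugate -/
noncomputable def conj {d : ℕ} (L : ℝ) (φ : E d → ℝ) (y : E d) : ℝ :=
  sSup ((fun z => inner ℝ z y - φ z) '' closedBall 0 L)

section conj

variable {d : ℕ} {L : ℝ} {φ : E d → ℝ}

lemma le_conj (hφ : Continuous φ) {z y : E d} (hz : z ∈ closedBall (0 : E d) L) :
    inner ℝ z y - φ z ≤ conj L φ y := by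
  apply le_csSup
  · have : ContinuousOn (fun z : E d => inner ℝ z y - φ z) (closedBall 0 L) :=
      ((continuous_id.inner continuous_const).sub hφ).continuousOn
    exact ((isCompact_closedBall 0 L).image_of_continuousOn this).bddAbove
  · exact mem_image_of_mem _ hz

lemma conj_le (hL : 0 ≤ L) {y : E d} {c : ℝ}
    (h : ∀ z ∈ closedBall (0 : E d) L, inner ℝ z y - φ z ≤ c) : conj L φ y ≤ c := by
  apply csSup_le
  · exact ⟨_, mem_image_of_mem _ (mem_closedBall_self hL)⟩
  · rintro _ ⟨z, hz, rfl⟩
    exact h z hz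

lemma conj_le_add (hφ : Continuous φ) (hL : 0 ≤ L) (y y' : E d) :
    conj L φ y ≤ conj L φ y' + L * ‖y - y'‖ := by
  apply conj_le hL
  intro z hz
  have h1 := le_conj (y := y') hφ hz
  have h2 : inner ℝ z y - inner ℝ z y' ≤ L * ‖y - y'‖ := by
    rw [← inner_sub_right]
    refine (real_inner_le_norm _ _).trans ?_
    exact mul_le_mul_of_nonneg_right (by simpa using hz) (norm_nonneg _)
  linarith

lemma continuous_conj (hφ : Continuous φ) (hL : 0 ≤ L) : Continuous (conj L φ) := by
  have : LipschitzWith L.toNNReal (conj L φ) := by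
    apply LipschitzWith.of_le_add_mul
    intro x y
    rw [Real.coe_toNNReal _ hL, dist_eq_norm]
    exact conj_le_add hφ hL x y
  exact this.continuous

lemma conj_eq (hφ : Continuous φ) (hL : 0 ≤ L) {x y : E d} (hx : x ∈ closedBall (0 : E d) L)
    (h : ∀ z, φ x + inner ℝ (z - x) y ≤ φ z) : conj L φ y = inner ℝ x y - φ x := by
  apply le_antisymm
  · apply conj_le hL
    intro z _
    have := h z
    rw [inner_sub_left] at this
    linarith
  · exact le_conj hφ hx

end conj

section ball

variable {d : ℕ}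

/-- volume growth of balls -/
lemma vol_growth {M s0 : ℝ} (hM : 0 ≤ M) (hs0 : 0 < s0) :
    ∃ c : ℝ, 0 ≤ c ∧ ∀ s : ℝ, 0 ≤ s → s ≤ s0 →
      (volume (closedBall (0 : E d) (M + s))).toReal -
        (volume (closedBall (0 : E d) M)).toReal ≤ c * s := by
  set v : ℝ := (volume (ball (0 : E d) 1)).toReal with hv
  have hvol : ∀ r : ℝ, 0 ≤ r → (volume (closedBall (0 : E d) r)).toReal = r ^ d * v := by
    intro r hr
    rw [Measure.addHaar_closedBall _ _ hr, ENNReal.toReal_mul, ENNReal.toReal_ofReal (by positivity)]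
    simp [hv]
  have hv0 : 0 ≤ v := ENNReal.toReal_nonneg
  have hmono : M ^ d ≤ (M + s0) ^ d := pow_le_pow_left₀ hM (by linarith) d
  refine ⟨((M + s0) ^ d - M ^ d) / s0 * v, ?_, ?_⟩
  · exact mul_nonneg (div_nonneg (by linarith) hs0.le) hv0
  · intro s hs hss
    rw [hvol _ (by linarith), hvol _ hM]
    have h1 : (M + s) ^ d ≤ (1 - s / s0) * M ^ d + (s / s0) * (M + s0) ^ d := by
      have hx : M ∈ Ici (0 : ℝ) := hM
      have hy : M + s0 ∈ Ici (0 : ℝ) := by simp only [mem_Ici]; linarith
      have ha : 0 ≤ 1 - s / s0 := by rw [sub_nonneg, div_le_one hs0]; exact hss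
      have hb : 0 ≤ s / s0 := by positivity
      have hc := (convexOn_pow (𝕜 := ℝ) d).2 hx hy ha hb (by ring)
      have h2 : (1 - s / s0) • M + (s / s0) • (M + s0) = M + s := by
        simp only [smul_eq_mul]
        field_simp
        ring
      rw [h2] at hc
      simpa using hc
    have h3 : (M + s) ^ d - M ^ d ≤ s / s0 * ((M + s0) ^ d - M ^ d) := by linarith
    calc (M + s) ^ d * v - M ^ d * v = ((M + s) ^ d - M ^ d) * v := by ring
      _ ≤ (s / s0 * ((M + s0) ^ d - M ^ d)) * v := mul_le_mul_of_nonneg_right h3 hv0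
      _ = ((M + s0) ^ d - M ^ d) / s0 * v * s := by ring

/-- second differences have small integral on balls -/
lemma integral_second_diff {R : ℝ≥0} {φ : E d → ℝ} (hφ : LipschitzWith R φ) {M s : ℝ}
    (hM : 0 ≤ M) (hs : 0 ≤ s) (e : E d) (he : ‖e‖ = 1) :
    ∫ x in closedBall (0 : E d) M, (φ (x + s • e) + φ (x - s • e) - 2 * φ x) ≤
      2 * (R * s) * ((volume (closedBall (0 : E d) (M + s))).toReal -
        (volume (closedBall (0 : E d) M)).toReal) := by
  set B := closedBall (0 : E d) M with hB
  set B1 := closedBall (0 : E d) (M + s) with hB1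
  set Bs := closedBall (s • e) M with hBs
  set g : E d → ℝ := fun x => φ x - φ (x - s • e) with hg
  have hse : ‖s • e‖ = s := by rw [norm_smul, he, Real.norm_of_nonneg hs, mul_one]
  have hgc : Continuous g :=
    hφ.continuous.sub (hφ.continuous.comp (continuous_id.sub continuous_const))
  have hgb : ∀ x, |g x| ≤ R * s := by
    intro x
    have := hφ.dist_le_mul x (x - s • e)
    rw [Real.dist_eq, dist_eq_norm, sub_sub_cancel, hse] at this
    exact this
  have hBB1 : B ⊆ B1 := closedBall_subset_closedBall (by linarith)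
  have hBsB1 : Bs ⊆ B1 := by
    intro x hx
    rw [hBs, mem_closedBall, dist_eq_norm] at hx
    rw [hB1, mem_closedBall, dist_zero_right]
    calc ‖x‖ = ‖(x - s • e) + s • e‖ := by rw [sub_add_cancel]
      _ ≤ ‖x - s • e‖ + ‖s • e‖ := norm_add_le _ _
      _ ≤ M + s := by rw [hse]; linarith
  have hint : ∀ (A : Set (E d)), A ⊆ B1 → IntegrableOn g A := by
    intro A hA
    exact (hgc.continuousOn.integrableOn_compact (isCompact_closedBall _ _)).mono_set hA
  have hvB1 : volume B1 ≠ ∞ := (isCompact_closedBall _ _).measure_lt_top.ne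
  have hvB : volume B ≠ ∞ := (isCompact_closedBall _ _).measure_lt_top.ne
  have hvBs : volume Bs ≠ ∞ := (isCompact_closedBall _ _).measure_lt_top.ne
  have hBsB : volume Bs = volume B := by
    rw [hBs, hB]
    exact Measure.addHaar_closedBall_center _ _ _
  -- translate
  have htr : ∫ x in B, g (x + s • e) = ∫ x in Bs, g x := by
    have h1 := (measurePreserving_add_right (volume : Measure (E d)) (s • e)).setIntegral_preimage_emb
      (measurableEmbedding_addRight (s • e)) g Bs
    have h2 : (fun x : E d => x + s • e) ⁻¹' Bs = B := by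
      ext x
      simp [hBs, hB, dist_eq_norm]
    rw [h2] at h1
    exact h1
  have h0 : ∫ x in B, (φ (x + s • e) + φ (x - s • e) - 2 * φ x) =
      (∫ x in Bs, g x) - ∫ x in B, g x := by
    rw [← htr, ← integral_sub]
    · congr 1
      ext x
      simp only [hg, add_sub_cancel_right]
      ring
    · have : Continuous fun x => g (x + s • e) := hgc.comp (continuous_id.add continuous_const)
      exact this.continuousOn.integrableOn_compact (isCompact_closedBall _ _)
    · exact hint _ hBB1
  rw [h0]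
  have hmB : MeasurableSet B := measurableSet_closedBall
  have hmBs : MeasurableSet Bs := measurableSet_closedBall
  have h1 : ∫ x in Bs, g x = (∫ x in Bs ∩ B, g x) + ∫ x in Bs \ B, g x :=
    (integral_inter_add_diff hmB (hint _ hBsB1)).symm
  have h2 : ∫ x in B, g x = (∫ x in B ∩ Bs, g x) + ∫ x in B \ Bs, g x :=
    (integral_inter_add_diff hmBs (hint _ hBB1)).symm
  rw [inter_comm] at h2
  have hb : ∀ A : Set (E d), volume A ≠ ∞ → |∫ x in A, g x| ≤ R * s * (volume A).toReal := by
    intro A hA
    have := norm_setIntegral_le_of_norm_le_const (μ := volume) (s := A) (f := g) (C := R * s)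
      hA.lt_top (fun x _ => hgb x)
    simpa [Measure.real] using this
  have hfin : ∀ A : Set (E d), A ⊆ B1 → volume A ≠ ∞ := fun A hA =>
    (lt_of_le_of_lt (measure_mono hA) hvB1.lt_top).ne
  have hd1 : (volume (Bs \ B)).toReal ≤ (volume B1).toReal - (volume B).toReal := by
    have h3 : (volume (B1 \ B)).toReal = (volume B1).toReal - (volume B).toReal := by
      rw [measure_diff hBB1 hmB.nullMeasurableSet hvB, ENNReal.toReal_sub_of_le (measure_mono hBB1) hvB1]
    rw [← h3]
    exact ENNReal.toReal_mono (hfin _ diff_subset) (measure_mono (diff_subset_diff_left hBsB1))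
  have hd2 : (volume (B \ Bs)).toReal = (volume (Bs \ B)).toReal := by
    have h3 := measure_inter_add_diff (μ := volume) B hmBs
    have h4 := measure_inter_add_diff (μ := volume) Bs hmB
    rw [hBsB, ← h3, inter_comm Bs B] at h4
    congr 1
    exact ((ENNReal.add_right_inj (hfin _ (inter_subset_left.trans hBB1))).1 h4).symm
  have h5 := hb (Bs \ B) (hfin _ (diff_subset.trans hBsB1))
  have h6 := hb (B \ Bs) (hfin _ (diff_subset.trans hBB1))
  rw [hd2] at h6
  have h7 := (abs_le.1 h5).2
  have h8 := (abs_le.1 h6).1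
  have hRs : 0 ≤ (R : ℝ) * s := by positivity
  have h9 := mul_le_mul_of_nonneg_left hd1 hRs
  rw [h1, h2]
  linarith

end ball

lemma vol_pos {d : ℕ} {K : Set (E d)} (hKi : (interior K).Nonempty) : volume K ≠ 0 :=
  ((isOpen_interior.measure_pos volume hKi).trans_le (measure_mono interior_subset)).ne'

lemma unif_prob {d : ℕ} {K : Set (E d)} (hK : IsCompact K) (hKi : (interior K).Nonempty) :
    IsProbabilityMeasure (unif K) := by
  constructor
  unfold unif
  rw [Measure.smul_apply, Measure.restrict_apply_univ, smul_eq_mul,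
    ENNReal.inv_mul_cancel (vol_pos hKi) hK.measure_lt_top.ne]

lemma unif_ae_mem {d : ℕ} {K : Set (E d)} (hK : IsCompact K) :
    ∀ᵐ x ∂(unif K), x ∈ K := by
  have h1 : ∀ᵐ x ∂((volume : Measure (E d)).restrict K), x ∈ K :=
    ae_restrict_mem hK.measurableSet
  unfold unif
  exact Measure.ae_smul_measure h1 _

section main

variable {d : ℕ} {L s : ℝ} {φ χ : E d → ℝ}

/-- the pointwise inequality -/
lemma pointwise {M : ℝ} (hφ : Continuous φ) (hχ : Continuous χ) (hs : 0 ≤ s) (hL : M + s ≤ L)
    (hM : 0 ≤ M) {x p q : E d} (hx : x ∈ closedBall (0 : E d) M)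
    (h1 : ∀ z, φ x + inner ℝ (z - x) p ≤ φ z) (h2 : ∀ z, χ x + inner ℝ (z - x) q ≤ χ z) :
    s * ‖p - q‖ ≤ d * ((conj L φ q - conj L χ q) - (conj L φ p - conj L χ p)) +
      ∑ i, (φ (x + s • EuclideanSpace.basisFun (Fin d) ℝ i) +
        φ (x - s • EuclideanSpace.basisFun (Fin d) ℝ i) - 2 * φ x) := by
  set b := EuclideanSpace.basisFun (Fin d) ℝ with hb
  have hL0 : 0 ≤ L := by linarith
  have hxL : x ∈ closedBall (0 : E d) L := closedBall_subset_closedBall (by linarith) hx
  have hxn : ‖x‖ ≤ M := by simpa using hx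
  have hp := conj_eq hφ hL0 hxL h1
  have hq := conj_eq hχ hL0 hxL h2
  have hχp := le_conj (y := p) hχ hxL
  set gp := conj L φ q + φ x - inner ℝ x q with hgp
  have hgap : gp ≤ (conj L φ q - conj L χ q) - (conj L φ p - conj L χ p) := by
    rw [hgp]; linarith
  have key : ∀ e : E d, ‖e‖ = 1 →
      s * inner ℝ e (q - p) ≤ gp + (φ (x + s • e) + φ (x - s • e) - 2 * φ x) := by
    intro e he
    have hse : ‖s • e‖ = s := by rw [norm_smul, he, Real.norm_of_nonneg hs, mul_one]
    have hxe : x + s • e ∈ closedBall (0 : E d) L := by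
      rw [mem_closedBall, dist_zero_right]
      calc ‖x + s • e‖ ≤ ‖x‖ + ‖s • e‖ := norm_add_le _ _
        _ ≤ L := by rw [hse]; linarith
    have h3 := le_conj (y := q) hφ hxe
    have h4 := h1 (x - s • e)
    rw [inner_add_left, real_inner_smul_left] at h3
    rw [sub_sub_cancel_left, inner_neg_left, real_inner_smul_left] at h4
    rw [inner_sub_right, hgp]
    linarith
  have hb1 : ∀ i, ‖b i‖ = 1 := fun i => b.norm_eq_one i
  have key2 : ∀ i, ‖(s * inner ℝ (b i) (q - p))‖ ≤
      gp + (φ (x + s • b i) + φ (x - s • b i) - 2 * φ x) := by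
    intro i
    rw [Real.norm_eq_abs, abs_le]
    constructor
    · have h3 := key (-(b i)) (by rw [norm_neg]; exact hb1 i)
      rw [inner_neg_left, smul_neg, sub_neg_eq_add, ← sub_eq_add_neg] at h3
      linarith
    · exact key (b i) (hb1 i)
  have hsum : s * ‖p - q‖ ≤ ∑ i, ‖(s * inner ℝ (b i) (q - p))‖ := by
    have h3 : s • (q - p) = ∑ i, (s * inner ℝ (b i) (q - p)) • b i := by
      conv_lhs => rw [← b.sum_repr' (q - p)]
      rw [Finset.smul_sum]
      exact Finset.sum_congr rfl fun i _ => by rw [smul_smul]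
    calc s * ‖p - q‖ = ‖s • (q - p)‖ := by
          rw [norm_smul, Real.norm_of_nonneg hs, norm_sub_rev]
      _ ≤ ∑ i, ‖(s * inner ℝ (b i) (q - p)) • b i‖ := by rw [h3]; exact norm_sum_le _ _
      _ = ∑ i, ‖(s * inner ℝ (b i) (q - p))‖ :=
          Finset.sum_congr rfl fun i _ => by rw [norm_smul, hb1 i, mul_one]
  calc s * ‖p - q‖ ≤ ∑ i, ‖(s * inner ℝ (b i) (q - p))‖ := hsum
    _ ≤ ∑ i, (gp + (φ (x + s • b i) + φ (x - s • b i) - 2 * φ x)) :=
        Finset.sum_le_sum fun i _ => key2 i
    _ = d * gp + ∑ i, (φ (x + s • b i) + φ (x - s • b i) - 2 * φ x) := by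
        rw [Finset.sum_add_distrib]; simp
    _ ≤ _ := by
        have := mul_le_mul_of_nonneg_left hgap (Nat.cast_nonneg (α := ℝ) d)
        linarith

end main

theorem l1_stability {d : ℕ} {K : Set (E d)} (hK : IsCompact K) (hKi : (interior K).Nonempty)
    (R : ℝ≥0) : ∃ C : ℝ, 0 ≤ C ∧ ∀ (S T : E d → E d) (φ χ : E d → ℝ)
      (π : Measure (E d × E d)), Measurable S → Measurable T →
      (∀ᵐ x ∂(unif K), ‖S x‖ ≤ R) → (∀ᵐ x ∂(unif K), ‖T x‖ ≤ R) →
      ConvexOn ℝ univ φ → LipschitzWith R φ → ConvexOn ℝ univ χ → LipschitzWith R χ →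
      (∀ᵐ x ∂(unif K), ∀ z, φ x + inner ℝ (z - x) (S x) ≤ φ z) →
      (∀ᵐ x ∂(unif K), ∀ z, χ x + inner ℝ (z - x) (T x) ≤ χ z) →
      π.map Prod.fst = (unif K).map S → π.map Prod.snd = (unif K).map T →
      (∫ x, ‖S x - T x‖ ∂(unif K)) ≤ C * Real.sqrt (∫ z, ‖z.1 - z.2‖ ∂π) := by
  haveI hρ := unif_prob hK hKi
  obtain ⟨M, hM1, hKM⟩ := hK.isBounded.subset_closedBall_lt 1 (0 : E d)
  have hM : 0 ≤ M := by linarith
  set s0 : ℝ := Real.sqrt (2 * R) + 1 with hs0
  have hs0p : 0 < s0 := by positivity
  set L : ℝ := M + s0 with hLdef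
  have hL : 0 ≤ L := by positivity
  obtain ⟨c, hc, hvol⟩ := vol_growth (d := d) hM hs0p
  set V : ℝ := (volume K).toReal with hV
  have hVp : 0 < V := ENNReal.toReal_pos (vol_pos hKi) hK.measure_lt_top.ne
  set A : ℝ := 2 * L * d with hA
  have hA0 : 0 ≤ A := by positivity
  have hBc0 : 0 ≤ d * (V⁻¹ * (2 * R * c)) := by positivity
  refine ⟨A + d * (V⁻¹ * (2 * R * c)), by positivity, ?_⟩
  intro S T φ χ π hSm hTm hSR hTR hφc hφL hχc hχL hφS hχT hπ1 hπ2
  set ρ := unif K with hρdef
  set w : ℝ := ∫ z, ‖z.1 - z.2‖ ∂π with hw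
  have hw0 : 0 ≤ w := integral_nonneg fun _ => norm_nonneg _
  haveI hπp : IsProbabilityMeasure π := by
    constructor
    have h1 : (π.map Prod.fst) univ = π univ := by
      rw [Measure.map_apply measurable_fst MeasurableSet.univ, preimage_univ]
    rw [← h1, hπ1, Measure.map_apply hSm MeasurableSet.univ, preimage_univ, measure_univ]
  have hπR1 : ∀ᵐ z ∂π, ‖z.1‖ ≤ R := by
    have hms : MeasurableSet {y : E d | ‖y‖ ≤ R} := measurableSet_le measurable_norm measurable_const
    have h1 : ∀ᵐ y ∂(ρ.map S), ‖y‖ ≤ R := (ae_map_iff hSm.aemeasurable hms).2 hSR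
    rw [← hπ1] at h1
    exact (ae_map_iff measurable_fst.aemeasurable hms).1 h1
  have hπR2 : ∀ᵐ z ∂π, ‖z.2‖ ≤ R := by
    have hms : MeasurableSet {y : E d | ‖y‖ ≤ R} := measurableSet_le measurable_norm measurable_const
    have h1 : ∀ᵐ y ∂(ρ.map T), ‖y‖ ≤ R := (ae_map_iff hTm.aemeasurable hms).2 hTR
    rw [← hπ2] at h1
    exact (ae_map_iff measurable_snd.aemeasurable hms).1 h1
  have hwint : Integrable (fun z : E d × E d => ‖z.1 - z.2‖) π := by
    apply Integrable.of_bound (C := 2 * R)
    · exact (measurable_fst.sub measurable_snd).norm.aestronglyMeasurable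
    · filter_upwards [hπR1, hπR2] with z h1 h2
      rw [norm_norm]
      exact (norm_sub_le _ _).trans (by linarith)
  have hwR : w ≤ 2 * R := by
    have h1 : w ≤ ∫ z, (2 * R : ℝ) ∂π := by
      apply integral_mono_ae hwint (integrable_const _)
      filter_upwards [hπR1, hπR2] with z h1 h2
      exact (norm_sub_le _ _).trans (by linarith)
    simpa using h1
  -- the function `h`
  set h : E d → ℝ := fun y => conj L φ y - conj L χ y with hh
  have hhc : Continuous h :=
    (continuous_conj hφL.continuous hL).sub (continuous_conj hχL.continuous hL)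
  obtain ⟨H, hH⟩ := (isCompact_closedBall (0 : E d) R).exists_bound_of_continuousOn
    hhc.continuousOn
  have hhT : Integrable (fun x => h (T x)) ρ := by
    apply Integrable.of_bound (C := H)
    · exact (hhc.measurable.comp hTm).aestronglyMeasurable
    · filter_upwards [hTR] with x hx
      exact hH _ (by simpa using hx)
  have hhS : Integrable (fun x => h (S x)) ρ := by
    apply Integrable.of_bound (C := H)
    · exact (hhc.measurable.comp hSm).aestronglyMeasurable
    · filter_upwards [hSR] with x hx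
      exact hH _ (by simpa using hx)
  have hh1 : Integrable (fun z : E d × E d => h z.1) π := by
    apply Integrable.of_bound (C := H)
    · exact (hhc.measurable.comp measurable_fst).aestronglyMeasurable
    · filter_upwards [hπR1] with x hx
      exact hH _ (by simpa using hx)
  have hh2 : Integrable (fun z : E d × E d => h z.2) π := by
    apply Integrable.of_bound (C := H)
    · exact (hhc.measurable.comp measurable_snd).aestronglyMeasurable
    · filter_upwards [hπR2] with x hx
      exact hH _ (by simpa using hx)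
  have hgapint : ∫ x, (h (T x) - h (S x)) ∂ρ ≤ 2 * L * w := by
    rw [integral_sub hhT hhS]
    have e1 : ∫ x, h (T x) ∂ρ = ∫ z, h z.2 ∂π := by
      rw [← integral_map hTm.aemeasurable hhc.aestronglyMeasurable, ← hπ2,
        integral_map measurable_snd.aemeasurable hhc.aestronglyMeasurable]
    have e2 : ∫ x, h (S x) ∂ρ = ∫ z, h z.1 ∂π := by
      rw [← integral_map hSm.aemeasurable hhc.aestronglyMeasurable, ← hπ1,
        integral_map measurable_fst.aemeasurable hhc.aestronglyMeasurable]
    rw [e1, e2, ← integral_sub hh2 hh1, hw, ← integral_const_mul]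
    apply integral_mono (hh2.sub hh1) (hwint.const_mul _)
    intro z
    have h1 := conj_le_add hφL.continuous hL z.2 z.1
    have h2 := conj_le_add hχL.continuous hL z.1 z.2
    rw [norm_sub_rev] at h1
    simp only [hh, Pi.sub_apply]
    linarith
  -- second differences
  have hsec : ∀ s : ℝ, 0 ≤ s → s ≤ s0 → ∀ e : E d, ‖e‖ = 1 →
      Integrable (fun x => φ (x + s • e) + φ (x - s • e) - 2 * φ x) ρ ∧
      ∫ x, (φ (x + s • e) + φ (x - s • e) - 2 * φ x) ∂ρ ≤ V⁻¹ * (2 * R * c) * s * s := by
    intro s hs hss e he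
    have hcont : Continuous (fun x => φ (x + s • e) + φ (x - s • e) - 2 * φ x) := by
      have h1 : Continuous fun x => φ (x + s • e) :=
        hφL.continuous.comp (continuous_id.add continuous_const)
      have h2 : Continuous fun x => φ (x - s • e) :=
        hφL.continuous.comp (continuous_id.sub continuous_const)
      exact (h1.add h2).sub (continuous_const.mul hφL.continuous)
    have hnn : ∀ x, 0 ≤ φ (x + s • e) + φ (x - s • e) - 2 * φ x := by
      intro x
      have h1 := hφc.2 (mem_univ (x + s • e)) (mem_univ (x - s • e))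
        (by norm_num : (0 : ℝ) ≤ 1 / 2) (by norm_num : (0 : ℝ) ≤ 1 / 2) (by norm_num)
      have h2 : (1 / 2 : ℝ) • (x + s • e) + (1 / 2 : ℝ) • (x - s • e) = x := by
        module
      rw [h2] at h1
      simp only [smul_eq_mul] at h1
      linarith
    have hiB : IntegrableOn (fun x => φ (x + s • e) + φ (x - s • e) - 2 * φ x)
        (closedBall (0 : E d) M) :=
      hcont.continuousOn.integrableOn_compact (isCompact_closedBall _ _)
    have hiK : IntegrableOn (fun x => φ (x + s • e) + φ (x - s • e) - 2 * φ x) K :=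
      hiB.mono_set hKM
    constructor
    · rw [hρdef]
      unfold unif
      exact hiK.smul_measure (ENNReal.inv_ne_top.2 (vol_pos hKi))
    · rw [hρdef]
      unfold unif
      rw [integral_smul_measure, ENNReal.toReal_inv, smul_eq_mul]
      have h1 : ∫ x in K, (φ (x + s • e) + φ (x - s • e) - 2 * φ x) ≤
          ∫ x in closedBall (0 : E d) M, (φ (x + s • e) + φ (x - s • e) - 2 * φ x) :=
        setIntegral_mono_set hiB (Filter.Eventually.of_forall hnn) hKM.eventuallyLE
      have h2 := integral_second_diff hφL hM hs e he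
      have h3 := hvol s hs hss
      have h4 : 2 * (R * s) * ((volume (closedBall (0 : E d) (M + s))).toReal -
        (volume (closedBall (0 : E d) M)).toReal) ≤ 2 * (R * s) * (c * s) :=
        mul_le_mul_of_nonneg_left h3 (by positivity)
      calc V⁻¹ * ∫ x in K, (φ (x + s • e) + φ (x - s • e) - 2 * φ x) ≤
            V⁻¹ * (2 * (R * s) * (c * s)) :=
            mul_le_mul_of_nonneg_left (h1.trans (h2.trans h4)) (by positivity)
        _ = V⁻¹ * (2 * R * c) * s * s := by ring
  -- the estimate for each step size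
  set I : ℝ := ∫ x, ‖S x - T x‖ ∂ρ with hI
  have hIint : Integrable (fun x => ‖S x - T x‖) ρ := by
    apply Integrable.of_bound (C := 2 * R)
    · exact (hSm.sub hTm).norm.aestronglyMeasurable
    · filter_upwards [hSR, hTR] with x h1 h2
      rw [norm_norm]
      exact (norm_sub_le _ _).trans (by linarith)
  have hstep : ∀ s : ℝ, 0 ≤ s → s ≤ s0 →
      s * I ≤ A * w + d * (V⁻¹ * (2 * R * c)) * s * s := by
    intro s hs hss
    set b := EuclideanSpace.basisFun (Fin d) ℝ with hb
    have hb1 : ∀ i, ‖b i‖ = 1 := fun i => b.norm_eq_one i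
    have hgi : Integrable (fun x => h (T x) - h (S x)) ρ := hhT.sub hhS
    have hsi : Integrable (fun x => ∑ i, (φ (x + s • b i) + φ (x - s • b i) - 2 * φ x)) ρ :=
      integrable_finsetSum _ fun i _ => (hsec s hs hss (b i) (hb1 i)).1
    have h1 : ∫ x, s * ‖S x - T x‖ ∂ρ ≤
        ∫ x, (d * (h (T x) - h (S x)) +
          ∑ i, (φ (x + s • b i) + φ (x - s • b i) - 2 * φ x)) ∂ρ := by
      apply integral_mono_ae (hIint.const_mul s) ((hgi.const_mul _).add hsi)
      filter_upwards [unif_ae_mem hK, hφS, hχT] with x hxK h1 h2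
      exact pointwise hφL.continuous hχL.continuous hs (by rw [hLdef]; linarith) hM (hKM hxK) h1 h2
    rw [integral_const_mul, integral_add (hgi.const_mul _) hsi, integral_const_mul,
      integral_finsetSum _ (fun i _ => (hsec s hs hss (b i) (hb1 i)).1)] at h1
    have h2 : ∑ i, ∫ x, (φ (x + s • b i) + φ (x - s • b i) - 2 * φ x) ∂ρ ≤
        ∑ i : Fin d, V⁻¹ * (2 * R * c) * s * s :=
      Finset.sum_le_sum fun i _ => (hsec s hs hss (b i) (hb1 i)).2
    have h3 : ∑ i : Fin d, V⁻¹ * (2 * R * c) * s * s = d * (V⁻¹ * (2 * R * c)) * s * s := by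
      rw [Finset.sum_const, Finset.card_univ, Fintype.card_fin, nsmul_eq_mul]
      ring
    have h4 := mul_le_mul_of_nonneg_left hgapint (Nat.cast_nonneg (α := ℝ) d)
    rw [hA]
    calc s * I ≤ d * ∫ x, (h (T x) - h (S x)) ∂ρ +
          ∑ i, ∫ x, (φ (x + s • b i) + φ (x - s • b i) - 2 * φ x) ∂ρ := h1
      _ ≤ d * (2 * L * w) + d * (V⁻¹ * (2 * R * c)) * s * s := by linarith
      _ = _ := by ring
  -- conclusion
  rcases hw0.eq_or_lt with hw1 | hw1
  · -- w = 0
    rw [← hw1, Real.sqrt_zero, mul_zero]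
    have h1 : ∀ s : ℝ, 0 < s → s ≤ s0 → I ≤ d * (V⁻¹ * (2 * R * c)) * s := by
      intro s hs hss
      have h2 := hstep s hs.le hss
      rw [← hw1, mul_zero, zero_add] at h2
      have h3 : s * I ≤ s * (d * (V⁻¹ * (2 * R * c)) * s) := by linarith
      exact le_of_mul_le_mul_left h3 hs
    by_contra hcon
    push Not at hcon
    set D : ℝ := d * (V⁻¹ * (2 * R * c)) with hD
    have hs1 : 0 < min s0 (I / (2 * (D + 1))) := lt_min hs0p (by positivity)
    have h2 := h1 _ hs1 (min_le_left _ _)
    have h3 : D * min s0 (I / (2 * (D + 1))) ≤ D * (I / (2 * (D + 1))) :=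
      mul_le_mul_of_nonneg_left (min_le_right _ _) hBc0
    have h4 : D * (I / (2 * (D + 1))) < I := by
      rw [mul_div_assoc', div_lt_iff₀ (by positivity)]
      nlinarith
    linarith
  · have hsw : 0 < Real.sqrt w := Real.sqrt_pos.2 hw1
    have hsw0 : Real.sqrt w ≤ s0 := by
      have := Real.sqrt_le_sqrt hwR
      rw [hs0]; linarith
    have h1 := hstep (Real.sqrt w) hsw.le hsw0
    have h2 : w = Real.sqrt w * Real.sqrt w := (Real.mul_self_sqrt hw0).symm
    have h3 : Real.sqrt w * I ≤
        Real.sqrt w * ((A + d * (V⁻¹ * (2 * R * c))) * Real.sqrt w) := by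
      calc Real.sqrt w * I ≤ A * w + d * (V⁻¹ * (2 * R * c)) * Real.sqrt w * Real.sqrt w := h1
        _ = A * (Real.sqrt w * Real.sqrt w) +
            d * (V⁻¹ * (2 * R * c)) * Real.sqrt w * Real.sqrt w := by rw [← h2]
        _ = _ := by ring
    exact le_of_mul_le_mul_left h3 hsw

end Vale.Agent.P074
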