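import Vale.Agent.P074.LagGeom

/-!
Task P074-C6: continuity of the weights as functions of the masses.
-/

open MeasureTheory Set
open scoped ENNReal NNReal

namespace Vale.Agent.P074

namespace LscAux

variable {d : ℕ} {ι : Type} [Fintype ι]

/-- Raise the weights outside `I` by `δ`. -/
def raise [DecidableEq ι] (ψ : ι → ℝ) (I : Finset ι) (δ : ℝ) (i : ι) : ℝ := if i ∈ I then ψ i else ψ i + δ

theorem prob {K : Set (E d)} (hK : IsCompact K) (hKi : (interior K).Nonempty) :
    IsProbabilityMeasure (unif K) := by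
  constructor
  have h0 : volume K ≠ 0 :=
    ((isOpen_interior.measure_pos volume hKi).trans_le (measure_mono interior_subset)).ne'
  unfold unif
  rw [Measure.smul_apply, Measure.restrict_apply_univ, smul_eq_mul,
    ENNReal.inv_mul_cancel h0 hK.measure_lt_top.ne]

theorem null_inter {K : Set (E d)} {y : ι → E d} (hy : Function.Injective y)
    (ψ : ι → ℝ) {i j : ι} (hij : i ≠ j) :
    (unif K) (cell K y ψ i ∩ cell K y ψ j) = 0 := by
  unfold unif
  rw [Measure.smul_apply, smul_eq_mul]
  have : (volume.restrict K) (cell K y ψ i ∩ cell K y ψ j) = 0 :=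
    le_antisymm ((Measure.restrict_apply_le _ _).trans (volume_cell_inter hy ψ hij).le) bot_le
  rw [this, mul_zero]

theorem continuous_pot [Nonempty ι] (y : ι → E d) (ψ : ι → ℝ) : Continuous (pot y ψ) := by
  have h : ∀ i, ‖y i‖ ≤ ((∑ j, ‖y j‖₊ : ℝ≥0) : ℝ) := by
    intro i
    rw [NNReal.coe_sum]
    exact Finset.single_le_sum (f := fun j => ((‖y j‖₊ : ℝ≥0) : ℝ))
      (fun j _ => NNReal.coe_nonneg _) (Finset.mem_univ i)
  exact (lipschitz_pot h ψ).continuous

theorem strip_pos [DecidableEq ι] [Nonempty ι] {K : Set (E d)}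
    (hK : IsCompact K) (hKc : Convex ℝ K) (hKi : (interior K).Nonempty) {y : ι → E d}
    (hy : Function.Injective y) {ψ : ι → ℝ} (hm : ∀ i, 0 < mass K y ψ i)
    {δ : ℝ} (hδ : 0 < δ) (I : Finset ι) (hI : I.Nonempty) (hI' : ∃ i, i ∉ I) :
    0 < (unif K).real {x | x ∈ K ∧ -δ < pot y (raise ψ I δ) x - pot y ψ x ∧
      pot y (raise ψ I δ) x - pot y ψ x < 0} := by
  have := prob hK hKi
  set D : E d → ℝ := fun x => pot y (raise ψ I δ) x - pot y ψ x with hD
  have hDc : Continuous D := (continuous_pot y _).sub (continuous_pot y _)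
  -- a point with `D ≥ 0`
  obtain ⟨i, hi⟩ := hI
  have ha : ∃ a ∈ K, 0 ≤ D a := by
    have hne : (cell K y ψ i).Nonempty := by
      by_contra hne
      rw [not_nonempty_iff_eq_empty] at hne
      have := hm i
      unfold mass at this
      rw [hne, measureReal_empty] at this
      exact lt_irrefl _ this
    obtain ⟨a, ha⟩ := hne
    refine ⟨a, cell_subset y ψ i ha, ?_⟩
    have h1 := pot_eq_of_mem_cell ha
    have h2 := le_pot y (raise ψ I δ) a i
    have h3 : raise ψ I δ i = ψ i := if_pos hi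
    rw [h3] at h2
    simp only [hD]
    linarith
  -- a point with `D < 0`
  obtain ⟨k, hk⟩ := hI'
  have hb : ∃ b ∈ K, D b < 0 := by
    have hnull : (unif K) (⋃ j ∈ I, (cell K y ψ k ∩ cell K y ψ j)) = 0 := by
      refine (measure_biUnion_null_iff (I := (I : Set ι)) I.countable_toSet).mpr ?_
      intro j hj
      refine null_inter hy ψ ?_
      rintro rfl
      exact hk hj
    have hne : ∃ b ∈ cell K y ψ k, b ∉ ⋃ j ∈ I, (cell K y ψ k ∩ cell K y ψ j) := by
      by_contra hne
      push Not at hne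
      have h0 : (unif K) (cell K y ψ k) = 0 :=
        le_antisymm ((measure_mono (fun b hb => hne b hb)).trans hnull.le) bot_le
      have := hm k
      unfold mass at this
      rw [Measure.real, h0, ENNReal.toReal_zero] at this
      exact lt_irrefl _ this
    obtain ⟨b, hbk, hbn⟩ := hne
    have hbK := cell_subset y ψ k hbk
    refine ⟨b, hbK, ?_⟩
    obtain ⟨j, hj⟩ := exists_mem_cell y (raise ψ I δ) hbK
    have h1 := pot_eq_of_mem_cell hj
    have h2 := le_pot y ψ b j
    simp only [hD]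
    by_cases hjI : j ∈ I
    · have h3 : raise ψ I δ j = ψ j := if_pos hjI
      rw [h3] at h1
      rcases h2.lt_or_eq with h4 | h4
      · linarith
      · exfalso
        apply hbn
        simp only [mem_iUnion]
        refine ⟨j, hjI, hbk, hbK, fun l => ?_⟩
        rw [h4]
        exact le_pot y ψ b l
    · have h3 : raise ψ I δ j = ψ j + δ := if_neg hjI
      rw [h3] at h1
      linarith
  obtain ⟨a, haK, haD⟩ := ha
  obtain ⟨b, hbK, hbD⟩ := hb
  -- intermediate value
  have hivt := hKc.isPreconnected.intermediate_value hbK haK hDc.continuousOn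
  set v : ℝ := max (D b) (-δ) / 2 with hv
  have hmax : max (D b) (-δ) < 0 := max_lt hbD (by linarith)
  have hv1 : v ∈ Icc (D b) (D a) := by
    constructor
    · have := le_max_left (D b) (-δ)
      linarith
    · linarith
  obtain ⟨x0, hx0K, hx0⟩ := hivt hv1
  set U : Set (E d) := {x | -δ < D x ∧ D x < 0} with hU
  have hUo : IsOpen U := (isOpen_lt continuous_const hDc).inter (isOpen_lt hDc continuous_const)
  have hx0U : x0 ∈ U := by
    have := le_max_right (D b) (-δ)
    refine ⟨?_, ?_⟩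
    · rw [hx0]
      linarith
    · rw [hx0]
      linarith
  have hcl : x0 ∈ closure (interior K) := by
    rw [hKc.closure_interior_eq_closure_of_nonempty_interior hKi]
    exact subset_closure hx0K
  have hne : (U ∩ interior K).Nonempty := mem_closure_iff.mp hcl U hUo hx0U
  have hpos : 0 < volume (U ∩ interior K) := (hUo.inter isOpen_interior).measure_pos volume hne
  have hpos' : 0 < (unif K) (U ∩ interior K) := by
    unfold unif
    rw [Measure.smul_apply, smul_eq_mul, Measure.restrict_apply' hK.measurableSet,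
      inter_eq_self_of_subset_left (inter_subset_right.trans interior_subset)]
    exact ENNReal.mul_pos (ENNReal.inv_ne_zero.mpr hK.measure_lt_top.ne) hpos.ne'
  have hsub : U ∩ interior K ⊆ {x | x ∈ K ∧ -δ < D x ∧ D x < 0} := by
    rintro x ⟨hxU, hxK⟩
    exact ⟨interior_subset hxK, hxU⟩
  exact ENNReal.toReal_pos ((hpos'.trans_le (measure_mono hsub)).ne') (measure_ne_top _ _)

/-- Gap lemma: if the weights `χ` differ from `ψ` by at most `a` on `I` and by more than
`a + δ` off `I`, then the cells of `I` gain the strip. -/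
theorem gap_gain [DecidableEq ι] [Nonempty ι] {K : Set (E d)}
    (hK : IsCompact K) (hKi : (interior K).Nonempty) {y : ι → E d}
    (hy : Function.Injective y) {ψ χ : ι → ℝ} {δ a : ℝ} (hδ : 0 < δ) (I : Finset ι)
    (h1 : ∀ i ∈ I, χ i ≤ ψ i + a) (h2 : ∀ i, i ∉ I → ψ i + a + δ < χ i) :
    (∑ i ∈ I, mass K y ψ i) + (unif K).real {x | x ∈ K ∧
      -δ < pot y (raise ψ I δ) x - pot y ψ x ∧ pot y (raise ψ I δ) x - pot y ψ x < 0} ≤
      ∑ i ∈ I, mass K y χ i := by
  have := prob hK hKi
  set S : Set (E d) := {x | x ∈ K ∧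
      -δ < pot y (raise ψ I δ) x - pot y ψ x ∧ pot y (raise ψ I δ) x - pot y ψ x < 0} with hS
  -- inclusion helper
  have key : ∀ x ∈ K, ∀ i ∈ I, (∀ j, j ∉ I → inner ℝ x (y j) - ψ j - δ ≤ inner ℝ x (y i) - ψ i) →
      x ∈ ⋃ i ∈ I, cell K y χ i := by
    intro x hxK i hi hx
    obtain ⟨l, hl⟩ := exists_mem_cell y χ hxK
    by_cases hlI : l ∈ I
    · simp only [mem_iUnion]
      exact ⟨l, hlI, hl⟩
    · exfalso
      have e1 := hl.2 i
      have e2 := h1 i hi
      have e3 := h2 l hlI
      have e4 := hx l hlI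
      linarith
  have hsub : (⋃ i ∈ I, cell K y ψ i) ∪ S ⊆ ⋃ i ∈ I, cell K y χ i := by
    intro x hx
    rcases hx with hx | hx
    · simp only [mem_iUnion] at hx
      obtain ⟨i, hi, hxi⟩ := hx
      refine key x hxi.1 i hi fun j _ => ?_
      have := hxi.2 j
      linarith
    · obtain ⟨hxK, hx1, hx2⟩ := hx
      obtain ⟨i, hi⟩ := exists_mem_cell y (raise ψ I δ) hxK
      have e1 := pot_eq_of_mem_cell hi
      have e2 := le_pot y ψ x i
      have hiI : i ∈ I := by
        by_contra hiI
        have e3 : raise ψ I δ i = ψ i + δ := if_neg hiI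
        rw [e3] at e1
        linarith
      have e3 : raise ψ I δ i = ψ i := if_pos hiI
      refine key x hxK i hiI fun j hj => ?_
      have e4 := hi.2 j
      have e5 : raise ψ I δ j = ψ j + δ := if_neg hj
      rw [e3, e5] at e4
      linarith
  have hdisj : Disjoint (⋃ i ∈ I, cell K y ψ i) S := by
    rw [Set.disjoint_left]
    intro x hx hxS
    simp only [mem_iUnion] at hx
    obtain ⟨i, hi, hxi⟩ := hx
    have e1 := pot_eq_of_mem_cell hxi
    have e2 := le_pot y (raise ψ I δ) x i
    have e3 : raise ψ I δ i = ψ i := if_pos hi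
    rw [e3] at e2
    have := hxS.2.2
    linarith
  have hmeas : MeasurableSet (⋃ i ∈ I, cell K y ψ i) :=
    Finset.measurableSet_biUnion I fun i _ => measurableSet_cell hK y ψ i
  have hsum : (unif K).real (⋃ i ∈ I, cell K y ψ i) = ∑ i ∈ I, mass K y ψ i := by
    unfold mass
    refine measureReal_biUnion_finset₀ ?_ fun i _ => (measurableSet_cell hK y ψ i).nullMeasurableSet
    intro i _ j _ hij
    exact null_inter hy ψ hij
  calc (∑ i ∈ I, mass K y ψ i) + (unif K).real S
      = (unif K).real ((⋃ i ∈ I, cell K y ψ i) ∪ S) := by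
        rw [measureReal_union' hdisj hmeas (measure_ne_top _ _) (measure_ne_top _ _), hsum]
    _ ≤ (unif K).real (⋃ i ∈ I, cell K y χ i) := measureReal_mono hsub (measure_ne_top _ _)
    _ ≤ ∑ i ∈ I, mass K y χ i := measureReal_biUnion_finset_le _ _

/-- Finite pigeonhole: either the spread is at most `n δ` or there is a gap. -/
theorem exists_gap [Nonempty ι] (h : ι → ℝ) {δ : ℝ} (hδ : 0 < δ) {i₀ : ι} (hi₀ : ∀ i, h i₀ ≤ h i)
    {i₁ : ι} (hi₁ : h i₀ + (Fintype.card ι) * δ < h i₁) :
    ∃ (I : Finset ι) (a : ℝ), I.Nonempty ∧ (∃ i, i ∉ I) ∧ (∀ i ∈ I, h i ≤ a) ∧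
      ∀ i, i ∉ I → a + δ < h i := by
  by_contra hcon
  push Not at hcon
  let J : ℕ → Finset ι := fun k => Finset.univ.filter fun i => h i ≤ h i₀ + k * δ
  have hi₁J : ∀ k ≤ Fintype.card ι, i₁ ∉ J k := by
    intro k hk hmem
    have h1 : h i₁ ≤ h i₀ + k * δ := (Finset.mem_filter.mp hmem).2
    have h2 : (k : ℝ) * δ ≤ (Fintype.card ι) * δ :=
      mul_le_mul_of_nonneg_right (by exact_mod_cast hk) hδ.le
    linarith
  have hcard : ∀ k ≤ Fintype.card ι, k + 1 ≤ (J k).card := by
    intro k
    induction k with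
    | zero =>
      intro _
      rw [zero_add, Nat.one_le_iff_ne_zero, Finset.card_ne_zero]
      refine ⟨i₀, Finset.mem_filter.mpr ⟨Finset.mem_univ _, ?_⟩⟩
      simp
    | succ k ih =>
      intro hk
      have ih' := ih (by omega)
      have hi₀J : i₀ ∈ J k := Finset.mem_filter.mpr ⟨Finset.mem_univ _, by
        have : (0:ℝ) ≤ k * δ := by positivity
        linarith⟩
      obtain ⟨i, hi1, hi2⟩ := hcon (J k) (h i₀ + k * δ) ⟨i₀, hi₀J⟩ ⟨i₁, hi₁J k (by omega)⟩
        (fun i hi => (Finset.mem_filter.mp hi).2)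
      have hss : J k ⊂ J (k + 1) := by
        refine Finset.ssubset_iff_subset_ne.mpr ⟨?_, ?_⟩
        · intro l hl
          have := (Finset.mem_filter.mp hl).2
          refine Finset.mem_filter.mpr ⟨Finset.mem_univ _, ?_⟩
          push_cast
          linarith
        · intro heq
          apply hi1
          rw [heq]
          refine Finset.mem_filter.mpr ⟨Finset.mem_univ _, ?_⟩
          push_cast
          linarith
      have := Finset.card_lt_card hss
      omega
  have h1 := hcard (Fintype.card ι) le_rfl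
  have h2 := Finset.card_le_univ (J (Fintype.card ι))
  omega

end LscAux

open LscAux in
theorem weights_lsc {d : ℕ} {ι : Type} [Fintype ι] [Nonempty ι] {K : Set (E d)}
    (hK : IsCompact K) (hKc : Convex ℝ K) (hKi : (interior K).Nonempty) {y : ι → E d}
    (hy : Function.Injective y) {ψ : ι → ℝ} (hm : ∀ i, 0 < mass K y ψ i)
    {u : ι → ℝ} (hu : ∑ i, u i = 0) {η : ℝ} (hη : 0 < η) :
    ∃ ε₀ : ℝ, 0 < ε₀ ∧ ∀ ε : ℝ, 0 < ε → ε < ε₀ → ∀ ψε : ι → ℝ,
      (∀ i, mass K y ψε i = mass K y ψ i + ε * u i) →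
      ∑ i, ψ i * u i - η ≤ ∑ i, ψε i * u i := by
  classical
  set n : ℝ := (Fintype.card ι : ℝ) with hn
  have hn0 : 0 < n := by
    rw [hn]
    exact_mod_cast Fintype.card_pos
  set A : ℝ := 1 + ∑ i, |u i| with hA
  have hA0 : 0 < A := by
    have : 0 ≤ ∑ i, |u i| := Finset.sum_nonneg fun i _ => abs_nonneg _
    linarith
  set δ : ℝ := η / (n * A) with hδdef
  have hδ : 0 < δ := by positivity
  let st : Finset ι → ℝ := fun I => (unif K).real {x | x ∈ K ∧
      -δ < pot y (raise ψ I δ) x - pot y ψ x ∧ pot y (raise ψ I δ) x - pot y ψ x < 0}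
  obtain ⟨c, hc0, hc⟩ : ∃ c : ℝ, 0 < c ∧ ∀ I : Finset ι, I.Nonempty → (∃ i, i ∉ I) →
      c ≤ st I := by
    have hfin : ∃ c : ℝ, 0 < c ∧ ∀ I ∈ (Finset.univ : Finset (Finset ι)),
        I.Nonempty → (∃ i, i ∉ I) → c ≤ st I := by
      induction (Finset.univ : Finset (Finset ι)) using Finset.induction_on with
      | empty => exact ⟨1, one_pos, by simp⟩
      | insert J s _ ih =>
        obtain ⟨c, hc0, hc⟩ := ih
        by_cases hJ : J.Nonempty ∧ ∃ i, i ∉ J
        · have hpos := strip_pos hK hKc hKi hy hm hδ J hJ.1 hJ.2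
          refine ⟨min c (st J), lt_min hc0 hpos, ?_⟩
          intro I hI h1 h2
          rcases Finset.mem_insert.mp hI with rfl | hI
          · exact min_le_right _ _
          · exact (min_le_left _ _).trans (hc I hI h1 h2)
        · refine ⟨c, hc0, ?_⟩
          intro I hI h1 h2
          rcases Finset.mem_insert.mp hI with rfl | hI
          · exact absurd ⟨h1, h2⟩ hJ
          · exact hc I hI h1 h2
    obtain ⟨c, hc0, hc⟩ := hfin
    exact ⟨c, hc0, fun I => hc I (Finset.mem_univ _)⟩
  refine ⟨c / A, by positivity, ?_⟩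
  intro ε hε hεc ψε hmass
  set h : ι → ℝ := fun i => ψε i - ψ i with hh
  obtain ⟨i₀, -, hi₀⟩ := Finset.exists_min_image Finset.univ h Finset.univ_nonempty
  have hi₀' : ∀ i, h i₀ ≤ h i := fun i => hi₀ i (Finset.mem_univ _)
  have hspread : ∀ i, h i ≤ h i₀ + n * δ := by
    intro i₁
    by_contra hcon
    push Not at hcon
    obtain ⟨I, a, hI, hI', h1, h2⟩ := exists_gap h hδ hi₀' hcon
    have hg := gap_gain (K := K) (y := y) (ψ := ψ) (χ := ψε) (a := a) hK hKi hy hδ I
      (fun i hi => by have := h1 i hi; simp only [hh] at this; linarith)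
      (fun i hi => by have := h2 i hi; simp only [hh] at this; linarith)
    have hcI := hc I hI hI'
    have hsum : ∑ i ∈ I, mass K y ψε i = ∑ i ∈ I, mass K y ψ i + ε * ∑ i ∈ I, u i := by
      rw [Finset.mul_sum, ← Finset.sum_add_distrib]
      exact Finset.sum_congr rfl fun i _ => hmass i
    have hub : ∑ i ∈ I, u i ≤ ∑ i, |u i| := by
      calc ∑ i ∈ I, u i ≤ ∑ i ∈ I, |u i| := Finset.sum_le_sum fun i _ => le_abs_self _
        _ ≤ ∑ i, |u i| := Finset.sum_le_sum_of_subset_of_nonneg (Finset.subset_univ _)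
            fun i _ _ => abs_nonneg _
    have h3 : ε * ∑ i ∈ I, u i ≤ ε * A := mul_le_mul_of_nonneg_left (by linarith) hε.le
    have h4 : ε * A < c := by
      have := mul_lt_mul_of_pos_right hεc hA0
      rwa [div_mul_cancel₀ _ hA0.ne'] at this
    have h5 : c ≤ ε * ∑ i ∈ I, u i := by
      have : (∑ i ∈ I, mass K y ψ i) + st I ≤ ∑ i ∈ I, mass K y ψε i := hg
      linarith
    linarith
  have hdiff : ∑ i, ψε i * u i - ∑ i, ψ i * u i = ∑ i, (h i - h i₀) * u i := by
    have e1 : ∑ i, (h i - h i₀) * u i = ∑ i, h i * u i - h i₀ * ∑ i, u i := by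
      rw [Finset.mul_sum, ← Finset.sum_sub_distrib]
      exact Finset.sum_congr rfl fun i _ => by ring
    rw [e1, hu, mul_zero, sub_zero, ← Finset.sum_sub_distrib]
    exact Finset.sum_congr rfl fun i _ => by simp only [hh]; ring
  have hlow : -(n * δ * ∑ i, |u i|) ≤ ∑ i, (h i - h i₀) * u i := by
    rw [Finset.mul_sum, ← Finset.sum_neg_distrib]
    refine Finset.sum_le_sum fun i _ => ?_
    have e1 : 0 ≤ h i - h i₀ := sub_nonneg.mpr (hi₀' i)
    have e2 : h i - h i₀ ≤ n * δ := by have := hspread i; linarith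
    have e3 : -(|u i|) ≤ u i := neg_abs_le _
    have e4 : 0 ≤ |u i| := abs_nonneg _
    nlinarith [mul_le_mul_of_nonneg_right e2 e4, mul_nonneg e1 (by linarith : 0 ≤ u i + |u i|)]
  have hfinal : n * δ * ∑ i, |u i| ≤ η := by
    have e1 : n * δ * A = η := by
      rw [hδdef]
      field_simp
    have e2 : n * δ * ∑ i, |u i| ≤ n * δ * A :=
      mul_le_mul_of_nonneg_left (by linarith) (by positivity)
    linarith
  linarith

end Vale.Agent.P074
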