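import Vale.Agent.P074.Defs

/-!
Prékopa–Leindler inequality, midpoint form, in `ℝ^d`.
-/

open MeasureTheory Set
open scoped ENNReal NNReal

namespace Vale.Agent.P074

namespace PL

theorem vol_half (S : Set ℝ) (c : ℝ) : volume ((fun x => (x + c) / 2) '' S) = volume S / 2 := by
  have h1 : (fun x : ℝ => (x + c) / 2) '' S = AffineMap.homothety c (1 / 2 : ℝ) '' S := by
    refine image_congr fun x _ => ?_
    simp [AffineMap.homothety_apply]
    ring
  rw [h1, Measure.addHaar_image_homothety]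
  simp only [Module.finrank_self, pow_one]
  rw [abs_of_pos (by norm_num), ENNReal.div_eq_inv_mul]
  congr 1
  rw [one_div, ENNReal.ofReal_inv_of_pos (by norm_num)]
  simp

/-- Compact case of one-dimensional Brunn–Minkowski. -/
theorem compact_add_le {K L : Set ℝ} {C : Set ℝ} (hK : IsCompact K) (hL : IsCompact L)
    (hKn : K.Nonempty) (hLn : L.Nonempty)
    (H : ∀ a ∈ K, ∀ b ∈ L, (a + b) / 2 ∈ C) :
    volume K + volume L ≤ 2 * volume C := by
  obtain ⟨a1, ha1K, ha1⟩ := hK.exists_isGreatest hKn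
  obtain ⟨b0, hb0L, hb0⟩ := hL.exists_isLeast hLn
  set A : Set ℝ := (fun x => (x + b0) / 2) '' K with hA
  set B : Set ℝ := (fun x => (x + a1) / 2) '' L with hB
  have hAC : A ∪ B ⊆ C := by
    rintro z (⟨x, hx, rfl⟩ | ⟨x, hx, rfl⟩)
    · exact H x hx b0 hb0L
    · have := H a1 ha1K x hx
      rwa [add_comm] at this
  have hBm : MeasurableSet B := (hL.image (by fun_prop)).measurableSet
  have hdisj : AEDisjoint volume A B := by
    have : A ∩ B ⊆ {(a1 + b0) / 2} := by
      rintro z ⟨⟨x, hx, rfl⟩, ⟨y, hy, hxy⟩⟩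
      have h1 := ha1 hx
      have h2 := hb0 hy
      simp only [mem_singleton_iff]
      simp only at hxy ⊢
      linarith
    exact measure_mono_null this (by simp)
  have h3 : volume A + volume B ≤ volume C := by
    rw [← measure_union₀ hBm.nullMeasurableSet hdisj]
    exact measure_mono hAC
  rw [hA, hB, vol_half, vol_half] at h3
  calc volume K + volume L = 2 * (volume K / 2 + volume L / 2) := by
        rw [mul_add, ENNReal.mul_div_cancel (by norm_num) (by norm_num),
          ENNReal.mul_div_cancel (by norm_num) (by norm_num)]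
    _ ≤ 2 * volume C := by gcongr

/-- One-dimensional Brunn–Minkowski. -/
theorem add_le {A B : Set ℝ} {C : Set ℝ} (hA : MeasurableSet A) (hB : MeasurableSet B)
    (hAn : A.Nonempty) (hBn : B.Nonempty)
    (H : ∀ a ∈ A, ∀ b ∈ B, (a + b) / 2 ∈ C) :
    volume A + volume B ≤ 2 * volume C := by
  obtain ⟨a, ha⟩ := hAn
  obtain ⟨b, hb⟩ := hBn
  have key : ∀ K ⊆ A, IsCompact K → ∀ L ⊆ B, IsCompact L →
      volume K + volume L ≤ 2 * volume C := by
    intro K hKA hK L hLB hL
    calc volume K + volume L ≤ volume (insert a K) + volume (insert b L) := by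
          gcongr <;> exact subset_insert _ _
      _ ≤ 2 * volume C := by
          refine compact_add_le (hK.insert a) (hL.insert b) (insert_nonempty _ _)
            (insert_nonempty _ _) fun x hx y hy => H x ?_ y ?_
          · rcases hx with rfl | hx
            · exact ha
            · exact hKA hx
          · rcases hy with rfl | hy
            · exact hb
            · exact hLB hy
  have h1 : ∀ L ⊆ B, IsCompact L → volume A + volume L ≤ 2 * volume C := by
    intro L hLB hL
    have hL' : volume L ≤ 2 * volume C := by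
      simpa using key ∅ (empty_subset _) isCompact_empty L hLB hL
    have h2 : volume A ≤ 2 * volume C - volume L := by
      rw [hA.measure_eq_iSup_isCompact]
      refine iSup₂_le fun K hK => iSup_le fun hKc => ?_
      exact ENNReal.le_sub_of_add_le_right hL.measure_lt_top.ne (key K hK hKc L hLB hL)
    calc volume A + volume L ≤ (2 * volume C - volume L) + volume L := by gcongr
      _ = 2 * volume C := tsub_add_cancel_of_le hL'
  have hA' : volume A ≤ 2 * volume C := by
    simpa using h1 ∅ (empty_subset _) isCompact_empty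
  rcases eq_or_ne (volume A) ⊤ with hAt | hAt
  · rw [hAt, top_le_iff] at hA'
    rw [hA']; exact le_top
  have h2 : volume B ≤ 2 * volume C - volume A := by
    rw [hB.measure_eq_iSup_isCompact]
    refine iSup₂_le fun L hL => iSup_le fun hLc => ?_
    exact ENNReal.le_sub_of_add_le_left hAt (h1 L hL hLc)
  calc volume A + volume B ≤ volume A + (2 * volume C - volume A) := by gcongr
    _ = 2 * volume C := add_tsub_cancel_of_le hA'

/-- Normalised one-dimensional inequality. -/
theorem real_norm {f g h : ℝ → ℝ} (hf : Measurable f) (hg : Measurable g) (hh : Measurable h)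
    (f0 : ∀ x, 0 ≤ f x) (g0 : ∀ x, 0 ≤ g x) (h0 : ∀ x, 0 ≤ h x)
    (f1 : ∀ x, f x ≤ 1) (g1 : ∀ x, g x ≤ 1)
    (fs : ∀ t < 1, ∃ x, t < f x) (gs : ∀ t < 1, ∃ x, t < g x)
    (H : ∀ x x', f x * g x' ≤ h ((x + x') / 2) ^ 2) :
    (∫⁻ x, ENNReal.ofReal (f x)) + (∫⁻ x, ENNReal.ofReal (g x)) ≤
      2 * ∫⁻ x, ENNReal.ofReal (h x) := by
  rw [lintegral_eq_lintegral_meas_lt volume (Filter.Eventually.of_forall f0) hf.aemeasurable,
    lintegral_eq_lintegral_meas_lt volume (Filter.Eventually.of_forall g0) hg.aemeasurable,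
    lintegral_eq_lintegral_meas_lt volume (Filter.Eventually.of_forall h0) hh.aemeasurable]
  have hanti : ∀ u : ℝ → ℝ, Measurable fun t : ℝ => volume {a | t < u a} := by
    intro u
    have : Antitone fun t : ℝ => volume {a | t < u a} := fun s t hst =>
      measure_mono fun a ha => lt_of_le_of_lt hst ha
    exact this.measurable
  rw [← lintegral_add_left (hanti f), ← lintegral_const_mul _ (hanti h)]
  refine setLIntegral_mono' measurableSet_Ioi fun t ht => ?_
  rw [mem_Ioi] at ht
  rcases lt_or_ge t 1 with h1 | h1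
  · refine add_le (measurableSet_lt measurable_const hf) (measurableSet_lt measurable_const hg)
      (fs t h1) (gs t h1) fun a ha b hb => ?_
    simp only [mem_ofPred_eq] at ha hb ⊢
    by_contra hcon
    rw [not_lt] at hcon
    have h2 := H a b
    have h3 : t * t < f a * g b := mul_lt_mul'' ha hb ht.le ht.le
    have h4 : h ((a + b) / 2) ^ 2 ≤ t ^ 2 := by
      have := h0 ((a + b) / 2)
      gcongr
    nlinarith
  · have e1 : {a | t < f a} = ∅ := by
      ext a; simp; exact (f1 a).trans h1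
    have e2 : {a | t < g a} = ∅ := by
      ext a; simp; exact (g1 a).trans h1
    rw [e1, e2]
    simp

theorem amgm {u v w : ℝ≥0∞} (h : u + v ≤ 2 * w) : u * v ≤ w ^ 2 := by
  rcases eq_or_ne w ⊤ with rfl | hw
  · simp
  have hfin : 2 * w ≠ ⊤ := ENNReal.mul_ne_top (by norm_num) hw
  have hu : u ≠ ⊤ := ne_top_of_le_ne_top hfin (le_self_add.trans h)
  have hv : v ≠ ⊤ := ne_top_of_le_ne_top hfin (le_add_self.trans h)
  lift u to ℝ≥0 using hu
  lift v to ℝ≥0 using hv
  lift w to ℝ≥0 using hw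
  norm_cast at h ⊢
  have h' : (u : ℝ) + v ≤ 2 * w := by exact_mod_cast h
  have : (u : ℝ) * v ≤ w ^ 2 := by
    have := u.2; have := v.2
    nlinarith [sq_nonneg ((u : ℝ) - v), sq_nonneg ((u : ℝ) + v - 2 * w)]
  exact_mod_cast this

theorem lt_toReal {r : ℝ} {y : ℝ≥0∞} (hy : y ≠ ⊤) (h : ENNReal.ofReal r < y) : r < y.toReal := by
  by_contra hcon
  rw [not_lt] at hcon
  have := ENNReal.ofReal_le_ofReal hcon
  rw [ENNReal.ofReal_toReal hy] at this
  exact absurd h (not_lt.2 this)

/-- Bounded one-dimensional case. -/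
theorem bdd {f g h : ℝ → ℝ≥0∞} (hf : Measurable f) (hg : Measurable g) (hh : Measurable h)
    (k : ℝ≥0) (hfk : ∀ x, f x ≤ k) (hgk : ∀ x, g x ≤ k)
    (H : ∀ x x', f x * g x' ≤ h ((x + x') / 2) ^ 2) :
    (∫⁻ x, f x) * (∫⁻ x, g x) ≤ (∫⁻ x, h x) ^ 2 := by
  set a : ℝ≥0∞ := ⨆ x, f x with ha
  set b : ℝ≥0∞ := ⨆ x, g x with hb
  have hfa : ∀ x, f x ≤ a := fun x => le_iSup f x
  have hgb : ∀ x, g x ≤ b := fun x => le_iSup g x
  have hak : a ≠ ⊤ := ne_top_of_le_ne_top ENNReal.coe_ne_top (iSup_le hfk)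
  have hbk : b ≠ ⊤ := ne_top_of_le_ne_top ENNReal.coe_ne_top (iSup_le hgk)
  rcases eq_or_ne a 0 with ha0 | ha0
  · have : ∀ x, f x = 0 := fun x => le_antisymm (ha0 ▸ hfa x) bot_le
    simp [this]
  rcases eq_or_ne b 0 with hb0 | hb0
  · have : ∀ x, g x = 0 := fun x => le_antisymm (hb0 ▸ hgb x) bot_le
    simp [this]
  have hfx : ∀ x, f x ≠ ⊤ := fun x => ne_top_of_le_ne_top hak (hfa x)
  have hgx : ∀ x, g x ≠ ⊤ := fun x => ne_top_of_le_ne_top hbk (hgb x)
  set A : ℝ := a.toReal with hA
  set B : ℝ := b.toReal with hB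
  have hA0 : 0 < A := ENNReal.toReal_pos ha0 hak
  have hB0 : 0 < B := ENNReal.toReal_pos hb0 hbk
  have haA : ENNReal.ofReal A = a := ENNReal.ofReal_toReal hak
  have hbB : ENNReal.ofReal B = b := ENNReal.ofReal_toReal hbk
  set c : ℝ := √(A * B) with hc
  have hc0 : 0 < c := Real.sqrt_pos.2 (by positivity)
  have hcc : c ^ 2 = A * B := Real.sq_sqrt (by positivity)
  have hcE : ENNReal.ofReal c ^ 2 = a * b := by
    rw [← ENNReal.ofReal_pow hc0.le, hcc, ENNReal.ofReal_mul hA0.le, haA, hbB]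
  have hcE0 : ENNReal.ofReal c ≠ 0 := by simpa using hc0
  have key := real_norm (f := fun x => (f x).toReal / A) (g := fun x => (g x).toReal / B)
    (h := fun x => (min (h x) (ENNReal.ofReal c)).toReal / c)
    (by fun_prop) (by fun_prop) (by fun_prop)
    (fun x => by positivity) (fun x => by positivity) (fun x => by positivity)
    (fun x => by
      rw [div_le_one hA0]
      exact ENNReal.toReal_mono hak (hfa x))
    (fun x => by
      rw [div_le_one hB0]
      exact ENNReal.toReal_mono hbk (hgb x))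
    (fun t ht => by
      have h1 : ENNReal.ofReal (t * A) < a := by
        rw [← haA]
        exact (ENNReal.ofReal_lt_ofReal_iff hA0).2 (by nlinarith)
      obtain ⟨x, hx⟩ := lt_iSup_iff.1 h1
      refine ⟨x, ?_⟩
      rw [lt_div_iff₀ hA0]
      exact lt_toReal (hfx x) hx)
    (fun t ht => by
      have h1 : ENNReal.ofReal (t * B) < b := by
        rw [← hbB]
        exact (ENNReal.ofReal_lt_ofReal_iff hB0).2 (by nlinarith)
      obtain ⟨x, hx⟩ := lt_iSup_iff.1 h1
      refine ⟨x, ?_⟩
      rw [lt_div_iff₀ hB0]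
      exact lt_toReal (hgx x) hx)
    (fun x x' => by
      have h1 : f x * g x' ≤ (min (h ((x + x') / 2)) (ENNReal.ofReal c)) ^ 2 := by
        rcases le_total (h ((x + x') / 2)) (ENNReal.ofReal c) with h2 | h2
        · rw [min_eq_left h2]; exact H x x'
        · rw [min_eq_right h2, hcE]
          exact mul_le_mul' (hfa x) (hgb x')
      have h3 : (f x).toReal * (g x').toReal ≤
          (min (h ((x + x') / 2)) (ENNReal.ofReal c)).toReal ^ 2 := by
        rw [← ENNReal.toReal_mul, ← ENNReal.toReal_pow]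
        refine ENNReal.toReal_mono (ENNReal.pow_ne_top ?_) h1
        exact ne_top_of_le_ne_top ENNReal.ofReal_ne_top (min_le_right _ _)
      rw [div_mul_div_comm, div_pow, hcc]
      gcongr)
  have e1 : (∫⁻ x, ENNReal.ofReal ((f x).toReal / A)) = (∫⁻ x, f x) / a := by
    rw [ENNReal.div_eq_inv_mul, ← lintegral_const_mul _ hf]
    refine lintegral_congr fun x => ?_
    rw [ENNReal.ofReal_div_of_pos hA0, haA, ENNReal.ofReal_toReal (hfx x),
      ENNReal.div_eq_inv_mul]
  have e2 : (∫⁻ x, ENNReal.ofReal ((g x).toReal / B)) = (∫⁻ x, g x) / b := by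
    rw [ENNReal.div_eq_inv_mul, ← lintegral_const_mul _ hg]
    refine lintegral_congr fun x => ?_
    rw [ENNReal.ofReal_div_of_pos hB0, hbB, ENNReal.ofReal_toReal (hgx x),
      ENNReal.div_eq_inv_mul]
  have e3 : (∫⁻ x, ENNReal.ofReal ((min (h x) (ENNReal.ofReal c)).toReal / c)) ≤
      (∫⁻ x, h x) / ENNReal.ofReal c := by
    rw [ENNReal.div_eq_inv_mul, ← lintegral_const_mul _ hh]
    refine lintegral_mono fun x => ?_
    rw [ENNReal.ofReal_div_of_pos hc0, ENNReal.ofReal_toReal
      (ne_top_of_le_ne_top ENNReal.ofReal_ne_top (min_le_right _ _)), ENNReal.div_eq_inv_mul]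
    gcongr
    exact min_le_left _ _
  have h4 : (∫⁻ x, f x) / a + (∫⁻ x, g x) / b ≤ 2 * ((∫⁻ x, h x) / ENNReal.ofReal c) := by
    rw [← e1, ← e2]
    exact key.trans (by gcongr)
  have h5 := amgm h4
  have h6 : (∫⁻ x, f x) * (∫⁻ x, g x) = a * b * ((∫⁻ x, f x) / a * ((∫⁻ x, g x) / b)) := by
    rw [mul_mul_mul_comm, ENNReal.mul_div_cancel ha0 hak, ENNReal.mul_div_cancel hb0 hbk]
  rw [h6]
  calc _ ≤ a * b * ((∫⁻ x, h x) / ENNReal.ofReal c) ^ 2 := by gcongr
    _ = (ENNReal.ofReal c * ((∫⁻ x, h x) / ENNReal.ofReal c)) ^ 2 := by rw [mul_pow, hcE]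
    _ = (∫⁻ x, h x) ^ 2 := by rw [ENNReal.mul_div_cancel hcE0 ENNReal.ofReal_ne_top]

/-- One-dimensional case. -/
theorem real {f g h : ℝ → ℝ≥0∞} (hf : Measurable f) (hg : Measurable g) (hh : Measurable h)
    (H : ∀ x x', f x * g x' ≤ h ((x + x') / 2) ^ 2) :
    (∫⁻ x, f x) * (∫⁻ x, g x) ≤ (∫⁻ x, h x) ^ 2 := by
  have trunc : ∀ u : ℝ → ℝ≥0∞, Measurable u →
      ∫⁻ x, u x = ⨆ k : ℕ, ∫⁻ x, min (u x) k := by
    intro u hu
    rw [← lintegral_iSup (fun k => by fun_prop)]
    · refine lintegral_congr fun x => ?_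
      refine le_antisymm ?_ (iSup_le fun k => min_le_left _ _)
      refine le_of_forall_lt fun r hr => ?_
      obtain ⟨n, hn⟩ := ENNReal.exists_nat_gt (ne_top_of_lt hr)
      exact lt_of_lt_of_le (lt_min hr hn) (le_iSup (fun k : ℕ => min (u x) k) n)
    · intro i j hij x
      exact min_le_min le_rfl (by exact_mod_cast hij)
  rw [trunc f hf, trunc g hg]
  simp only [ENNReal.iSup_mul, ENNReal.mul_iSup]
  refine iSup_le fun k => iSup_le fun l => ?_
  refine bdd (by fun_prop) (by fun_prop) hh ((max k l : ℕ) : ℝ≥0) (fun x => ?_) (fun x => ?_)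
    fun x x' => ?_
  · refine (min_le_right _ _).trans ?_
    simp
  · refine (min_le_right _ _).trans ?_
    simp
  · exact (mul_le_mul' (min_le_left _ _) (min_le_left _ _)).trans (H x x')

/-- The inequality in `Fin d → ℝ`. -/
theorem pi (d : ℕ) : ∀ {f g h : (Fin d → ℝ) → ℝ≥0∞}, Measurable f → Measurable g →
    Measurable h → (∀ x x', f x * g x' ≤ h ((1 / 2 : ℝ) • (x + x')) ^ 2) →
    (∫⁻ x, f x) * (∫⁻ x, g x) ≤ (∫⁻ x, h x) ^ 2 := by
  induction d with
  | zero =>
    intro f g h hf hg hh H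
    have e : ∀ u : (Fin 0 → ℝ) → ℝ≥0∞, ∫⁻ x, u x = u 0 := by
      intro u
      have : (volume : Measure (Fin 0 → ℝ)) = Measure.dirac 0 := by
        rw [volume_pi]
        exact Measure.pi_of_empty _ _
      rw [this, lintegral_unique]
      simp only [measure_univ, mul_one]
      congr 1
      exact Subsingleton.elim _ _
    rw [e, e, e]
    have := H 0 0
    simpa using this
  | succ d ih =>
    intro f g h hf hg hh H
    have hmp := volume_preserving_piFinSuccAbove (fun _ : Fin (d + 1) => ℝ) 0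
    have hsymm : ∀ p : ℝ × (Fin d → ℝ),
        (MeasurableEquiv.piFinSuccAbove (fun _ : Fin (d + 1) => ℝ) 0).symm p =
          Fin.cons p.1 p.2 := by
      intro p
      exact Fin.insertNth_zero' p.1 p.2
    have e : ∀ u : (Fin (d + 1) → ℝ) → ℝ≥0∞, Measurable u →
        ∫⁻ x, u x = ∫⁻ s : ℝ, ∫⁻ y : Fin d → ℝ, u (Fin.cons s y) := by
      intro u hu
      rw [← hmp.symm.lintegral_comp hu]
      rw [Measure.volume_eq_prod, lintegral_prod _ (by
        exact (hu.comp (MeasurableEquiv.measurable _)).aemeasurable)]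
      simp only [hsymm]
    have hcons : Measurable fun p : ℝ × (Fin d → ℝ) => (Fin.cons p.1 p.2 : Fin (d + 1) → ℝ) := by
      have := (MeasurableEquiv.piFinSuccAbove (fun _ : Fin (d + 1) => ℝ) 0).symm.measurable
      convert this using 1
      ext1 p
      exact (hsymm p).symm
    have hm : ∀ u : (Fin (d + 1) → ℝ) → ℝ≥0∞, Measurable u →
        Measurable fun s : ℝ => ∫⁻ y : Fin d → ℝ, u (Fin.cons s y) := by
      intro u hu
      exact (hu.comp hcons).lintegral_prod_right'
    have hs : ∀ u : (Fin (d + 1) → ℝ) → ℝ≥0∞, Measurable u → ∀ s : ℝ,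
        Measurable fun y : Fin d → ℝ => u (Fin.cons s y) := by
      intro u hu s
      exact (hu.comp hcons).comp (measurable_const.prodMk measurable_id)
    rw [e f hf, e g hg, e h hh]
    refine real (hm f hf) (hm g hg) (hm h hh) fun s s' => ?_
    refine ih (hs f hf s) (hs g hg s') (hs h hh _) fun y y' => ?_
    refine (H _ _).trans (le_of_eq ?_)
    congr 2
    ext i
    refine Fin.cases ?_ (fun j => ?_) i
    · simp; ring
    · simp; ring

end PL

theorem prekopa_leindler_half {d : ℕ} {f g h : E d → ℝ≥0∞} (hf : Measurable f)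
    (hg : Measurable g) (hh : Measurable h)
    (H : ∀ x x', f x * g x' ≤ h ((1 / 2 : ℝ) • (x + x')) ^ 2) :
    (∫⁻ x, f x) * (∫⁻ x, g x) ≤ (∫⁻ x, h x) ^ 2 := by
  have e : ∀ u : E d → ℝ≥0∞, Measurable u →
      ∫⁻ x, u x = ∫⁻ y : Fin d → ℝ, u (WithLp.toLp 2 y) := by
    intro u hu
    exact ((PiLp.volume_preserving_toLp (Fin d)).lintegral_comp hu).symm
  have hT : Measurable (fun y : Fin d → ℝ => (WithLp.toLp 2 y : E d)) :=
    (PiLp.volume_preserving_toLp (Fin d)).measurable
  rw [e f hf, e g hg, e h hh]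
  refine PL.pi d (hf.comp hT) (hg.comp hT) (hh.comp hT) fun x x' => ?_
  exact H _ _

end Vale.Agent.P074
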