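import Vale.Agent.P074.LagGeom
import Vale.Agent.P074.FinMaps

/-!
From the weights to the potentials (task P074-C8).
-/

open MeasureTheory Set
open scoped ENNReal NNReal

namespace Vale.Agent.P074

theorem integral_pot_sub_sq_le {d : ℕ} {ι : Type} [Fintype ι] [Nonempty ι] {K : Set (E d)}
    (hK : IsCompact K) (hKi : (interior K).Nonempty) {R : ℝ} (hKR : K ⊆ Metric.closedBall 0 R)
    {y z : ι → E d} (hy : Function.Injective y) (hz : Function.Injective z) {ψ χ : ι → ℝ}
    (hmass : ∀ i, mass K z χ i = mass K y ψ i) (c : ℝ) :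
    ∫ x, (pot y ψ x - pot z χ x - c) ^ 2 ∂(unif K) ≤
      4 * R ^ 2 * ∑ i, mass K y ψ i * ‖z i - y i‖ ^ 2 +
        4 * ∑ i, mass K y ψ i * (χ i - ψ i - c) ^ 2 := by
  have hvol : volume K ≠ 0 :=
    ((isOpen_interior.measure_pos volume hKi).trans_le (measure_mono interior_subset)).ne'
  haveI hρ : IsProbabilityMeasure (unif K) := by
    constructor
    unfold unif
    rw [Measure.smul_apply, Measure.restrict_apply_univ, smul_eq_mul,
      ENNReal.inv_mul_cancel hvol hK.measure_lt_top.ne]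
  have haeK : ∀ᵐ x ∂(unif K), x ∈ K := by
    have h1 : ∀ᵐ x ∂((volume : Measure (E d)).restrict K), x ∈ K :=
      ae_restrict_mem hK.measurableSet
    unfold unif
    exact Measure.ae_smul_measure h1 _
  obtain ⟨τ, hτm, hτ⟩ := exists_selection y ψ
  obtain ⟨τ', hτ'm, hτ'⟩ := exists_selection z χ
  have hτmass : ∀ i, (unif K).real (τ ⁻¹' {i}) = mass K y ψ i :=
    fun i => unif_selection hK hy ψ hτm hτ i
  have hτ'mass : ∀ i, (unif K).real (τ' ⁻¹' {i}) = mass K y ψ i :=
    fun i => by rw [unif_selection hK hz χ hτ'm hτ' i, hmass i]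
  set a : ι → ℝ := fun i => (R * ‖z i - y i‖ + |χ i - ψ i - c|) ^ 2 with ha
  have hpoint : ∀ x ∈ K, (pot y ψ x - pot z χ x - c) ^ 2 ≤ a (τ x) + a (τ' x) := by
    intro x hx
    have hxn : ‖x‖ ≤ R := by simpa using hKR hx
    have hR : 0 ≤ R := (norm_nonneg x).trans hxn
    have h1 : pot y ψ x ≤ inner ℝ x (y (τ x)) - ψ (τ x) := ciSup_le (hτ x)
    have h2 : pot z χ x ≤ inner ℝ x (z (τ' x)) - χ (τ' x) := ciSup_le (hτ' x)
    have h3 := le_pot z χ x (τ x)
    have h4 := le_pot y ψ x (τ' x)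
    have h5 : ∀ i, |inner ℝ x (z i) - inner ℝ x (y i)| ≤ R * ‖z i - y i‖ := by
      intro i
      rw [← inner_sub_right]
      exact (abs_real_inner_le_norm _ _).trans (mul_le_mul_of_nonneg_right hxn (norm_nonneg _))
    have h6 := abs_le.1 (h5 (τ x))
    have h7 := abs_le.1 (h5 (τ' x))
    have h8 := abs_le.1 (le_refl |χ (τ x) - ψ (τ x) - c|)
    have h9 := abs_le.1 (le_refl |χ (τ' x) - ψ (τ' x) - c|)
    set A := R * ‖z (τ x) - y (τ x)‖ + |χ (τ x) - ψ (τ x) - c| with hA
    set B := R * ‖z (τ' x) - y (τ' x)‖ + |χ (τ' x) - ψ (τ' x) - c| with hB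
    have hA0 : 0 ≤ A := by positivity
    have hB0 : 0 ≤ B := by positivity
    have u1 : pot y ψ x - pot z χ x - c ≤ A := by linarith [h6.1, h6.2, h8.1, h8.2]
    have u2 : -B ≤ pot y ψ x - pot z χ x - c := by linarith [h7.1, h7.2, h9.1, h9.2]
    show (pot y ψ x - pot z χ x - c) ^ 2 ≤ A ^ 2 + B ^ 2
    rcases le_total 0 (pot y ψ x - pot z χ x - c) with h | h
    · nlinarith
    · nlinarith
  have ia : Integrable (fun x => a (τ x)) (unif K) := by
    refine Integrable.of_bound (C := ∑ i, |a i|)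
      (measurable_comp_fin hτm a).aestronglyMeasurable (Filter.Eventually.of_forall fun x => ?_)
    exact Finset.single_le_sum (f := fun i => |a i|) (fun i _ => abs_nonneg _)
      (Finset.mem_univ (τ x))
  have ia' : Integrable (fun x => a (τ' x)) (unif K) := by
    refine Integrable.of_bound (C := ∑ i, |a i|)
      (measurable_comp_fin hτ'm a).aestronglyMeasurable (Filter.Eventually.of_forall fun x => ?_)
    exact Finset.single_le_sum (f := fun i => |a i|) (fun i _ => abs_nonneg _)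
      (Finset.mem_univ (τ' x))
  have step1 : ∫ x, (pot y ψ x - pot z χ x - c) ^ 2 ∂(unif K) ≤
      ∫ x, (a (τ x) + a (τ' x)) ∂(unif K) := by
    refine integral_mono_of_nonneg (Filter.Eventually.of_forall fun x => sq_nonneg _)
      (ia.add ia') ?_
    filter_upwards [haeK] with x hx using hpoint x hx
  refine step1.trans ?_
  rw [integral_add ia ia', integral_comp_fin hτm a, integral_comp_fin hτ'm a]
  have step2 : ∀ i, mass K y ψ i * a i ≤
      2 * R ^ 2 * (mass K y ψ i * ‖z i - y i‖ ^ 2) +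
        2 * (mass K y ψ i * (χ i - ψ i - c) ^ 2) := by
    intro i
    have hm := mass_nonneg K y ψ i
    have h1 : a i ≤ 2 * (R * ‖z i - y i‖) ^ 2 + 2 * (χ i - ψ i - c) ^ 2 := by
      have h2 : |χ i - ψ i - c| ^ 2 = (χ i - ψ i - c) ^ 2 := sq_abs _
      have h3 : a i = (R * ‖z i - y i‖ + |χ i - ψ i - c|) ^ 2 := rfl
      rw [h3, ← h2]
      nlinarith [sq_nonneg (R * ‖z i - y i‖ - |χ i - ψ i - c|)]
    calc mass K y ψ i * a i ≤ mass K y ψ i * (2 * (R * ‖z i - y i‖) ^ 2 +
          2 * (χ i - ψ i - c) ^ 2) := mul_le_mul_of_nonneg_left h1 hm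
      _ = _ := by ring
  have e1 : ∑ i, (unif K).real (τ ⁻¹' {i}) * a i = ∑ i, mass K y ψ i * a i :=
    Finset.sum_congr rfl fun i _ => by rw [hτmass i]
  have e2 : ∑ i, (unif K).real (τ' ⁻¹' {i}) * a i = ∑ i, mass K y ψ i * a i :=
    Finset.sum_congr rfl fun i _ => by rw [hτ'mass i]
  rw [e1, e2]
  have step3 : ∑ i, mass K y ψ i * a i ≤
      2 * R ^ 2 * ∑ i, mass K y ψ i * ‖z i - y i‖ ^ 2 +
        2 * ∑ i, mass K y ψ i * (χ i - ψ i - c) ^ 2 := by
    rw [Finset.mul_sum, Finset.mul_sum, ← Finset.sum_add_distrib]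
    exact Finset.sum_le_sum fun i _ => step2 i
  linarith

end Vale.Agent.P074
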