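import Vale.Agent.P074.Defs

/-! P074: convex potentials of quadratic optimal maps from the uniform measure. -/

open MeasureTheory Set Filter Topology Metric
open scoped ENNReal NNReal RealInnerProductSpace

namespace Vale.Agent.P074

namespace Pot

variable {d : ℕ}

/-- the rearrangement exchanging the balls `closedBall (w i) r` -/
noncomputable def tau {n : ℕ} (w : Fin n → E d) (r : ℝ) (π : Equiv.Perm (Fin n)) (x : E d) : E d :=
  x + ∑ i, (closedBall (w i) r).indicator (fun _ => w (π i) - w i) x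

lemma tau_measurable {n : ℕ} (w : Fin n → E d) (r : ℝ) (π : Equiv.Perm (Fin n)) :
    Measurable (tau w r π) := by
  unfold tau
  refine measurable_id.add (Finset.measurable_fun_sum _ fun i _ => ?_)
  exact measurable_const.indicator isClosed_closedBall.measurableSet

lemma tau_on {n : ℕ} {w : Fin n → E d} {r : ℝ} (π : Equiv.Perm (Fin n))
    (hdisj : Pairwise fun i j => Disjoint (closedBall (w i) r) (closedBall (w j) r)) {i : Fin n}
    {x : E d} (hx : x ∈ closedBall (w i) r) : tau w r π x = x + (w (π i) - w i) := by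
  unfold tau
  rw [Finset.sum_eq_single i]
  · rw [indicator_of_mem hx]
  · intro j _ hj
    exact indicator_of_notMem (fun h => (Set.disjoint_left.mp (hdisj hj)) h hx) _
  · intro h; exact absurd (Finset.mem_univ i) h

lemma tau_off {n : ℕ} {w : Fin n → E d} {r : ℝ} (π : Equiv.Perm (Fin n))
    {x : E d} (hx : x ∉ ⋃ i, closedBall (w i) r) : tau w r π x = x := by
  unfold tau
  rw [Finset.sum_eq_zero, add_zero]
  intro i _
  exact indicator_of_notMem (fun h => hx (mem_iUnion.mpr ⟨i, h⟩)) _

lemma decomp {n : ℕ} {w : Fin n → E d} {r : ℝ} {K : Set (E d)} 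
    (hdisj : Pairwise fun i j => Disjoint (closedBall (w i) r) (closedBall (w j) r))
    (hsub : ∀ i, closedBall (w i) r ⊆ K) {S : Set (E d)} (hS : MeasurableSet S) :
    volume (S ∩ K) = volume (S ∩ (K \ ⋃ i, closedBall (w i) r)) +
      ∑ i, volume (S ∩ closedBall (w i) r) := by
  have hU : MeasurableSet (⋃ i, closedBall (w i) r) :=
    MeasurableSet.iUnion fun i => isClosed_closedBall.measurableSet
  rw [← measure_sdiff_add_inter (S ∩ K) hU]
  congr 1
  · congr 1
    ext x
    simp only [Set.mem_sdiff, mem_inter_iff]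
    tauto
  · have h1 : S ∩ K ∩ ⋃ i, closedBall (w i) r = ⋃ i, S ∩ closedBall (w i) r := by
      ext x
      simp only [mem_inter_iff, mem_iUnion]
      constructor
      · rintro ⟨⟨h1, _⟩, i, h2⟩
        exact ⟨i, h1, h2⟩
      · rintro ⟨i, h1, h2⟩
        exact ⟨⟨h1, hsub i h2⟩, i, h2⟩
    rw [h1, measure_iUnion]
    · exact tsum_fintype _
    · intro i j hij
      exact (hdisj hij).mono inter_subset_right inter_subset_right
    · intro i
      exact hS.inter isClosed_closedBall.measurableSet

lemma tau_mp {n : ℕ} {w : Fin n → E d} {r : ℝ} (π : Equiv.Perm (Fin n)) {K : Set (E d)}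
    (hdisj : Pairwise fun i j => Disjoint (closedBall (w i) r) (closedBall (w j) r))
    (hsub : ∀ i, closedBall (w i) r ⊆ K) :
    MeasurePreserving (tau w r π) (volume.restrict K) (volume.restrict K) := by
  refine ⟨tau_measurable w r π, ?_⟩
  ext A hA
  rw [Measure.map_apply (tau_measurable w r π) hA,
    Measure.restrict_apply (tau_measurable w r π hA), Measure.restrict_apply hA,
    decomp hdisj hsub (tau_measurable w r π hA), decomp hdisj hsub hA]
  congr 1
  · congr 1
    ext x
    simp only [mem_inter_iff, mem_preimage, Set.mem_sdiff]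
    constructor
    · rintro ⟨h1, h2, h3⟩
      rw [tau_off π h3] at h1
      exact ⟨h1, h2, h3⟩
    · rintro ⟨h1, h2, h3⟩
      rw [tau_off π h3]
      exact ⟨h1, h2, h3⟩
  · rw [← Equiv.sum_comp π (fun i => volume (A ∩ closedBall (w i) r))]
    refine Finset.sum_congr rfl fun i _ => ?_
    have h1 : tau w r π ⁻¹' A ∩ closedBall (w i) r =
        (fun x => x + (w (π i) - w i)) ⁻¹' (A ∩ closedBall (w (π i)) r) := by
      ext x
      simp only [mem_inter_iff, mem_preimage, mem_closedBall, dist_eq_norm]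
      have h2 : x + (w (π i) - w i) - w (π i) = x - w i := by abel
      rw [h2]
      constructor
      · rintro ⟨h3, h4⟩
        rw [tau_on π hdisj (mem_closedBall.mpr (by rw [dist_eq_norm]; exact h4))] at h3
        exact ⟨h3, h4⟩
      · rintro ⟨h3, h4⟩
        rw [tau_on π hdisj (mem_closedBall.mpr (by rw [dist_eq_norm]; exact h4))]
        exact ⟨h3, h4⟩
    rw [h1, measure_preimage_add_right]

lemma integrable_of_bdd {F : Type*} [NormedAddCommGroup F] {m : Measure (E d)} [IsFiniteMeasure m]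
    {f : E d → F} (hf : AEStronglyMeasurable f m) (C : ℝ) (hC : ∀ᵐ x ∂m, ‖f x‖ ≤ C) :
    Integrable f m :=
  Integrable.of_bound hf C hC

/-- consequence of optimality for the rearranged map -/
lemma opt_ineq {n : ℕ} {w : Fin n → E d} {r : ℝ} (π : Equiv.Perm (Fin n)) {K : Set (E d)}
    (hK : IsCompact K) (hKi : (interior K).Nonempty)
    (hdisj : Pairwise fun i j => Disjoint (closedBall (w i) r) (closedBall (w j) r))
    (hsub : ∀ i, closedBall (w i) r ⊆ K) {R : ℝ≥0} {μ : Measure (E d)} {T : E d → E d}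
    (hT : IsOptimalMap (unif K) μ T) (hR : ∀ x, ‖T x‖ ≤ R) :
    0 ≤ ∑ i, ⟪w (π i) - w i, ∫ y in closedBall (w (π i)) r, T y⟫ := by
  obtain ⟨hTm, hTμ, hTopt⟩ := hT
  have hmp := tau_mp π hdisj hsub
  have hKm : MeasurableSet K := hK.isClosed.measurableSet
  have hfin : volume K < ∞ := hK.measure_lt_top
  have hpos : 0 < volume K :=
    (isOpen_interior.measure_pos volume hKi).trans_le (measure_mono interior_subset)
  have : IsFiniteMeasure (volume.restrict K) := ⟨by rw [Measure.restrict_apply_univ]; exact hfin⟩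
  set m : Measure (E d) := volume.restrict K with hm
  set τ := tau w r π with hτ
  have hτm : Measurable τ := tau_measurable w r π
  -- the competitor
  have hmpu : (unif K).map τ = unif K := by
    unfold unif
    rw [Measure.map_smul, hmp.map_eq]
  have hS : (unif K).map (T ∘ τ) = μ := by
    rw [← Measure.map_map hTm hτm, hmpu, hTμ]
  have h1 := hTopt (T ∘ τ) (hTm.comp hτm) hS
  have hc0 : (volume K)⁻¹ ≠ 0 := ENNReal.inv_ne_zero.mpr hfin.ne
  have hct : (volume K)⁻¹ ≠ ∞ := ENNReal.inv_ne_top.mpr hpos.ne'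
  have h2 : ∫⁻ x, ENNReal.ofReal (‖x - T x‖ ^ 2) ∂m ≤
      ∫⁻ x, ENNReal.ofReal (‖x - (T ∘ τ) x‖ ^ 2) ∂m := by
    unfold unif at h1
    rw [lintegral_smul_measure, lintegral_smul_measure] at h1
    exact (ENNReal.mul_le_mul_iff_right hc0 hct).mp h1
  -- bounds
  obtain ⟨C, hC⟩ := hK.isBounded.exists_norm_le
  have hC0 : 0 ≤ C := (norm_nonneg _).trans (hC _ (interior_subset hKi.some_mem))
  have hmem : ∀ᵐ x ∂m, x ∈ K := ae_restrict_mem hKm
  have hxT : ∀ᵐ x ∂m, ‖x‖ ≤ C := hmem.mono fun x hx => hC x hx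
  have iT : Integrable (fun x => ‖x - T x‖ ^ 2) m := by
    refine integrable_of_bdd ?_ ((C + R) ^ 2) ?_
    · exact ((measurable_id.sub hTm).norm.pow_const 2).aestronglyMeasurable
    · filter_upwards [hxT] with x hx
      rw [Real.norm_of_nonneg (by positivity)]
      gcongr
      exact (norm_sub_le _ _).trans (add_le_add hx (hR x))
  have iS : Integrable (fun x => ‖x - (T ∘ τ) x‖ ^ 2) m := by
    refine integrable_of_bdd ?_ ((C + R) ^ 2) ?_
    · exact ((measurable_id.sub (hTm.comp hτm)).norm.pow_const 2).aestronglyMeasurable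
    · filter_upwards [hxT] with x hx
      rw [Real.norm_of_nonneg (by positivity)]
      gcongr
      exact (norm_sub_le _ _).trans (add_le_add hx (hR _))
  have h3 : ∫ x, ‖x - T x‖ ^ 2 ∂m ≤ ∫ x, ‖x - (T ∘ τ) x‖ ^ 2 ∂m := by
    rw [← ofReal_integral_eq_lintegral_ofReal iT (Eventually.of_forall fun x => by positivity),
      ← ofReal_integral_eq_lintegral_ofReal iS (Eventually.of_forall fun x => by positivity)] at h2
    exact (ENNReal.ofReal_le_ofReal_iff (integral_nonneg fun x => by positivity)).mp h2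
  -- inner products
  have iN : Integrable (fun x => ‖T x‖ ^ 2) m := by
    refine integrable_of_bdd ((hTm.norm.pow_const 2).aestronglyMeasurable) ((R : ℝ) ^ 2) ?_
    refine Eventually.of_forall fun x => ?_
    rw [Real.norm_of_nonneg (by positivity)]
    gcongr
    exact hR x
  have iX : Integrable (fun x : E d => ‖x‖ ^ 2) m := by
    refine integrable_of_bdd ((measurable_norm.pow_const 2).aestronglyMeasurable) (C ^ 2) ?_
    filter_upwards [hxT] with x hx
    rw [Real.norm_of_nonneg (by positivity)]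
    gcongr
  have iI : Integrable (fun x => ⟪x, T x⟫) m := by
    refine integrable_of_bdd ((measurable_id.inner hTm).aestronglyMeasurable) (C * R) ?_
    filter_upwards [hxT] with x hx
    exact (norm_inner_le_norm _ _).trans (by gcongr; exact hR x)
  have iIS : Integrable (fun x => ⟪x, T (τ x)⟫) m := by
    refine integrable_of_bdd ((measurable_id.inner (hTm.comp hτm)).aestronglyMeasurable)
      (C * R) ?_
    filter_upwards [hxT] with x hx
    exact (norm_inner_le_norm _ _).trans (by gcongr; exact hR _)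
  have iNS : Integrable (fun x => ‖T (τ x)‖ ^ 2) m := by
    refine integrable_of_bdd (((hTm.comp hτm).norm.pow_const 2).aestronglyMeasurable)
      ((R : ℝ) ^ 2) ?_
    refine Eventually.of_forall fun x => ?_
    rw [Real.norm_of_nonneg (by positivity)]
    gcongr
    exact hR _
  have e1 : ∫ x, ‖T (τ x)‖ ^ 2 ∂m = ∫ x, ‖T x‖ ^ 2 ∂m := by
    have := integral_map (μ := m) (φ := τ) hτm.aemeasurable
      (f := fun x => ‖T x‖ ^ 2) (by rw [hmp.map_eq]; exact iN.1)
    rw [hmp.map_eq] at this
    exact this.symm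
  have e2 : ∫ x, ⟪τ x, T (τ x)⟫ ∂m = ∫ x, ⟪x, T x⟫ ∂m := by
    have := integral_map (μ := m) (φ := τ) hτm.aemeasurable
      (f := fun x => ⟪x, T x⟫) (by rw [hmp.map_eq]; exact iI.1)
    rw [hmp.map_eq] at this
    exact this.symm
  have iIT : Integrable (fun x => ⟪τ x, T (τ x)⟫) m := by
    have h : Integrable (fun x => ⟪x, T x⟫) (m.map τ) := by rw [hmp.map_eq]; exact iI
    exact h.comp_measurable hτm
  have e3 : ∫ x, ‖x - T x‖ ^ 2 ∂m = ∫ x, ‖x‖ ^ 2 ∂m - 2 * ∫ x, ⟪x, T x⟫ ∂m + ∫ x, ‖T x‖ ^ 2 ∂m := by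
    have i1 : Integrable (fun x => ‖x‖ ^ 2 - 2 * ⟪x, T x⟫) m := iX.sub (iI.const_mul 2)
    rw [← integral_const_mul, ← integral_sub iX (iI.const_mul 2), ← integral_add i1 iN]
    refine integral_congr_ae (Eventually.of_forall fun x => ?_)
    exact norm_sub_sq_real x (T x)
  have e4 : ∫ x, ‖x - (T ∘ τ) x‖ ^ 2 ∂m =
      ∫ x, ‖x‖ ^ 2 ∂m - 2 * ∫ x, ⟪x, T (τ x)⟫ ∂m + ∫ x, ‖T (τ x)‖ ^ 2 ∂m := by
    have i1 : Integrable (fun x => ‖x‖ ^ 2 - 2 * ⟪x, T (τ x)⟫) m := iX.sub (iIS.const_mul 2)
    rw [← integral_const_mul, ← integral_sub iX (iIS.const_mul 2), ← integral_add i1 iNS]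
    refine integral_congr_ae (Eventually.of_forall fun x => ?_)
    exact norm_sub_sq_real x (T (τ x))
  rw [e3, e4, e1] at h3
  have h4 : 0 ≤ ∫ x, ⟪τ x - x, T (τ x)⟫ ∂m := by
    have e5 : ∫ x, ⟪τ x - x, T (τ x)⟫ ∂m =
        ∫ x, ⟪τ x, T (τ x)⟫ ∂m - ∫ x, ⟪x, T (τ x)⟫ ∂m := by
      rw [← integral_sub iIT iIS]
      refine integral_congr_ae (Eventually.of_forall fun x => ?_)
      exact inner_sub_left _ _ _
    rw [e5, e2]
    linarith
  -- decomposition over the balls
  have h5 : ∀ x, ⟪τ x - x, T (τ x)⟫ = ∑ i, (closedBall (w i) r).indicator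
      (fun x => ⟪w (π i) - w i, T (x + (w (π i) - w i))⟫) x := by
    intro x
    by_cases hx : x ∈ ⋃ i, closedBall (w i) r
    · obtain ⟨i, hi⟩ := mem_iUnion.mp hx
      rw [Finset.sum_eq_single i]
      · rw [indicator_of_mem hi, hτ, tau_on π hdisj hi]
        congr 1
        abel
      · intro j _ hj
        exact indicator_of_notMem (fun h => (Set.disjoint_left.mp (hdisj hj)) h hi) _
      · intro h; exact absurd (Finset.mem_univ i) h
    · rw [hτ, tau_off π hx, sub_self, inner_zero_left, Finset.sum_eq_zero]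
      intro i _
      exact indicator_of_notMem (fun h => hx (mem_iUnion.mpr ⟨i, h⟩)) _
  have iB : ∀ i, Integrable (fun x => T (x + (w (π i) - w i)))
      (volume.restrict (closedBall (w i) r)) := by
    intro i
    have : IsFiniteMeasure (volume.restrict (closedBall (w i) r)) :=
      ⟨by rw [Measure.restrict_apply_univ]; exact measure_closedBall_lt_top⟩
    refine integrable_of_bdd ?_ R (Eventually.of_forall fun x => hR _)
    exact (hTm.comp (measurable_id.add_const _)).aestronglyMeasurable
  have h6 : ∫ x, ⟪τ x - x, T (τ x)⟫ ∂m =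
      ∑ i, ⟪w (π i) - w i, ∫ y in closedBall (w (π i)) r, T y⟫ := by
    rw [integral_congr_ae (Eventually.of_forall h5), integral_finsetSum]
    · refine Finset.sum_congr rfl fun i _ => ?_
      rw [integral_indicator isClosed_closedBall.measurableSet, hm, Measure.restrict_restrict
        isClosed_closedBall.measurableSet, inter_eq_self_of_subset_left (hsub i)]
      have h7 : ∫ x in closedBall (w i) r, ⟪w (π i) - w i, T (x + (w (π i) - w i))⟫ =
          ⟪w (π i) - w i, ∫ x in closedBall (w i) r, T (x + (w (π i) - w i))⟫ :=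
        integral_inner (iB i) _
      rw [h7]
      congr 1
      rw [← integral_indicator isClosed_closedBall.measurableSet,
        ← integral_indicator isClosed_closedBall.measurableSet]
      rw [← integral_add_right_eq_self ((closedBall (w (π i)) r).indicator fun y => T y)
        (w (π i) - w i)]
      refine integral_congr_ae (Eventually.of_forall fun x => ?_)
      have h8 : x ∈ closedBall (w i) r ↔ x + (w (π i) - w i) ∈ closedBall (w (π i)) r := by
        rw [mem_closedBall, mem_closedBall, dist_eq_norm, dist_eq_norm]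
        have : x + (w (π i) - w i) - w (π i) = x - w i := by abel
        rw [this]
      by_cases hx : x ∈ closedBall (w i) r
      · simp only [indicator_of_mem hx, indicator_of_mem (h8.mp hx)]
      · simp only [indicator_of_notMem hx, indicator_of_notMem (fun h => hx (h8.mpr h))]
    · intro i _
      refine Integrable.indicator ?_ isClosed_closedBall.measurableSet
      refine integrable_of_bdd ?_ (‖w (π i) - w i‖ * R) (Eventually.of_forall fun x => ?_)
      · exact (measurable_const.inner (hTm.comp (measurable_id.add_const _))).aestronglyMeasurable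
      · exact (norm_inner_le_norm _ _).trans (by gcongr; exact hR _)
  rw [← h6]
  exact h4

/-- good points: interior points of `K` that are (uncentred) Lebesgue points of `T` -/
def Good (K : Set (E d)) (T : E d → E d) : Set (E d) :=
  {x | x ∈ interior K ∧ ∀ N : ℕ, ∀ w : ℝ → E d,
    (∀ᶠ r in 𝓝[>] (0 : ℝ), x ∈ closedBall (w r) (N * r)) →
      Tendsto (fun r => ⨍ y in closedBall (w r) r, T y) (𝓝[>] 0) (𝓝 (T x))}

lemma good_ae {K : Set (E d)} (hK : IsCompact K) (hKc : Convex ℝ K) {T : E d → E d}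
    (hTm : Measurable T) {R : ℝ≥0} (hR : ∀ x, ‖T x‖ ≤ R) :
    ∀ᵐ x ∂(unif K), x ∈ Good K T := by
  have hloc : LocallyIntegrable T (volume : Measure (E d)) := by
    refine (locallyIntegrable_const (R : ℝ)).mono hTm.aestronglyMeasurable ?_
    refine Eventually.of_forall fun x => ?_
    rw [Real.norm_of_nonneg R.coe_nonneg]
    exact hR x
  have h1 : ∀ᵐ x ∂(volume : Measure (E d)), ∀ N : ℕ, ∀ w : ℝ → E d,
      (∀ᶠ r in 𝓝[>] (0 : ℝ), x ∈ closedBall (w r) (N * r)) →
      Tendsto (fun r => ⨍ y in closedBall (w r) r, T y) (𝓝[>] 0) (𝓝 (T x)) := by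
    rw [ae_all_iff]
    intro N
    filter_upwards [IsUnifLocDoublingMeasure.ae_tendsto_average (μ := (volume : Measure (E d)))
      hloc (N : ℝ)] with x hx w hw
    exact hx w (fun r => r) tendsto_id hw
  have h2 : ∀ᵐ x ∂(volume : Measure (E d)), x ∉ frontier K :=
    measure_eq_zero_iff_ae_notMem.mp (hKc.addHaar_frontier volume)
  have h3 : ∀ᵐ x ∂(volume.restrict K : Measure (E d)), x ∈ Good K T := by
    filter_upwards [ae_restrict_of_ae h1, ae_restrict_of_ae h2,
      ae_restrict_mem hK.isClosed.measurableSet] with x h4 h5 h6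
    refine ⟨?_, h4⟩
    by_contra h7
    exact h5 ⟨subset_closure h6, h7⟩
  exact Measure.ae_smul_measure h3 _

lemma cyc {u : E d} (hu : ‖u‖ = 1) {n : ℕ} (x : Fin n → E d) (π : Equiv.Perm (Fin n))
    {K : Set (E d)} (hK : IsCompact K) (hKi : (interior K).Nonempty) {R : ℝ≥0}
    {μ : Measure (E d)} {T : E d → E d} (hT : IsOptimalMap (unif K) μ T) (hR : ∀ x, ‖T x‖ ≤ R)
    (hx : ∀ i, x i ∈ Good K T) : 0 ≤ ∑ i, ⟪x (π i) - x i, T (x (π i))⟫ := by
  set w : Fin n → ℝ → E d := fun i r => x i + (4 * (i : ℕ) * r) • u with hw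
  have hwc : ∀ i, Continuous (w i) := by
    intro i
    simp only [hw]
    fun_prop
  have hw0 : ∀ i, w i 0 = x i := by
    intro i; simp [hw]
  have hwt : ∀ i, Tendsto (w i) (𝓝[>] 0) (𝓝 (x i)) := by
    intro i
    have := ((hwc i).tendsto 0).mono_left (nhdsWithin_le_nhds (s := Ioi 0))
    rwa [hw0] at this
  have hpos : ∀ᶠ r : ℝ in 𝓝[>] 0, 0 < r := self_mem_nhdsWithin
  -- disjointness
  have hdisj : ∀ᶠ r : ℝ in 𝓝[>] 0,
      Pairwise fun i j => Disjoint (closedBall (w i r) r) (closedBall (w j r) r) := by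
    have h1 : ∀ i j : Fin n, i ≠ j → ∀ᶠ r : ℝ in 𝓝[>] 0,
        Disjoint (closedBall (w i r) r) (closedBall (w j r) r) := by
      intro i j hij
      by_cases hxx : x i = x j
      · filter_upwards [hpos] with r hr
        apply closedBall_disjoint_closedBall
        have h2 : w i r - w j r = (4 * ((i : ℕ) - (j : ℕ) : ℝ) * r) • u := by
          simp only [hw, hxx]
          rw [add_sub_add_left_eq_sub, ← sub_smul]
          congr 1
          ring
        rw [dist_eq_norm, h2, norm_smul, hu, mul_one, norm_mul, norm_mul,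
          Real.norm_of_nonneg hr.le]
        have h3 : (1 : ℝ) ≤ ‖((i : ℕ) - (j : ℕ) : ℝ)‖ := by
          have h4 : ((i : ℕ) : ℤ) - ((j : ℕ) : ℤ) ≠ 0 := by
            intro h5
            apply hij
            apply Fin.ext
            omega
          have h6 := Int.one_le_abs h4
          rw [Real.norm_eq_abs]
          exact_mod_cast h6
        have h7 : ‖(4 : ℝ)‖ = 4 := by norm_num
        rw [h7]
        nlinarith
      · have h2 : Tendsto (fun r => dist (w i r) (w j r) - (r + r)) (𝓝[>] 0)
            (𝓝 (dist (x i) (x j) - (0 + 0))) := by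
          refine ((hwt i).dist (hwt j)).sub ?_
          have : Tendsto (fun r : ℝ => r) (𝓝[>] 0) (𝓝 0) :=
            tendsto_id.mono_left nhdsWithin_le_nhds
          exact this.add this
        have h3 : 0 < dist (x i) (x j) - (0 + 0) := by
          simpa using dist_pos.mpr hxx
        filter_upwards [h2.eventually (lt_mem_nhds h3)] with r hr
        apply closedBall_disjoint_closedBall
        linarith
    have h2 : ∀ᶠ r : ℝ in 𝓝[>] 0, ∀ i j : Fin n, i ≠ j →
        Disjoint (closedBall (w i r) r) (closedBall (w j r) r) := by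
      rw [eventually_all]
      intro i
      rw [eventually_all]
      intro j
      by_cases hij : i = j
      · exact Eventually.of_forall fun r h => absurd hij h
      · filter_upwards [h1 i j hij] with r hr _
        exact hr
    filter_upwards [h2] with r hr i j hij
    exact hr i j hij
  have hsub : ∀ᶠ r : ℝ in 𝓝[>] 0, ∀ i, closedBall (w i r) r ⊆ K := by
    rw [eventually_all]
    intro i
    obtain ⟨ε, hε, hball⟩ := Metric.isOpen_iff.mp isOpen_interior (x i) (hx i).1
    have h2 : Tendsto (fun r => r + dist (w i r) (x i)) (𝓝[>] 0) (𝓝 (0 + dist (x i) (x i))) := by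
      have : Tendsto (fun r : ℝ => r) (𝓝[>] 0) (𝓝 0) :=
        tendsto_id.mono_left nhdsWithin_le_nhds
      exact this.add ((hwt i).dist tendsto_const_nhds)
    rw [dist_self, add_zero] at h2
    filter_upwards [h2.eventually (gt_mem_nhds hε)] with r hr
    exact ((closedBall_subset_ball' hr).trans hball).trans interior_subset
  have hmem : ∀ i, ∀ᶠ r : ℝ in 𝓝[>] 0, x i ∈ closedBall (w i r) (((4 * n : ℕ) : ℝ) * r) := by
    intro i
    filter_upwards [hpos] with r hr
    rw [mem_closedBall, dist_eq_norm]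
    have h1 : x i - w i r = (-(4 * (i : ℕ) * r)) • u := by
      simp only [hw]
      rw [neg_smul]
      abel
    rw [h1, norm_smul, hu, mul_one, norm_neg, Real.norm_of_nonneg (by positivity)]
    push_cast
    have h2 : ((i : ℕ) : ℝ) ≤ n := by exact_mod_cast i.2.le
    nlinarith
  -- the limit
  have hlim : Tendsto (fun r => ∑ i, ⟪w (π i) r - w i r, ⨍ y in closedBall (w (π i) r) r, T y⟫)
      (𝓝[>] 0) (𝓝 (∑ i, ⟪x (π i) - x i, T (x (π i))⟫)) := by
    refine tendsto_finsetSum _ fun i _ => ?_
    exact ((hwt (π i)).sub (hwt i)).inner ((hx (π i)).2 (4 * n) (w (π i)) (hmem (π i)))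
  refine ge_of_tendsto hlim ?_
  filter_upwards [hdisj, hsub, hpos] with r h1 h2 hr
  have h3 := opt_ineq (w := fun i => w i r) π hK hKi h1 h2 hT hR
  have h4 : ∀ c : E d, volume.real (closedBall c r) = volume.real (closedBall (0 : E d) r) :=
    fun c => Measure.addHaar_real_closedBall_center volume c r
  simp only [setAverage_eq, h4, inner_smul_right]
  rw [← Finset.mul_sum]
  exact mul_nonneg (inv_nonneg.mpr measureReal_nonneg) h3

/-- chains starting at `x₀` -/
abbrev Chain (G : Set (E d)) (x₀ : E d) : Type :=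
  ℕ × {x : ℕ → E d // x 0 = x₀ ∧ ∀ k, x k ∈ G}

/-- the affine function of a chain -/
noncomputable def val (T : E d → E d) {G : Set (E d)} {x₀ : E d} (p : Chain G x₀) (z : E d) : ℝ :=
  ∑ k ∈ Finset.range p.1, ⟪p.2.1 (k + 1) - p.2.1 k, T (p.2.1 k)⟫ +
    ⟪z - p.2.1 p.1, T (p.2.1 p.1)⟫

lemma val_sub (T : E d → E d) {G : Set (E d)} {x₀ : E d} (p : Chain G x₀) (z y : E d) :
    val T p z = val T p y + ⟪z - y, T (p.2.1 p.1)⟫ := by
  unfold val
  rw [add_assoc, ← inner_add_left]
  congr 2
  abel

lemma val_close {u : E d} (hu : ‖u‖ = 1) {K : Set (E d)} (hK : IsCompact K)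
    (hKi : (interior K).Nonempty) {R : ℝ≥0} {μ : Measure (E d)} {T : E d → E d}
    (hT : IsOptimalMap (unif K) μ T) (hR : ∀ x, ‖T x‖ ≤ R) {x₀ : E d}
    (p : Chain (Good K T) x₀) : val T p x₀ ≤ 0 := by
  obtain ⟨m, x, hx0, hxG⟩ := p
  have h1 := cyc hu (fun i : Fin (m + 1) => x i) (finRotate (m + 1)).symm hK hKi hT hR
    (fun i => hxG i)
  rw [← Equiv.sum_comp (finRotate (m + 1))] at h1
  simp only [Equiv.symm_apply_apply] at h1
  rw [Fin.sum_univ_castSucc] at h1
  have h2 : ∀ j : Fin m, ((finRotate (m + 1) j.castSucc : Fin (m + 1)) : ℕ) = (j : ℕ) + 1 := by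
    intro j
    rw [coe_finRotate_of_ne_last (Fin.castSucc_lt_last j).ne]
    rfl
  simp only [h2, finRotate_last, Fin.val_last, Fin.val_castSucc, Fin.val_zero] at h1
  unfold val
  simp only
  rw [Finset.sum_range, ← hx0]
  have h3 : ∀ a b c : E d, ⟪a - b, c⟫ = -⟪b - a, c⟫ := by
    intro a b c
    rw [← inner_neg_left, neg_sub]
  have h4 : ∑ i : Fin m, ⟪x (i + 1) - x i, T (x i)⟫ = - ∑ i : Fin m, ⟪x i - x (i + 1), T (x i)⟫ := by
    rw [← Finset.sum_neg_distrib]
    exact Finset.sum_congr rfl fun i _ => h3 _ _ _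
  rw [h4, h3]
  linarith

lemma exists_potential_aux {u : E d} (hu : ‖u‖ = 1) {K : Set (E d)} (hK : IsCompact K)
    (hKi : (interior K).Nonempty) {R : ℝ≥0} {μ : Measure (E d)} {T : E d → E d}
    (hT : IsOptimalMap (unif K) μ T) (hR : ∀ x, ‖T x‖ ≤ R) {x₀ : E d} (hx₀ : x₀ ∈ Good K T) :
    ∃ φ : E d → ℝ, ConvexOn ℝ univ φ ∧ LipschitzWith R φ ∧
      ∀ x ∈ Good K T, ∀ z, φ x + ⟪z - x, T x⟫ ≤ φ z := by
  have hbd : ∀ z, BddAbove (range fun p : Chain (Good K T) x₀ => val T p z) := by
    intro z
    refine ⟨‖z - x₀‖ * R, ?_⟩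
    rintro _ ⟨p, rfl⟩
    simp only
    rw [val_sub T p z x₀]
    have h1 := val_close hu hK hKi hT hR p
    have h2 : ⟪z - x₀, T (p.2.1 p.1)⟫ ≤ ‖z - x₀‖ * R :=
      (real_inner_le_norm _ _).trans (by gcongr; exact hR _)
    linarith
  have hne : Nonempty (Chain (Good K T) x₀) := ⟨(0, ⟨fun _ => x₀, rfl, fun _ => hx₀⟩)⟩
  have hle : ∀ p z, val T p z ≤ ⨆ p : Chain (Good K T) x₀, val T p z :=
    fun p z => le_ciSup (hbd z) p
  refine ⟨fun z => ⨆ p : Chain (Good K T) x₀, val T p z, ?_, ?_, ?_⟩
  · refine ⟨convex_univ, ?_⟩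
    intro x _ y _ a b ha hb hab
    refine ciSup_le fun p => ?_
    have h1 : val T p (a • x + b • y) = a * val T p x + b * val T p y := by
      unfold val
      have h2 : a • x + b • y - p.2.1 p.1 = a • (x - p.2.1 p.1) + b • (y - p.2.1 p.1) := by
        have h3 : p.2.1 p.1 = a • p.2.1 p.1 + b • p.2.1 p.1 := by
          rw [← add_smul, hab, one_smul]
        rw [smul_sub, smul_sub]
        nth_rewrite 1 [h3]
        abel
      rw [h2, inner_add_left, inner_smul_left, inner_smul_left]
      simp only [RCLike.conj_to_real]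
      generalize ∑ k ∈ Finset.range p.1, ⟪p.2.1 (k + 1) - p.2.1 k, T (p.2.1 k)⟫ = s
      have h4 : s = a * s + b * s := by rw [← add_mul, hab, one_mul]
      nth_rewrite 1 [h4]
      ring
    rw [h1]
    simp only [smul_eq_mul]
    exact add_le_add (mul_le_mul_of_nonneg_left (hle p x) ha)
      (mul_le_mul_of_nonneg_left (hle p y) hb)
  · refine LipschitzWith.of_le_add_mul R ?_
    intro x y
    refine ciSup_le fun p => ?_
    rw [val_sub T p x y]
    have h2 : ⟪x - y, T (p.2.1 p.1)⟫ ≤ R * dist x y := by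
      rw [dist_eq_norm, mul_comm]
      exact (real_inner_le_norm _ _).trans (by gcongr; exact hR _)
    exact add_le_add (hle p y) h2
  · intro x hx z
    rw [← le_sub_iff_add_le]
    refine ciSup_le fun p => ?_
    rw [le_sub_iff_add_le]
    obtain ⟨m, y, hy0, hyG⟩ := p
    have hp' : (Function.update y (m + 1) x) 0 = x₀ ∧
        ∀ k, (Function.update y (m + 1) x) k ∈ Good K T := by
      constructor
      · rw [Function.update_of_ne (by omega)]
        exact hy0
      · intro k
        by_cases hk : k = m + 1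
        · rw [hk, Function.update_self]; exact hx
        · rw [Function.update_of_ne hk]; exact hyG k
    refine le_trans (le_of_eq ?_) (hle (m + 1, ⟨Function.update y (m + 1) x, hp'⟩) z)
    unfold val
    simp only
    rw [Finset.sum_range_succ, Function.update_self,
      Function.update_of_ne (show m ≠ m + 1 by omega)]
    have h5 : ∑ k ∈ Finset.range m, ⟪Function.update y (m + 1) x (k + 1) -
        Function.update y (m + 1) x k, T (Function.update y (m + 1) x k)⟫ =
        ∑ k ∈ Finset.range m, ⟪y (k + 1) - y k, T (y k)⟫ := by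
      refine Finset.sum_congr rfl fun k hk => ?_
      rw [Finset.mem_range] at hk
      rw [Function.update_of_ne (show k + 1 ≠ m + 1 by omega),
        Function.update_of_ne (show k ≠ m + 1 by omega)]
    rw [h5]

end Pot

open Pot

theorem exists_potential {d : ℕ} {K Y : Set (E d)} (hK : IsCompact K) (hKc : Convex ℝ K)
    (hKi : (interior K).Nonempty) {R : ℝ≥0} (hY : Y ⊆ Metric.closedBall 0 R) {μ : Measure (E d)}
    (hμ : IsProbabilityMeasure μ) (hμY : μ Yᶜ = 0) {T : E d → E d}
    (hT : IsOptimalMap (unif K) μ T) :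
    ∃ φ : E d → ℝ, ConvexOn ℝ univ φ ∧ LipschitzWith R φ ∧
      ∀ᵐ x ∂(unif K), ∀ z, φ x + ⟪z - x, T x⟫ ≤ φ z := by
  rcases Nat.eq_zero_or_pos d with rfl | hd
  · refine ⟨fun _ => 0, convexOn_const 0 convex_univ, LipschitzWith.const' 0, ?_⟩
    refine Eventually.of_forall fun x z => ?_
    have : z - x = 0 := Subsingleton.elim _ _
    rw [this, inner_zero_left, add_zero]
  obtain ⟨hTm, hTμ, hTopt⟩ := hT
  have hbd : ∀ᵐ x ∂(unif K), ‖T x‖ ≤ R := by
    rw [ae_iff]
    have h1 : {x | ¬ ‖T x‖ ≤ R} = T ⁻¹' (closedBall (0 : E d) R)ᶜ := by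
      ext x
      simp
    rw [h1, ← Measure.map_apply hTm isClosed_closedBall.measurableSet.compl, hTμ]
    exact measure_mono_null (compl_subset_compl.mpr hY) hμY
  set T0 : E d → E d := fun x => if ‖T x‖ ≤ R then T x else 0 with hT0
  have hT0m : Measurable T0 :=
    Measurable.ite (measurableSet_le hTm.norm measurable_const) hTm measurable_const
  have hae : T0 =ᵐ[unif K] T := by
    filter_upwards [hbd] with x hx
    simp only [hT0, if_pos hx]
  have hR : ∀ x, ‖T0 x‖ ≤ R := by
    intro x
    simp only [hT0]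
    split_ifs with h
    · exact h
    · rw [norm_zero]; exact R.coe_nonneg
  have hT' : IsOptimalMap (unif K) μ T0 := by
    refine ⟨hT0m, by rw [Measure.map_congr hae, hTμ], ?_⟩
    intro S hS hSμ
    refine le_trans (le_of_eq ?_) (hTopt S hS hSμ)
    refine lintegral_congr_ae ?_
    filter_upwards [hae] with x hx
    rw [hx]
  have hu : ‖(EuclideanSpace.single (⟨0, hd⟩ : Fin d) (1 : ℝ) : E d)‖ = 1 := by simp
  have hprob : unif K ≠ 0 := by
    intro h0
    rw [h0, Measure.map_zero] at hTμ
    rw [← hTμ] at hμ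
    have h9 := hμ.measure_univ
    rw [Measure.coe_zero, Pi.zero_apply] at h9
    exact zero_ne_one h9
  have hgood := good_ae hK hKc hT0m hR
  have : (ae (unif K)).NeBot := ae_neBot.mpr hprob
  obtain ⟨x₀, hx₀⟩ := hgood.exists
  obtain ⟨φ, h1, h2, h3⟩ := exists_potential_aux hu hK hKi hT' hR hx₀
  refine ⟨φ, h1, h2, ?_⟩
  filter_upwards [hgood, hae] with x hx hx2 z
  rw [← hx2]
  exact h3 x hx z

end Vale.Agent.P074
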