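import Vale.Agent.P074.Final

open MeasureTheory Set Filter Topology
open scoped ENNReal NNReal

namespace Vale.Agent.P074

/-- Passing a power bound to the infimum. -/
lemma le_mul_iInf_rpow {α : Type} {s : Set α} {w : α → ℝ≥0∞} {D : ℝ≥0∞} {C : ℝ≥0}
    (hC : C ≠ 0) (h : ∀ a ∈ s, D ≤ C * (w a) ^ (1 / 3 : ℝ)) :
    D ≤ C * (⨅ a ∈ s, w a) ^ (1 / 3 : ℝ) := by
  have hC' : (C : ℝ≥0∞) ≠ 0 := by exact_mod_cast hC
  have key : (D / C) ^ (3 : ℝ) ≤ ⨅ a ∈ s, w a := by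
    refine le_iInf₂ fun a ha => ?_
    have h1 : D / C ≤ (w a) ^ (1 / 3 : ℝ) := by
      rw [ENNReal.div_le_iff hC' ENNReal.coe_ne_top, mul_comm]
      exact h a ha
    calc (D / C) ^ (3 : ℝ) ≤ ((w a) ^ (1 / 3 : ℝ)) ^ (3 : ℝ) :=
          ENNReal.rpow_le_rpow h1 (by norm_num)
      _ = w a := by rw [← ENNReal.rpow_mul]; norm_num
  have h2 : D / C ≤ (⨅ a ∈ s, w a) ^ (1 / 3 : ℝ) := by
    calc D / C = ((D / C) ^ (3 : ℝ)) ^ (1 / 3 : ℝ) := by rw [← ENNReal.rpow_mul]; norm_num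
      _ ≤ _ := ENNReal.rpow_le_rpow key (by norm_num)
  rwa [ENNReal.div_le_iff hC' ENNReal.coe_ne_top, mul_comm] at h2

theorem third_admissible {d : ℕ} (hd : 2 ≤ d) : Admissible d (1 / 3) := by
  refine ⟨by norm_num, by norm_num, fun K hK hKc hKi Y hY => ?_⟩
  obtain ⟨C, hC, hmain⟩ := coupling_bound hd hK hKc hKi hY
  haveI hρ := unif_prob hK hKi
  refine ⟨Real.toNNReal (C + 1), ?_⟩
  intro μ ν hμ hν hμY hνY Tμ Tν hTμ hTν
  unfold W
  apply le_mul_iInf_rpow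
  · have : 0 < C + 1 := by linarith
    simpa using this
  intro π hπ
  have h := hmain μ ν hμ hν hμY hνY Tμ Tν hTμ hTν π hπ
  obtain ⟨hπ1, hπ2⟩ := hπ
  have hπprob : IsProbabilityMeasure π := by
    constructor
    have h : (π.map Prod.fst) univ = μ univ := by rw [hπ1]
    rw [Measure.map_apply measurable_fst MeasurableSet.univ, preimage_univ] at h
    rw [h]
    exact measure_univ
  have hYm : MeasurableSet Y := hY.measurableSet
  have hπY1 : π (Prod.fst ⁻¹' Yᶜ) = 0 := by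
    rw [← Measure.map_apply measurable_fst hYm.compl, hπ1, hμY]
  have hπY2 : π (Prod.snd ⁻¹' Yᶜ) = 0 := by
    rw [← Measure.map_apply measurable_snd hYm.compl, hπ2, hνY]
  obtain ⟨R, hRpos, hYR⟩ := hY.isBounded.subset_closedBall_lt 0 0
  have hbound : ∀ (T : E d → E d) (η : Measure (E d)), η Yᶜ = 0 → Measurable T →
      (unif K).map T = η → ∀ᵐ x ∂(unif K), ‖T x‖ ≤ R := by
    intro T η h0 hTm hTη
    have : ∀ᵐ y ∂((unif K).map T), y ∈ Y := by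
      rw [hTη]
      exact measure_eq_zero_iff_ae_notMem.1 h0 |>.mono (fun y hy => by simpa using hy)
    have h2 := ae_of_ae_map hTm.aemeasurable this
    filter_upwards [h2] with x hx
    simpa using hYR hx
  have i1 : Integrable (fun x => ‖Tμ x - Tν x‖ ^ 2) (unif K) := by
    refine integrable_of_ae_le ((hTμ.1.sub hTν.1).norm.pow_const 2) (c := (2 * R) ^ 2) ?_
    filter_upwards [hbound Tμ μ hμY hTμ.1 hTμ.2.1, hbound Tν ν hνY hTν.1 hTν.2.1] with x h1 h2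
    rw [Real.norm_of_nonneg (by positivity)]
    have : ‖Tμ x - Tν x‖ ≤ 2 * R := (norm_sub_le _ _).trans (by linarith)
    gcongr
  have i2 : Integrable (fun z : E d × E d => ‖z.1 - z.2‖ ^ 2) π := by
    refine integrable_of_ae_le (by fun_prop) (c := (2 * R) ^ 2) ?_
    have e1 : ∀ᵐ q ∂π, q.1 ∈ Y :=
      measure_eq_zero_iff_ae_notMem.1 hπY1 |>.mono (fun q hq => by simpa using hq)
    have e2 : ∀ᵐ q ∂π, q.2 ∈ Y :=
      measure_eq_zero_iff_ae_notMem.1 hπY2 |>.mono (fun q hq => by simpa using hq)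
    filter_upwards [e1, e2] with q h1 h2
    rw [Real.norm_of_nonneg (by positivity)]
    have h3 : ‖q.1‖ ≤ R := by simpa using hYR h1
    have h4 : ‖q.2‖ ≤ R := by simpa using hYR h2
    have : ‖q.1 - q.2‖ ≤ 2 * R := (norm_sub_le _ _).trans (by linarith)
    gcongr
  have j1 : ∫⁻ x, ENNReal.ofReal (‖Tμ x - Tν x‖ ^ 2) ∂(unif K) =
      ENNReal.ofReal (∫ x, ‖Tμ x - Tν x‖ ^ 2 ∂(unif K)) :=
    (ofReal_integral_eq_lintegral_ofReal i1 (Eventually.of_forall fun x => by positivity)).symm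
  have j2 : ∫⁻ z, ENNReal.ofReal (‖z.1 - z.2‖ ^ (2 : ℝ)) ∂π =
      ENNReal.ofReal (∫ z, ‖z.1 - z.2‖ ^ 2 ∂π) := by
    rw [ofReal_integral_eq_lintegral_ofReal i2 (Eventually.of_forall fun x => by positivity)]
    simp only [Real.rpow_two]
  unfold distL2
  rw [j1, j2]
  set A := ∫ x, ‖Tμ x - Tν x‖ ^ 2 ∂(unif K) with hA
  set c := ∫ z, ‖z.1 - z.2‖ ^ 2 ∂π with hc
  have hA0 : 0 ≤ A := integral_nonneg fun x => by positivity
  have hc0 : 0 ≤ c := integral_nonneg fun x => by positivity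
  -- reduce to reals
  have e1 : (ENNReal.ofReal A) ^ (1 / 2 : ℝ) = ENNReal.ofReal (A ^ (1 / 2 : ℝ)) :=
    ENNReal.ofReal_rpow_of_nonneg hA0 (by norm_num)
  have e2 : ((ENNReal.ofReal c) ^ (1 / 2 : ℝ)) ^ (1 / 3 : ℝ) =
      ENNReal.ofReal ((c ^ (1 / 2 : ℝ)) ^ (1 / 3 : ℝ)) := by
    rw [ENNReal.ofReal_rpow_of_nonneg hc0 (by norm_num),
      ENNReal.ofReal_rpow_of_nonneg (by positivity) (by norm_num)]
  have e3 : ((Real.toNNReal (C + 1) : ℝ≥0) : ℝ≥0∞) = ENNReal.ofReal (C + 1) := rfl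
  rw [e1, e2, e3, ← ENNReal.ofReal_mul (by linarith)]
  apply ENNReal.ofReal_le_ofReal
  have hpow : (A ^ (1 / 2 : ℝ)) ^ 6 ≤ ((C + 1) * (c ^ (1 / 2 : ℝ)) ^ (1 / 3 : ℝ)) ^ 6 := by
    have a1 : (A ^ (1 / 2 : ℝ)) ^ 6 = A ^ 3 := by
      rw [← Real.rpow_natCast, ← Real.rpow_mul hA0, ← Real.rpow_natCast]
      norm_num
    have a2 : ((c ^ (1 / 2 : ℝ)) ^ (1 / 3 : ℝ)) ^ 6 = c := by
      rw [← Real.rpow_natCast, ← Real.rpow_mul (by positivity), ← Real.rpow_mul hc0]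
      norm_num
    rw [a1, mul_pow, a2]
    refine h.trans ?_
    gcongr
    calc C ≤ C + 1 := by linarith
      _ = (C + 1) ^ 1 := (pow_one _).symm
      _ ≤ (C + 1) ^ 6 := pow_le_pow_right₀ (by linarith) (by norm_num)
  exact le_of_pow_le_pow_left₀ (by norm_num) (by positivity) hpow

end Vale.Agent.P074
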