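import Vale.Agent.P074.Bary
import Vale.Agent.P074.Exist
import Vale.Agent.P074.Lsc

/-!
Task P074-C7: Lipschitz stability of the weights.
-/

open MeasureTheory Set
open scoped ENNReal NNReal

namespace Vale.Agent.P074

namespace WStab

/-- discrete comparison of two functions through their subgradients -/
lemma compare {J J' A A' : ℝ → ℝ} {B : ℝ}
    (hJ : ∀ s ∈ Icc (0 : ℝ) 1, ∀ t ∈ Icc (0 : ℝ) 1, (t - s) * A s ≤ J t - J s)
    (hJ' : ∀ s ∈ Icc (0 : ℝ) 1, ∀ t ∈ Icc (0 : ℝ) 1, (t - s) * A' s ≤ J' t - J' s)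
    (hA : ∀ t ∈ Icc (0 : ℝ) 1, A' t - A t ≤ B) :
    (J' 1 - J' 0) - (J 1 - J 0) ≤ B := by
  have key : ∀ n : ℕ, 0 < n → (J' 1 - J' 0) - (J 1 - J 0) ≤ B + (A' 1 - A' 0) / n := by
    intro n hn
    have hn' : (0 : ℝ) < n := by exact_mod_cast hn
    have ht : ∀ k : ℕ, k ≤ n → ((k : ℝ) / n) ∈ Icc (0 : ℝ) 1 := by
      intro k hk
      refine ⟨by positivity, ?_⟩
      rw [div_le_one hn']
      exact_mod_cast hk
    have h1 : J' 1 - J' 0 = ∑ k ∈ Finset.range n,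
        (J' (((k + 1 : ℕ) : ℝ) / n) - J' ((k : ℝ) / n)) := by
      rw [Finset.sum_range_sub (fun k : ℕ => J' ((k : ℝ) / n))]
      simp only [Nat.cast_zero, zero_div]
      rw [div_self hn'.ne']
    have h2 : J 1 - J 0 = ∑ k ∈ Finset.range n,
        (J (((k + 1 : ℕ) : ℝ) / n) - J ((k : ℝ) / n)) := by
      rw [Finset.sum_range_sub (fun k : ℕ => J ((k : ℝ) / n))]
      simp only [Nat.cast_zero, zero_div]
      rw [div_self hn'.ne']
    have hstep : ∀ k : ℕ, ((k + 1 : ℕ) : ℝ) / n - (k : ℝ) / n = 1 / n := by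
      intro k
      push_cast
      ring
    have h3 : (J' 1 - J' 0) - (J 1 - J 0) ≤ ∑ k ∈ Finset.range n,
        (1 / n) * (A' (((k + 1 : ℕ) : ℝ) / n) - A ((k : ℝ) / n)) := by
      rw [h1, h2, ← Finset.sum_sub_distrib]
      refine Finset.sum_le_sum fun k hk => ?_
      rw [Finset.mem_range] at hk
      have h4 := hJ _ (ht k hk.le) _ (ht (k + 1) hk)
      have h5 := hJ' _ (ht (k + 1) hk) _ (ht k hk.le)
      rw [hstep] at h4
      have h6 : (k : ℝ) / n - ((k + 1 : ℕ) : ℝ) / n = -(1 / n) := by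
        rw [← hstep k]; ring
      rw [h6] at h5
      linarith
    have h7 : ∑ k ∈ Finset.range n, (1 / n) * (A' (((k + 1 : ℕ) : ℝ) / n) - A ((k : ℝ) / n)) =
        (1 / n) * (∑ k ∈ Finset.range n, (A' ((k : ℝ) / n) - A ((k : ℝ) / n))) +
          (A' 1 - A' 0) / n := by
      have h8 : ∑ k ∈ Finset.range n, (A' (((k + 1 : ℕ) : ℝ) / n) - A' ((k : ℝ) / n)) =
          A' 1 - A' 0 := by
        rw [Finset.sum_range_sub (fun k : ℕ => A' ((k : ℝ) / n))]
        simp only [Nat.cast_zero, zero_div]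
        rw [div_self hn'.ne']
      rw [← h8, Finset.mul_sum, Finset.sum_div, ← Finset.sum_add_distrib]
      refine Finset.sum_congr rfl fun k _ => ?_
      ring
    rw [h7] at h3
    have h9 : ∑ k ∈ Finset.range n, (A' ((k : ℝ) / n) - A ((k : ℝ) / n)) ≤ n * B := by
      refine (Finset.sum_le_card_nsmul _ _ B fun k hk => ?_).trans ?_
      · rw [Finset.mem_range] at hk
        exact hA _ (ht k hk.le)
      · rw [Finset.card_range, nsmul_eq_mul]
    have h10 : (1 / n) * (∑ k ∈ Finset.range n, (A' ((k : ℝ) / n) - A ((k : ℝ) / n))) ≤ B := by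
      calc (1 / n) * (∑ k ∈ Finset.range n, (A' ((k : ℝ) / n) - A ((k : ℝ) / n)))
          ≤ (1 / n) * (n * B) := by gcongr
        _ = B := by field_simp
    linarith
  refine le_of_forall_pos_le_add fun δ hδ => ?_
  obtain ⟨n, hn⟩ := exists_nat_gt (|A' 1 - A' 0| / δ)
  have hn0 : 0 < n := by
    have : (0 : ℝ) < n := lt_of_le_of_lt (by positivity) hn
    exact_mod_cast this
  have hn' : (0 : ℝ) < n := by exact_mod_cast hn0
  refine (key n hn0).trans ?_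
  have h1 : (A' 1 - A' 0) / n ≤ δ := by
    rw [div_le_iff₀ hn']
    rw [div_lt_iff₀ hδ] at hn
    have := le_abs_self (A' 1 - A' 0)
    nlinarith
  linarith

lemma isProb_unif {d : ℕ} {K : Set (E d)} (hK : IsCompact K) (hKi : (interior K).Nonempty) :
    IsProbabilityMeasure (unif K) := by
  have hfin : volume K < ∞ := hK.measure_lt_top
  have hpos : 0 < volume K :=
    (isOpen_interior.measure_pos volume hKi).trans_le (measure_mono interior_subset)
  constructor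
  unfold unif
  rw [Measure.smul_apply, Measure.restrict_apply_univ, smul_eq_mul,
    ENNReal.inv_mul_cancel hpos.ne' hfin.ne]

lemma norm_mom_le {d : ℕ} {K : Set (E d)} (hK : IsCompact K) (hKi : (interior K).Nonempty)
    {R : ℝ} (hKR : K ⊆ Metric.closedBall 0 R) {ι : Type} (y : ι → E d) (ψ : ι → ℝ) (i : ι) :
    ‖mom K y ψ i‖ ≤ R * mass K y ψ i := by
  have := isProb_unif hK hKi
  refine norm_setIntegral_le_of_norm_le_const (measure_lt_top _ _) fun x hx => ?_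
  have h1 := hKR hx.1
  rwa [mem_closedBall_zero_iff] at h1

lemma norm_bary_le {d : ℕ} {K : Set (E d)} (hK : IsCompact K) (hKi : (interior K).Nonempty)
    {R : ℝ} (hKR : K ⊆ Metric.closedBall 0 R) {ι : Type} {y : ι → E d} {ψ : ι → ℝ} {i : ι}
    (hm : 0 < mass K y ψ i) : ‖bary K y ψ i‖ ≤ R := by
  unfold bary
  rw [norm_smul, norm_inv, Real.norm_of_nonneg hm.le, inv_mul_le_iff₀ hm, mul_comm]
  exact norm_mom_le hK hKi hKR y ψ i

lemma mom_eq {d : ℕ} {K : Set (E d)} {ι : Type} {y : ι → E d} {ψ : ι → ℝ} {i : ι}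
    (hm : 0 < mass K y ψ i) : mom K y ψ i = mass K y ψ i • bary K y ψ i := by
  unfold bary
  rw [smul_smul, mul_inv_cancel₀ hm.ne', one_smul]

/-- weighted Cauchy-Schwarz -/
lemma cs {ι : Type} [Fintype ι] {m : ι → ℝ} (hm : ∀ i, 0 < m i) (a b : ι → ℝ) :
    ∑ i, m i * (a i * b i) ≤ Real.sqrt (∑ i, m i * a i ^ 2) * Real.sqrt (∑ i, m i * b i ^ 2) := by
  have h1 := Real.sum_mul_le_sqrt_mul_sqrt Finset.univ (fun i => Real.sqrt (m i) * a i)
    (fun i => Real.sqrt (m i) * b i)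
  have h2 : ∀ i, Real.sqrt (m i) * a i * (Real.sqrt (m i) * b i) = m i * (a i * b i) := by
    intro i
    have := Real.mul_self_sqrt (hm i).le
    calc Real.sqrt (m i) * a i * (Real.sqrt (m i) * b i)
        = (Real.sqrt (m i) * Real.sqrt (m i)) * (a i * b i) := by ring
      _ = m i * (a i * b i) := by rw [this]
  have h3 : ∀ (c : ι → ℝ) i, (Real.sqrt (m i) * c i) ^ 2 = m i * c i ^ 2 := by
    intro c i
    rw [mul_pow, Real.sq_sqrt (hm i).le]
  simp only [h2, h3] at h1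
  exact h1

section main

variable {d : ℕ} {K : Set (E d)} {ι : Type} [Fintype ι]

/-- the bound on the difference of the derivatives -/
lemma deriv_bound (hK : IsCompact K) (hKi : (interior K).Nonempty) {R : ℝ}
    (hR : 0 < R) (hKR : K ⊆ Metric.closedBall 0 R) {C₀ : ℝ} {y : ι → E d}
    {ψ ψ' : ι → ℝ} (hm : ∀ i, 0 < mass K y ψ i) (hm' : ∀ i, 0 < mass K y ψ' i)
    (hb : ∑ i, mass K y ψ i * ‖bary K y ψ' i - bary K y ψ i‖ ^ 2 ≤
        C₀ * ∑ i, (mass K y ψ' i - mass K y ψ i) ^ 2 / mass K y ψ i) (w : ι → E d) :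
    ∑ i, inner ℝ (mom K y ψ' i) (w i) - ∑ i, inner ℝ (mom K y ψ i) (w i) ≤
      (R + Real.sqrt C₀) *
        Real.sqrt (∑ i, (mass K y ψ' i - mass K y ψ i) ^ 2 / mass K y ψ i) *
        Real.sqrt (∑ i, mass K y ψ i * ‖w i‖ ^ 2) := by
  set m : ι → ℝ := fun i => mass K y ψ i with hmdef
  set m' : ι → ℝ := fun i => mass K y ψ' i with hm'def
  set b : ι → E d := fun i => bary K y ψ i with hbdef
  set b' : ι → E d := fun i => bary K y ψ' i with hb'def
  have h1 : ∀ i, inner ℝ (mom K y ψ' i) (w i) - inner ℝ (mom K y ψ i) (w i) ≤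
      R * (m i * ((|m' i - m i| / m i) * ‖w i‖)) + m i * (‖b' i - b i‖ * ‖w i‖) := by
    intro i
    rw [mom_eq (hm i), mom_eq (hm' i), ← inner_sub_left]
    have h2 : mass K y ψ' i • bary K y ψ' i - mass K y ψ i • bary K y ψ i =
        (m' i - m i) • b' i + m i • (b' i - b i) := by
      simp only [hmdef, hm'def, hbdef, hb'def, sub_smul, smul_sub]
      abel
    rw [h2, inner_add_left, inner_smul_left, inner_smul_left]
    simp only [RCLike.conj_to_real]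
    have h3 : (m' i - m i) * inner ℝ (b' i) (w i) ≤ |m' i - m i| * (R * ‖w i‖) := by
      refine (le_abs_self _).trans ?_
      rw [abs_mul]
      have h4 : |inner ℝ (b' i) (w i)| ≤ R * ‖w i‖ :=
        (abs_real_inner_le_norm _ _).trans
          (mul_le_mul_of_nonneg_right (norm_bary_le hK hKi hKR (hm' i)) (norm_nonneg _))
      exact mul_le_mul_of_nonneg_left h4 (abs_nonneg _)
    have h5 : m i * inner ℝ (b' i - b i) (w i) ≤ m i * (‖b' i - b i‖ * ‖w i‖) :=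
      mul_le_mul_of_nonneg_left (real_inner_le_norm _ _) (hm i).le
    have h6 : R * (m i * ((|m' i - m i| / m i) * ‖w i‖)) = |m' i - m i| * (R * ‖w i‖) := by
      have h7 : m i ≠ 0 := (hm i).ne'
      field_simp
    rw [h6]
    exact add_le_add h3 h5
  have h2 : ∑ i, inner ℝ (mom K y ψ' i) (w i) - ∑ i, inner ℝ (mom K y ψ i) (w i) ≤
      R * ∑ i, m i * ((|m' i - m i| / m i) * ‖w i‖) + ∑ i, m i * (‖b' i - b i‖ * ‖w i‖) := by
    rw [← Finset.sum_sub_distrib, Finset.mul_sum, ← Finset.sum_add_distrib]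
    exact Finset.sum_le_sum fun i _ => h1 i
  have h3 := cs hm (fun i => |m' i - m i| / m i) (fun i => ‖w i‖)
  have h4 := cs hm (fun i => ‖b' i - b i‖) (fun i => ‖w i‖)
  have h5 : ∑ i, m i * (|m' i - m i| / m i) ^ 2 = ∑ i, (m' i - m i) ^ 2 / m i := by
    refine Finset.sum_congr rfl fun i _ => ?_
    have h7 : m i ≠ 0 := (hm i).ne'
    rw [div_pow, sq_abs]
    field_simp
  have h6 : Real.sqrt (∑ i, m i * ‖b' i - b i‖ ^ 2) ≤
      Real.sqrt C₀ * Real.sqrt (∑ i, (m' i - m i) ^ 2 / m i) := by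
    have hS : 0 ≤ ∑ i, (m' i - m i) ^ 2 / m i :=
      Finset.sum_nonneg fun i _ => div_nonneg (sq_nonneg _) (hm i).le
    rw [← Real.sqrt_mul' _ hS]
    exact Real.sqrt_le_sqrt hb
  rw [h5] at h3
  have h7 : 0 ≤ Real.sqrt (∑ i, m i * ‖w i‖ ^ 2) := Real.sqrt_nonneg _
  calc _ ≤ _ := h2
    _ ≤ R * (Real.sqrt (∑ i, (m' i - m i) ^ 2 / m i) * Real.sqrt (∑ i, m i * ‖w i‖ ^ 2)) +
        (Real.sqrt C₀ * Real.sqrt (∑ i, (m' i - m i) ^ 2 / m i)) *
          Real.sqrt (∑ i, m i * ‖w i‖ ^ 2) := by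
        refine add_le_add (mul_le_mul_of_nonneg_left h3 hR.le) (h4.trans ?_)
        exact mul_le_mul_of_nonneg_right h6 h7
    _ = _ := by ring

/-- value of the Kantorovich functional at the weights with masses `m` -/
lemma value_eq [Nonempty ι] (hK : IsCompact K) (hKi : (interior K).Nonempty) {y : ι → E d}
    (hy : Function.Injective y) (ψ : ι → ℝ) :
    ∑ i, inner ℝ (mom K y ψ i) (y i) =
      ∫ x, pot y ψ x ∂(unif K) + ∑ i, mass K y ψ i * ψ i := by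
  rw [integral_pot hK hKi hy ψ, ← Finset.sum_add_distrib]
  exact Finset.sum_congr rfl fun i _ => by ring

/-- testing: `J(z) ≥ Σ ⟨mom y, z⟩` with equal masses `m` -/
lemma value_ge [Nonempty ι] (hK : IsCompact K) (hKi : (interior K).Nonempty) {y z : ι → E d}
    (hy : Function.Injective y) (hz : Function.Injective z) (ψ χ : ι → ℝ) :
    ∑ i, inner ℝ (mom K y ψ i) (z i) ≤ ∑ i, inner ℝ (mom K z χ i) (z i) +
      ∑ i, (mass K y ψ i - mass K z χ i) * χ i := by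
  have h1 := le_integral_pot hK hKi hy ψ z χ
  have h2 := value_eq hK hKi hz χ
  rw [h2]
  have h3 : ∑ i, (inner ℝ (mom K y ψ i) (z i) - mass K y ψ i * χ i) =
      ∑ i, inner ℝ (mom K y ψ i) (z i) - ∑ i, mass K y ψ i * χ i := by
    rw [Finset.sum_sub_distrib]
  have h4 : ∑ i, (mass K y ψ i - mass K z χ i) * χ i =
      ∑ i, mass K y ψ i * χ i - ∑ i, mass K z χ i * χ i := by
    rw [← Finset.sum_sub_distrib]
    exact Finset.sum_congr rfl fun i _ => by ring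
  rw [h3] at h1
  rw [h4]
  linarith

/-- the key inequality -/
lemma key_ineq [Nonempty ι] (hK : IsCompact K) (hKc : Convex ℝ K) (hKi : (interior K).Nonempty)
    {R : ℝ} (hR : 0 < R) (hKR : K ⊆ Metric.closedBall 0 R) {C₀ : ℝ}
    (hC₀ : ∀ K : Set (E d), IsCompact K → Convex ℝ K → (interior K).Nonempty →
      K ⊆ Metric.closedBall 0 R →
      ∀ (ι : Type) [Fintype ι] (y : ι → E d), Function.Injective y → ∀ ψ ψ' : ι → ℝ,
      (∀ i, 0 < mass K y ψ i) → (∀ i, 0 < mass K y ψ' i) →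
      (∀ i, mass K y ψ i ≤ 2 * mass K y ψ' i) →
      ∑ i, mass K y ψ i * ‖bary K y ψ' i - bary K y ψ i‖ ^ 2 ≤
        C₀ * ∑ i, (mass K y ψ' i - mass K y ψ i) ^ 2 / mass K y ψ i)
    {y z : ι → E d}
    (hyz : ∀ t ∈ Icc (0 : ℝ) 1, Function.Injective (fun i => (1 - t) • y i + t • z i))
    {ψ χ : ι → ℝ} (hm : ∀ i, 0 < mass K y ψ i) (hχ : ∀ i, mass K z χ i = mass K y ψ i)
    {u : ι → ℝ} (hu : ∑ i, u i = 0) :
    ∑ i, (χ i - ψ i) * u i ≤ (R + Real.sqrt C₀) *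
        Real.sqrt (∑ i, u i ^ 2 / mass K y ψ i) *
        Real.sqrt (∑ i, mass K y ψ i * ‖z i - y i‖ ^ 2) := by
  set m : ι → ℝ := fun i => mass K y ψ i with hmdef
  have hm0 : ∀ i, 0 < m i := hm
  have hyinj : Function.Injective y := by
    have := hyz 0 ⟨le_rfl, zero_le_one⟩
    simpa using this
  have hzinj : Function.Injective z := by
    have := hyz 1 ⟨zero_le_one, le_rfl⟩
    simpa using this
  have hmsum : ∑ i, m i = 1 := sum_mass hK hKi hyinj ψ
  set yt : ℝ → ι → E d := fun t i => (1 - t) • y i + t • z i with hyt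
  have hyt0 : yt 0 = y := by funext i; simp [hyt]
  have hyt1 : yt 1 = z := by funext i; simp [hyt]
  refine le_of_forall_pos_le_add fun η hη => ?_
  obtain ⟨ε₀, hε₀, hlsc⟩ := weights_lsc hK hKc hKi hzinj (ψ := χ)
    (fun i => by rw [hχ]; exact hm i) hu hη
  -- choose ε
  have hex : ∃ ε : ℝ, 0 < ε ∧ ε < ε₀ ∧ ∀ i, ε * |u i| ≤ m i / 2 := by
    have h1 : ∀ i, ∀ᶠ ε : ℝ in nhdsWithin 0 (Ioi 0), ε * |u i| ≤ m i / 2 := by
      intro i
      have h2 : Filter.Tendsto (fun ε : ℝ => ε * |u i|) (nhdsWithin 0 (Ioi 0)) (nhds (0 * |u i|)) :=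
        (Filter.tendsto_id.mul_const _).mono_left nhdsWithin_le_nhds
      rw [zero_mul] at h2
      have h3 : 0 < m i / 2 := by have := hm0 i; linarith
      filter_upwards [h2.eventually (gt_mem_nhds h3)] with ε hε
      exact hε.le
    have h4 : ∀ᶠ ε : ℝ in nhdsWithin 0 (Ioi 0), ε < ε₀ :=
      nhdsWithin_le_nhds (gt_mem_nhds hε₀)
    have h5 : ∀ᶠ ε : ℝ in nhdsWithin 0 (Ioi 0), 0 < ε := self_mem_nhdsWithin
    obtain ⟨ε, h6, h7, h8⟩ := (h5.and (h4.and (Filter.eventually_all.mpr h1))).exists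
    exact ⟨ε, h6, h7, h8⟩
  obtain ⟨ε, hε, hεε₀, hεm⟩ := hex
  set m' : ι → ℝ := fun i => m i + ε * u i with hm'def
  have hab : ∀ i, |ε * u i| ≤ m i / 2 := by
    intro i
    rw [abs_mul, abs_of_pos hε]
    exact hεm i
  have hm'0 : ∀ i, 0 < m' i := by
    intro i
    have h1 := abs_le.mp (hab i)
    have h2 := hm0 i
    simp only [hm'def]
    linarith [h1.1]
  have hmm' : ∀ i, m i ≤ 2 * m' i := by
    intro i
    have h1 := abs_le.mp (hab i)
    have h2 := hm0 i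
    simp only [hm'def]
    linarith [h1.1]
  have hm'sum : ∑ i, m' i = 1 := by
    simp only [hm'def]
    rw [Finset.sum_add_distrib, ← Finset.mul_sum, hu, hmsum]
    ring
  -- choose weights
  have hΨ : ∀ t, ∃ Ψ : ι → ℝ, (t ∈ Icc (0 : ℝ) 1 → ∀ i, mass K (yt t) Ψ i = m i) ∧
      (t = 0 → Ψ = ψ) ∧ (t = 1 → Ψ = χ) := by
    intro t
    by_cases h0 : t = 0
    · refine ⟨ψ, fun _ i => by rw [h0, hyt0], fun _ => rfl, fun h => ?_⟩
      rw [h0] at h
      exact absurd h zero_ne_one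
    by_cases h1 : t = 1
    · exact ⟨χ, fun _ i => by rw [h1, hyt1]; exact hχ i, fun h => absurd h h0, fun _ => rfl⟩
    by_cases ht : t ∈ Icc (0 : ℝ) 1
    · obtain ⟨Ψ, hΨ⟩ := exists_weights hK hKc hKi (hyz t ht) hm0 hmsum
      exact ⟨Ψ, fun _ => hΨ, fun h => absurd h h0, fun h => absurd h h1⟩
    · exact ⟨ψ, fun h => absurd h ht, fun h => absurd h h0, fun h => absurd h h1⟩
  choose Ψ hΨ hΨ0 hΨ1 using hΨ
  have hΨ' : ∀ t, ∃ Ψ' : ι → ℝ, t ∈ Icc (0 : ℝ) 1 → ∀ i, mass K (yt t) Ψ' i = m' i := by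
    intro t
    by_cases ht : t ∈ Icc (0 : ℝ) 1
    · obtain ⟨Ψ', hΨ'⟩ := exists_weights hK hKc hKi (hyz t ht) hm'0 hm'sum
      exact ⟨Ψ', fun _ => hΨ'⟩
    · exact ⟨ψ, fun h => absurd h ht⟩
  choose Ψ' hΨ' using hΨ'
  have h00 : (0 : ℝ) ∈ Icc (0 : ℝ) 1 := ⟨le_rfl, zero_le_one⟩
  have h11 : (1 : ℝ) ∈ Icc (0 : ℝ) 1 := ⟨zero_le_one, le_rfl⟩
  -- the functionals
  have hconv : ∀ (Φ : ℝ → ι → ℝ) (p : ι → ℝ),
      (∀ t ∈ Icc (0 : ℝ) 1, ∀ i, mass K (yt t) (Φ t) i = p i) →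
      ∀ s ∈ Icc (0 : ℝ) 1, ∀ t ∈ Icc (0 : ℝ) 1,
      (t - s) * (∑ i, inner ℝ (mom K (yt s) (Φ s) i) (z i - y i)) ≤
        (∑ i, inner ℝ (mom K (yt t) (Φ t) i) (yt t i)) -
          ∑ i, inner ℝ (mom K (yt s) (Φ s) i) (yt s i) := by
    intro Φ p hΦ s hs t ht
    have h1 := value_ge hK hKi (hyz s hs) (hyz t ht) (Φ s) (Φ t)
    have h2 : ∑ i, (mass K (yt s) (Φ s) i - mass K (yt t) (Φ t) i) * Φ t i = 0 := by
      refine Finset.sum_eq_zero fun i _ => ?_
      rw [hΦ s hs, hΦ t ht]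
      ring
    have h3 : (t - s) * (∑ i, inner ℝ (mom K (yt s) (Φ s) i) (z i - y i)) =
        (∑ i, inner ℝ (mom K (yt s) (Φ s) i) (yt t i)) -
          ∑ i, inner ℝ (mom K (yt s) (Φ s) i) (yt s i) := by
      rw [← Finset.sum_sub_distrib, Finset.mul_sum]
      refine Finset.sum_congr rfl fun i _ => ?_
      rw [← inner_sub_right]
      have h4 : yt t i - yt s i = (t - s) • (z i - y i) := by
        simp only [hyt, sub_smul, smul_sub, one_smul]
        abel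
      rw [h4, inner_smul_right]
    have h5 : ∑ i, inner ℝ (mom K (yt s) (Φ s) i) (yt t i) ≤
        ∑ i, inner ℝ (mom K (yt t) (Φ t) i) (yt t i) +
          ∑ i, (mass K (yt s) (Φ s) i - mass K (yt t) (Φ t) i) * Φ t i := h1
    rw [h2] at h5
    rw [h3]
    linarith
  have hder : ∀ t ∈ Icc (0 : ℝ) 1,
      (∑ i, inner ℝ (mom K (yt t) (Ψ' t) i) (z i - y i)) -
        (∑ i, inner ℝ (mom K (yt t) (Ψ t) i) (z i - y i)) ≤
      (R + Real.sqrt C₀) * Real.sqrt (∑ i, (m' i - m i) ^ 2 / m i) *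
        Real.sqrt (∑ i, m i * ‖z i - y i‖ ^ 2) := by
    intro t ht
    have e1 : ∀ i, mass K (yt t) (Ψ t) i = m i := hΨ t ht
    have e2 : ∀ i, mass K (yt t) (Ψ' t) i = m' i := hΨ' t ht
    have p1 : ∀ i, 0 < mass K (yt t) (Ψ t) i := fun i => by rw [e1]; exact hm0 i
    have p2 : ∀ i, 0 < mass K (yt t) (Ψ' t) i := fun i => by rw [e2]; exact hm'0 i
    have h1 := hC₀ K hK hKc hKi hKR ι (yt t) (hyz t ht) (Ψ t) (Ψ' t) p1 p2
      (fun i => by rw [e1, e2]; exact hmm' i)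
    have h2 := deriv_bound hK hKi hR hKR p1 p2 h1 (fun i => z i - y i)
    simp only [e1, e2] at h2
    exact h2
  have hcmp := compare (hconv Ψ m hΨ) (hconv Ψ' m' hΨ') hder
  -- endpoints
  have g1 := value_ge hK hKi (hyz 1 h11) (hyz 1 h11) (Ψ 1) (Ψ' 1)
  have g0 := value_ge hK hKi (hyz 0 h00) (hyz 0 h00) (Ψ' 0) (Ψ 0)
  have q1 : ∑ i, (mass K (yt 1) (Ψ 1) i - mass K (yt 1) (Ψ' 1) i) * Ψ' 1 i =
      -(ε * ∑ i, Ψ' 1 i * u i) := by
    rw [Finset.mul_sum, ← Finset.sum_neg_distrib]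
    refine Finset.sum_congr rfl fun i _ => ?_
    rw [hΨ 1 h11, hΨ' 1 h11]
    simp only [hm'def]
    ring
  have q0 : ∑ i, (mass K (yt 0) (Ψ' 0) i - mass K (yt 0) (Ψ 0) i) * Ψ 0 i =
      ε * ∑ i, ψ i * u i := by
    rw [Finset.mul_sum]
    refine Finset.sum_congr rfl fun i _ => ?_
    rw [hΨ 0 h00, hΨ' 0 h00, hΨ0 0 rfl]
    simp only [hm'def]
    ring
  have g1' : ∑ i, inner ℝ (mom K (yt 1) (Ψ 1) i) (yt 1 i) ≤
      ∑ i, inner ℝ (mom K (yt 1) (Ψ' 1) i) (yt 1 i) +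
        ∑ i, (mass K (yt 1) (Ψ 1) i - mass K (yt 1) (Ψ' 1) i) * Ψ' 1 i := g1
  have g0' : ∑ i, inner ℝ (mom K (yt 0) (Ψ' 0) i) (yt 0 i) ≤
      ∑ i, inner ℝ (mom K (yt 0) (Ψ 0) i) (yt 0 i) +
        ∑ i, (mass K (yt 0) (Ψ' 0) i - mass K (yt 0) (Ψ 0) i) * Ψ 0 i := g0
  rw [q1] at g1'
  rw [q0] at g0'
  have hlsc' := hlsc ε hε hεε₀ (Ψ' 1) (fun i => by
    have h1 := hΨ' 1 h11 i
    rw [hyt1] at h1
    rw [h1, hχ])
  have hB : Real.sqrt (∑ i, (m' i - m i) ^ 2 / m i) =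
      ε * Real.sqrt (∑ i, u i ^ 2 / m i) := by
    have h1 : ∑ i, (m' i - m i) ^ 2 / m i = ε ^ 2 * ∑ i, u i ^ 2 / m i := by
      rw [Finset.mul_sum]
      refine Finset.sum_congr rfl fun i _ => ?_
      simp only [hm'def]
      ring
    rw [h1, Real.sqrt_mul (sq_nonneg _), Real.sqrt_sq hε.le]
  rw [hB] at hcmp
  have hfin : ε * (∑ i, Ψ' 1 i * u i - ∑ i, ψ i * u i) ≤
      ε * ((R + Real.sqrt C₀) * Real.sqrt (∑ i, u i ^ 2 / m i) *
        Real.sqrt (∑ i, m i * ‖z i - y i‖ ^ 2)) := by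
    have h1 : (R + Real.sqrt C₀) * (ε * Real.sqrt (∑ i, u i ^ 2 / m i)) *
        Real.sqrt (∑ i, m i * ‖z i - y i‖ ^ 2) =
        ε * ((R + Real.sqrt C₀) * Real.sqrt (∑ i, u i ^ 2 / m i) *
        Real.sqrt (∑ i, m i * ‖z i - y i‖ ^ 2)) := by ring
    rw [h1] at hcmp
    linarith
  have hfin2 := le_of_mul_le_mul_left hfin hε
  have hsplit : ∑ i, (χ i - ψ i) * u i = ∑ i, χ i * u i - ∑ i, ψ i * u i := by
    rw [← Finset.sum_sub_distrib]
    exact Finset.sum_congr rfl fun i _ => by ring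
  rw [hsplit]
  linarith

end main

end WStab

open WStab

theorem weights_stability {d : ℕ} {K : Set (E d)} (hK : IsCompact K) (hKc : Convex ℝ K)
    (hKi : (interior K).Nonempty) :
    ∃ C : ℝ, 0 ≤ C ∧ ∀ (ι : Type) [Fintype ι] [Nonempty ι] (y z : ι → E d),
      (∀ t ∈ Icc (0 : ℝ) 1, Function.Injective (fun i => (1 - t) • y i + t • z i)) →
      ∀ ψ χ : ι → ℝ, (∀ i, 0 < mass K y ψ i) → (∀ i, mass K z χ i = mass K y ψ i) →
      ∃ c : ℝ, ∑ i, mass K y ψ i * (χ i - ψ i - c) ^ 2 ≤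
        C * ∑ i, mass K y ψ i * ‖z i - y i‖ ^ 2 := by
  obtain ⟨R₀, hR₀⟩ := hK.isBounded.exists_norm_le
  set R : ℝ := max R₀ 1 with hRdef
  have hR : 0 < R := lt_of_lt_of_le one_pos (le_max_right _ _)
  have hKR : K ⊆ Metric.closedBall 0 R := by
    intro x hx
    rw [mem_closedBall_zero_iff]
    exact (hR₀ x hx).trans (le_max_left _ _)
  obtain ⟨C₀, hC₀0, hC₀⟩ := bary_stability (d := d) hR
  refine ⟨(R + Real.sqrt C₀) ^ 2, sq_nonneg _, ?_⟩
  intro ι _ _ y z hyz ψ χ hm hχ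
  have hyinj : Function.Injective y := by
    have := hyz 0 ⟨le_rfl, zero_le_one⟩
    simpa using this
  have hmsum : ∑ i, mass K y ψ i = 1 := sum_mass hK hKi hyinj ψ
  set c : ℝ := ∑ i, mass K y ψ i * (χ i - ψ i) with hc
  refine ⟨c, ?_⟩
  set u : ι → ℝ := fun i => mass K y ψ i * (χ i - ψ i - c) with hudef
  have hu : ∑ i, u i = 0 := by
    simp only [hudef]
    have h1 : ∀ i, mass K y ψ i * (χ i - ψ i - c) =
        mass K y ψ i * (χ i - ψ i) - mass K y ψ i * c := fun i => by ring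
    simp only [h1]
    rw [Finset.sum_sub_distrib, ← Finset.sum_mul, hmsum, ← hc]
    ring
  have key := key_ineq hK hKc hKi hR hKR hC₀ hyz hm hχ hu
  set V : ℝ := ∑ i, mass K y ψ i * (χ i - ψ i - c) ^ 2 with hV
  set W : ℝ := ∑ i, mass K y ψ i * ‖z i - y i‖ ^ 2 with hW
  have h1 : ∑ i, (χ i - ψ i) * u i = V := by
    have h2 : ∑ i, (χ i - ψ i) * u i = V + c * ∑ i, u i := by
      rw [hV, Finset.mul_sum, ← Finset.sum_add_distrib]
      refine Finset.sum_congr rfl fun i _ => ?_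
      simp only [hudef]
      ring
    rw [h2, hu, mul_zero, add_zero]
  have h2 : ∑ i, u i ^ 2 / mass K y ψ i = V := by
    refine Finset.sum_congr rfl fun i _ => ?_
    have h3 : mass K y ψ i ≠ 0 := (hm i).ne'
    simp only [hudef]
    field_simp
  rw [h1, h2] at key
  have hV0 : 0 ≤ V := Finset.sum_nonneg fun i _ => mul_nonneg (hm i).le (sq_nonneg _)
  have hW0 : 0 ≤ W := Finset.sum_nonneg fun i _ => mul_nonneg (hm i).le (sq_nonneg _)
  have hVs := Real.mul_self_sqrt hV0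
  have hWs := Real.mul_self_sqrt hW0
  have hA : 0 ≤ R + Real.sqrt C₀ := by have := Real.sqrt_nonneg C₀; linarith
  rcases eq_or_lt_of_le (Real.sqrt_nonneg V) with h0 | h0
  · have : V = 0 := by rw [← hVs, ← h0]; ring
    rw [this]
    positivity
  · have h3 : Real.sqrt V ≤ (R + Real.sqrt C₀) * Real.sqrt W := by
      have h4 : Real.sqrt V * Real.sqrt V ≤ (R + Real.sqrt C₀) * Real.sqrt W * Real.sqrt V := by
        rw [hVs]
        linarith
      exact le_of_mul_le_mul_right h4 h0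
    calc V = Real.sqrt V * Real.sqrt V := hVs.symm
      _ ≤ ((R + Real.sqrt C₀) * Real.sqrt W) * ((R + Real.sqrt C₀) * Real.sqrt W) :=
          mul_le_mul h3 h3 h0.le (mul_nonneg hA (Real.sqrt_nonneg _))
      _ = (R + Real.sqrt C₀) ^ 2 * (Real.sqrt W * Real.sqrt W) := by ring
      _ = (R + Real.sqrt C₀) ^ 2 * W := by rw [hWs]

end Vale.Agent.P074
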